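import Mathlib

/-!
# Tilted laws on subsets of a finite index type

`c : Finset ι → ℝ` is a nonnegative coefficient function (the law of a random subset up to
normalisation), `h : ι → ℝ` an external field. `Et c h f` is the expectation of `f` under the
exponentially tilted law.
-/

set_option autoImplicit false
set_option linter.unusedSectionVars false
set_option linter.unusedSimpArgs false
set_option linter.unusedVariables false

namespace Crest.Agent.Lib.SRFlow

open Finset

variable {ι : Type*} [Fintype ι] [DecidableEq ι]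

/-- The tilted weight of the subset `S`. -/
noncomputable def wt (c : Finset ι → ℝ) (h : ι → ℝ) (S : Finset ι) : ℝ :=
  c S * Real.exp (∑ i ∈ S, h i)

/-- The tilted partition function. -/
noncomputable def Zt (c : Finset ι → ℝ) (h : ι → ℝ) : ℝ := ∑ S : Finset ι, wt c h S

/-- The tilted expectation of `f`. -/
noncomputable def Et (c : Finset ι → ℝ) (h : ι → ℝ) (f : Finset ι → ℝ) : ℝ :=
  (∑ S : Finset ι, wt c h S * f S) / Zt c h

/-- The indicator of `e ∈ S`. -/
def ind (e : ι) (S : Finset ι) : ℝ := if e ∈ S then 1 else 0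

/-- The tilted covariance. -/
noncomputable def Covt (c : Finset ι → ℝ) (h : ι → ℝ) (f g : Finset ι → ℝ) : ℝ :=
  Et c h (fun S => f S * g S) - Et c h f * Et c h g

/-- Admissible coefficients: nonnegative and not all zero. -/
structure Adm (c : Finset ι → ℝ) : Prop where
  nonneg : ∀ S, 0 ≤ c S
  pos : 0 < ∑ S : Finset ι, c S

lemma wt_nonneg {c : Finset ι → ℝ} (hc : Adm c) (h : ι → ℝ) (S : Finset ι) : 0 ≤ wt c h S :=
  mul_nonneg (hc.nonneg S) (Real.exp_pos _).le

lemma Zt_pos {c : Finset ι → ℝ} (hc : Adm c) (h : ι → ℝ) : 0 < Zt c h := by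
  obtain ⟨S, -, hS⟩ : ∃ S ∈ (Finset.univ : Finset (Finset ι)), 0 < c S := by
    by_contra hcon
    push Not at hcon
    have : ∑ S : Finset ι, c S ≤ 0 := Finset.sum_nonpos hcon
    linarith [hc.pos]
  refine Finset.sum_pos' (fun T _ => wt_nonneg hc h T) ⟨S, Finset.mem_univ _, ?_⟩
  exact mul_pos hS (Real.exp_pos _)

lemma Et_const {c : Finset ι → ℝ} (hc : Adm c) (h : ι → ℝ) (a : ℝ) :
    Et c h (fun _ => a) = a := by
  unfold Et
  have hZ := Zt_pos hc h
  rw [← Finset.sum_mul]
  show Zt c h * a / Zt c h = a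
  field_simp

lemma abs_Et_le {c : Finset ι → ℝ} (hc : Adm c) (h : ι → ℝ) {f : Finset ι → ℝ} {B : ℝ}
    (hf : ∀ S, |f S| ≤ B) : |Et c h f| ≤ B := by
  unfold Et
  have hZ := Zt_pos hc h
  rw [abs_div, abs_of_pos hZ, div_le_iff₀ hZ]
  calc |∑ S : Finset ι, wt c h S * f S| ≤ ∑ S : Finset ι, |wt c h S * f S| :=
        Finset.abs_sum_le_sum_abs _ _
    _ ≤ ∑ S : Finset ι, wt c h S * B := by
        refine Finset.sum_le_sum fun S _ => ?_
        rw [abs_mul, abs_of_nonneg (wt_nonneg hc h S)]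
        exact mul_le_mul_of_nonneg_left (hf S) (wt_nonneg hc h S)
    _ = B * Zt c h := by
        rw [← Finset.sum_mul, mul_comm]; rfl

lemma Et_add {c : Finset ι → ℝ} (h : ι → ℝ) (f g : Finset ι → ℝ) :
    Et c h (fun S => f S + g S) = Et c h f + Et c h g := by
  unfold Et
  rw [← add_div, ← Finset.sum_add_distrib]
  congr 1
  exact Finset.sum_congr rfl fun S _ => by ring

lemma Et_mul_const {c : Finset ι → ℝ} (h : ι → ℝ) (f : Finset ι → ℝ) (a : ℝ) :
    Et c h (fun S => f S * a) = Et c h f * a := by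
  unfold Et
  rw [div_mul_eq_mul_div, Finset.sum_mul]
  congr 1
  exact Finset.sum_congr rfl fun S _ => by ring

lemma Et_sum {c : Finset ι → ℝ} (h : ι → ℝ) {κ : Type*} (s : Finset κ)
    (f : κ → Finset ι → ℝ) :
    Et c h (fun S => ∑ k ∈ s, f k S) = ∑ k ∈ s, Et c h (f k) := by
  unfold Et
  rw [← Finset.sum_div]
  congr 1
  simp_rw [Finset.mul_sum]
  rw [Finset.sum_comm]

lemma Et_nonneg {c : Finset ι → ℝ} (hc : Adm c) (h : ι → ℝ) {f : Finset ι → ℝ}
    (hf : ∀ S, 0 ≤ f S) : 0 ≤ Et c h f :=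
  div_nonneg (Finset.sum_nonneg fun S _ => mul_nonneg (wt_nonneg hc h S) (hf S))
    (Zt_pos hc h).le

lemma Et_mono {c : Finset ι → ℝ} (hc : Adm c) (h : ι → ℝ) {f g : Finset ι → ℝ}
    (hfg : ∀ S, f S ≤ g S) : Et c h f ≤ Et c h g := by
  unfold Et
  exact div_le_div_of_nonneg_right (Finset.sum_le_sum fun S _ =>
    mul_le_mul_of_nonneg_left (hfg S) (wt_nonneg hc h S)) (Zt_pos hc h).le

lemma ind_nonneg (e : ι) (S : Finset ι) : 0 ≤ ind e S := by
  unfold ind; split_ifs <;> norm_num

lemma ind_le_one (e : ι) (S : Finset ι) : ind e S ≤ 1 := by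
  unfold ind; split_ifs <;> norm_num

lemma abs_ind_le (e : ι) (S : Finset ι) : |ind e S| ≤ 1 := by
  rw [abs_of_nonneg (ind_nonneg e S)]; exact ind_le_one e S

lemma Et_ind_nonneg {c : Finset ι → ℝ} (hc : Adm c) (h : ι → ℝ) (e : ι) :
    0 ≤ Et c h (ind e) := Et_nonneg hc h (ind_nonneg e)

lemma Et_ind_le_one {c : Finset ι → ℝ} (hc : Adm c) (h : ι → ℝ) (e : ι) :
    Et c h (ind e) ≤ 1 := by
  have := Et_mono hc h (f := ind e) (g := fun _ => 1) (ind_le_one e)
  rwa [Et_const hc] at this

/-! ### Differentiation in the field -/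

/-- The linear functional `v ↦ ∑ i, X i * v i` on `ι → ℝ`. -/
noncomputable def linF (X : ι → ℝ) : (ι → ℝ) →L[ℝ] ℝ :=
  ∑ i, X i • ContinuousLinearMap.proj (R := ℝ) (φ := fun _ : ι => ℝ) i

lemma linF_apply (X v : ι → ℝ) : linF X v = ∑ i, X i * v i := by
  simp [linF]

lemma norm_linF_le (X : ι → ℝ) : ‖linF X‖ ≤ ∑ i, |X i| := by
  refine ContinuousLinearMap.opNorm_le_bound _ (Finset.sum_nonneg fun _ _ => abs_nonneg _) ?_
  intro v
  rw [linF_apply, Finset.sum_mul]
  refine (norm_sum_le _ _).trans (Finset.sum_le_sum fun i _ => ?_)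
  rw [norm_mul, Real.norm_eq_abs]
  exact mul_le_mul_of_nonneg_left (norm_le_pi_norm v i) (abs_nonneg _)

lemma sum_mem_eq_linF (S : Finset ι) (v : ι → ℝ) :
    ∑ i ∈ S, v i = ∑ i, ind i S * v i := by
  simp only [ind, ite_mul, one_mul, zero_mul]
  rw [Finset.sum_ite_mem]
  simp

/-- Derivative of a weight. -/
lemma hasFDerivAt_wt (c : Finset ι → ℝ) (h : ι → ℝ) (S : Finset ι) :
    HasFDerivAt (fun h => wt c h S) (wt c h S • linF (fun i => ind i S)) h := by
  have h1 : HasFDerivAt (fun h : ι → ℝ => ∑ i ∈ S, h i) (linF (fun i => ind i S)) h := by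
    have : (fun h : ι → ℝ => ∑ i ∈ S, h i) = fun h => linF (fun i => ind i S) h := by
      funext v; rw [linF_apply, sum_mem_eq_linF]
    rw [this]
    exact (linF (fun i => ind i S)).hasFDerivAt
  have h2 := (h1.exp).const_mul (c S)
  refine h2.congr_fderiv ?_
  ext v
  simp [wt]
  ring

/-- Derivative of the numerator/denominator of a tilted expectation. -/
lemma hasFDerivAt_num (c : Finset ι → ℝ) (h : ι → ℝ) (f : Finset ι → ℝ) :
    HasFDerivAt (fun h => ∑ S : Finset ι, wt c h S * f S)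
      (∑ S : Finset ι, (wt c h S * f S) • linF (fun i => ind i S)) h := by
  refine HasFDerivAt.fun_sum fun S _ => ?_
  have := (hasFDerivAt_wt c h S).mul_const (f S)
  refine this.congr_fderiv ?_
  ext v
  simp
  ring

lemma num_eq_Et {c : Finset ι → ℝ} (hc : Adm c) (h : ι → ℝ) (f : Finset ι → ℝ) :
    ∑ S : Finset ι, wt c h S * f S = Zt c h * Et c h f := by
  unfold Et
  have := (Zt_pos hc h).ne'
  field_simp

/-- The key sum identity: `∑_S w_S f_S L_v(S) = Z * E[f * L_v]`. -/
lemma num_linF {c : Finset ι → ℝ} (hc : Adm c) (h : ι → ℝ) (f : Finset ι → ℝ) (v : ι → ℝ) :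
    ∑ S : Finset ι, wt c h S * f S * ∑ i, ind i S * v i
      = Zt c h * ∑ i, v i * Et c h (fun S => f S * ind i S) := by
  simp_rw [Finset.mul_sum]
  rw [Finset.sum_comm]
  refine Finset.sum_congr rfl fun i _ => ?_
  have := num_eq_Et hc h (fun S => f S * ind i S)
  calc ∑ S : Finset ι, wt c h S * f S * (ind i S * v i)
      = (∑ S : Finset ι, wt c h S * (f S * ind i S)) * v i := by
        rw [Finset.sum_mul]; exact Finset.sum_congr rfl fun S _ => by ring
    _ = Zt c h * (v i * Et c h (fun S => f S * ind i S)) := by rw [this]; ring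

/-- Covariance form of the derivative of a tilted expectation. -/
lemma hasFDerivAt_Et {c : Finset ι → ℝ} (hc : Adm c) (h : ι → ℝ) (f : Finset ι → ℝ) :
    HasFDerivAt (fun h => Et c h f) (linF (fun i => Covt c h f (ind i))) h := by
  have hN := hasFDerivAt_num c h f
  have hD : HasFDerivAt (fun h => Zt c h)
      (∑ S : Finset ι, (wt c h S) • linF (fun i => ind i S)) h := by
    have := hasFDerivAt_num c h (fun _ => 1)
    simpa [Zt] using this
  have hZ := (Zt_pos hc h).ne'
  have hI := (hasDerivAt_inv hZ).comp_hasFDerivAt h hD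
  have h3 := hN.mul hI
  have heq : (fun h : ι → ℝ => Et c h f) =
      fun h => (∑ S : Finset ι, wt c h S * f S) * (Inv.inv ∘ fun h => Zt c h) h := by
    funext h'; simp [Et, div_eq_mul_inv]
  rw [heq]
  refine h3.congr_fderiv ?_
  ext v
  have e1 : (∑ S : Finset ι, (wt c h S * f S) • linF (fun i => ind i S)) v
      = Zt c h * ∑ i, v i * Et c h (fun S => f S * ind i S) := by
    rw [← num_linF hc h f v]
    simp [linF_apply]
  have e2 : (∑ S : Finset ι, (wt c h S) • linF (fun i => ind i S)) v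
      = Zt c h * ∑ i, v i * Et c h (ind i) := by
    have := num_linF hc h (fun _ => 1) v
    simp only [mul_one, one_mul] at this
    rw [show (∑ i, v i * Et c h (ind i)) = ∑ i, v i * Et c h (fun S => ind i S) from rfl, ← this]
    simp [linF_apply]
  have e3 : ∑ S : Finset ι, wt c h S * f S = Zt c h * Et c h f := num_eq_Et hc h f
  simp only [ContinuousLinearMap.add_apply, ContinuousLinearMap.smul_apply, smul_eq_mul,
    linF_apply, ContinuousLinearMap.neg_apply, Function.comp]
  simp only [Covt, e1, e2, e3]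
  have hR : ∑ i, ((Et c h fun S => f S * ind i S) - Et c h f * Et c h (ind i)) * v i
      = (∑ i, v i * Et c h fun S => f S * ind i S)
        - Et c h f * ∑ i, v i * Et c h (ind i) := by
    rw [Finset.mul_sum, ← Finset.sum_sub_distrib]
    exact Finset.sum_congr rfl fun i _ => by ring
  rw [hR]
  field_simp
  ring

/-- A covariance bound gives a sup-norm Lipschitz estimate for tilted expectations. -/
lemma abs_Et_sub_le {c : Finset ι → ℝ} (hc : Adm c) {f : Finset ι → ℝ} {C : ℝ}
    (hC : ∀ h, ∑ i, |Covt c h f (ind i)| ≤ C) (h h' : ι → ℝ) :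
    |Et c h f - Et c h' f| ≤ C * ‖h - h'‖ := by
  have := Convex.norm_image_sub_le_of_norm_hasFDerivWithin_le
    (f := fun h => Et c h f) (f' := fun h => linF (fun i => Covt c h f (ind i)))
    (s := Set.univ) (C := C) (x := h') (y := h)
    (fun x _ => (hasFDerivAt_Et hc x f).hasFDerivWithinAt)
    (fun x _ => (norm_linF_le _).trans (hC x))
    convex_univ (Set.mem_univ _) (Set.mem_univ _)
  simpa [Real.norm_eq_abs] using this

end Crest.Agent.Lib.SRFlow
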