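import Crest.Agent.Lib.SRFlow.Reindex
import Crest.Prelude.Def_StronglyRayleigh

/-!
# The system of cylinder masses of a strongly Rayleigh law
-/

set_option autoImplicit false
set_option linter.unusedSectionVars false
set_option linter.unusedSimpArgs false
set_option linter.unusedVariables false

namespace Crest.Agent.Lib.SRFlow

open Finset MeasureTheory Set ProbabilityTheory
open scoped ENNReal

variable {E : Type*} [DecidableEq E]

/-- The cylinder "occupied within `F` exactly at `S`". -/
def cyl (F S : Finset E) : Set (E → Bool) := {ω | ∀ i ∈ F, (ω i = true ↔ i ∈ S)}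

lemma measurableSet_cyl (F S : Finset E) : MeasurableSet (cyl F S) := by
  have : cyl F S = ⋂ i ∈ F, {ω : E → Bool | ω i = true ↔ i ∈ S} := by
    ext ω
    simp [cyl]
  rw [this]
  refine Finset.measurableSet_biInter _ fun i _ => ?_
  have hm : Measurable fun ω : E → Bool => ω i := measurable_pi_apply i
  by_cases hi : i ∈ S
  · simp only [hi, iff_true]
    exact hm (measurableSet_singleton true)
  · simp only [hi, iff_false]
    exact (hm (measurableSet_singleton true)).compl

/-- The masses of the cylinders. -/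
noncomputable def cylC (ν : Measure (E → Bool)) (F S : Finset E) : ℝ := (ν (cyl F S)).toReal

lemma cyl_eq_biUnion {F F' : Finset E} (hFF' : F ⊆ F') {S : Finset E} (hS : S ⊆ F) :
    cyl F S = ⋃ S' ∈ F'.powerset.filter (fun S' => S' ∩ F = S), cyl F' S' := by
  ext ω
  simp only [Set.mem_iUnion, exists_prop]
  constructor
  · intro hω
    refine ⟨F'.filter fun i => ω i = true, ?_, ?_⟩
    · rw [Finset.mem_filter, Finset.mem_powerset]
      refine ⟨Finset.filter_subset _ _, ?_⟩
      ext i
      simp only [Finset.mem_inter, Finset.mem_filter]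
      constructor
      · rintro ⟨⟨_, h1⟩, h2⟩
        exact (hω i h2).mp h1
      · intro hi
        exact ⟨⟨hFF' (hS hi), (hω i (hS hi)).mpr hi⟩, hS hi⟩
    · intro i hi
      simp [hi]
  · rintro ⟨S', hS', hω⟩ i hi
    rw [Finset.mem_filter] at hS'
    rw [hω i (hFF' hi), ← hS'.2, Finset.mem_inter]
    simp [hi]

lemma cyl_disjoint {F' S₁ S₂ : Finset E} (h₁ : S₁ ⊆ F') (h₂ : S₂ ⊆ F') (hne : S₁ ≠ S₂) :
    Disjoint (cyl F' S₁) (cyl F' S₂) := by
  rw [Set.disjoint_left]
  intro ω hω₁ hω₂
  apply hne
  ext i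
  constructor
  · intro hi
    exact (hω₂ i (h₁ hi)).mp ((hω₁ i (h₁ hi)).mpr hi)
  · intro hi
    exact (hω₁ i (h₂ hi)).mp ((hω₂ i (h₂ hi)).mpr hi)

lemma cylC_consistent (ν : Measure (E → Bool)) [IsProbabilityMeasure ν] {F F' : Finset E}
    (hFF' : F ⊆ F') {S : Finset E} (hS : S ⊆ F) :
    cylC ν F S = ∑ S' ∈ F'.powerset with S' ∩ F = S, cylC ν F' S' := by
  unfold cylC
  rw [cyl_eq_biUnion hFF' hS, measure_biUnion_finset, ENNReal.toReal_sum]
  · exact fun S' _ => measure_ne_top _ _
  · intro S₁ hS₁ S₂ hS₂ hne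
    have h₁ := (Finset.mem_filter.mp (Finset.mem_coe.mp hS₁)).1
    have h₂ := (Finset.mem_filter.mp (Finset.mem_coe.mp hS₂)).1
    exact cyl_disjoint (Finset.mem_powerset.mp h₁) (Finset.mem_powerset.mp h₂) hne
  · exact fun S' _ => measurableSet_cyl F' S'

lemma cylC_sum_one (ν : Measure (E → Bool)) [IsProbabilityMeasure ν] (F : Finset E) :
    ∑ S ∈ F.powerset, cylC ν F S = 1 := by
  have h1 := cylC_consistent ν (F := ∅) (F' := F) (Finset.empty_subset _) (S := ∅) subset_rfl
  have h2 : cylC ν ∅ ∅ = 1 := by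
    unfold cylC
    have : cyl (∅ : Finset E) ∅ = Set.univ := by
      ext ω
      simp [cyl]
    rw [this]
    simp
  simp only [Finset.inter_empty, Finset.filter_true] at h1
  rw [← h1, h2]

/-- The cylinder masses of a strongly Rayleigh law form a consistent stable system. -/
theorem cylC_sys (ν : Measure (E → Bool)) [IsProbabilityMeasure ν]
    (hsr : Crest.ProbabilityR.StronglyRayleigh.IsStronglyRayleigh ν) : SRSys (cylC ν) := by
  refine SRSys.of_stable (fun F S => ENNReal.toReal_nonneg) (cylC_sum_one ν) (fun F F' hFF' S hS =>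
    cylC_consistent ν hFF' hS) (fun F z hz => ?_)
  let z' : E → ℂ := fun i => if h : i ∈ F then z ⟨i, h⟩ else Complex.I
  have hz' : ∀ i ∈ F, 0 < (z' i).im := by
    intro i hi
    simp only [z', hi, dif_pos]
    exact hz _
  have h1 := hsr F z' hz'
  have h2 : Crest.ProbabilityR.StronglyRayleigh.genPoly ν F z'
      = ∑ S' : Finset ↥F, ((wc (cylC ν F) F S' : ℝ) : ℂ) * ∏ i ∈ S', z i := by
    unfold Crest.ProbabilityR.StronglyRayleigh.genPoly
    rw [← sum_powerset_eq]
    refine Finset.sum_congr rfl fun S' _ => ?_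
    congr 1
    rw [Finset.prod_map]
    refine Finset.prod_congr rfl fun i _ => ?_
    simp [z', i.2]
  rw [h2] at h1
  exact h1

/-- Shift invariance of the cylinder masses. -/
theorem cylC_shift {Γ : Type*} [Group Γ] [DecidableEq Γ] (ν : Measure (Γ → Bool))
    (hinv : Crest.ProbabilityR.StronglyRayleigh.IsShiftInvariant ν) (g : Γ) (F S : Finset Γ) :
    cylC ν (F.map (Equiv.mulLeft g).toEmbedding) (S.map (Equiv.mulLeft g).toEmbedding)
      = cylC ν F S := by
  unfold cylC
  rw [← hinv g _ (measurableSet_cyl _ _)]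
  congr 2
  ext ω
  simp only [cyl, Set.mem_preimage, Set.mem_setOf_eq, Crest.ProbabilityR.StronglyRayleigh.leftShift,
    Finset.mem_map_equiv, Equiv.mulLeft_symm]
  constructor
  · intro h i hi
    have := h (g * i) (by simpa using hi)
    simpa using this
  · intro h i hi
    have := h (g⁻¹ * i) (by simpa using hi)
    simpa using this

end Crest.Agent.Lib.SRFlow
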