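import Crest.Agent.Lib.SRFlow.Basic

/-!
# The interpolant flow on a finite index set

`fld c τ z` is the posterior mean of the signal `X` given `τ X + ζ = z`. We solve
`dz/dτ = fld c τ z` and describe the solution as the limit of the Euler scheme.
-/

set_option autoImplicit false
set_option linter.unusedSectionVars false
set_option linter.unusedSimpArgs false
set_option linter.unusedVariables false

namespace Crest.Agent.Lib.SRFlow

open Finset MeasureTheory Set

variable {ι : Type*} [Fintype ι] [DecidableEq ι]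

/-- The dimension-free covariance bound. -/
def CovBd (c : Finset ι → ℝ) (C : ℝ) : Prop :=
  ∀ h e, ∑ i, |Covt c h (ind e) (ind i)| ≤ C

/-- The field corresponding to the position `z` at time `τ`. -/
noncomputable def tilt (τ : ℝ) (z : ι → ℝ) : ι → ℝ := fun i => τ * z i - τ ^ 2 / 2

/-- The drift: the posterior mean given the position. -/
noncomputable def fld (c : Finset ι → ℝ) (τ : ℝ) (z : ι → ℝ) : ι → ℝ :=
  fun e => Et c (tilt τ z) (ind e)

lemma fld_nonneg {c : Finset ι → ℝ} (hc : Adm c) (τ : ℝ) (z : ι → ℝ) (e : ι) :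
    0 ≤ fld c τ z e := Et_ind_nonneg hc _ e

lemma fld_le_one {c : Finset ι → ℝ} (hc : Adm c) (τ : ℝ) (z : ι → ℝ) (e : ι) :
    fld c τ z e ≤ 1 := Et_ind_le_one hc _ e

lemma norm_fld_le {c : Finset ι → ℝ} (hc : Adm c) (τ : ℝ) (z : ι → ℝ) :
    ‖fld c τ z‖ ≤ 1 := by
  refine (pi_norm_le_iff_of_nonneg zero_le_one).mpr fun e => ?_
  rw [Real.norm_eq_abs, abs_of_nonneg (fld_nonneg hc τ z e)]
  exact fld_le_one hc τ z e

lemma continuous_Et {c : Finset ι → ℝ} (hc : Adm c) (f : Finset ι → ℝ) :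
    Continuous fun h => Et c h f :=
  continuous_iff_continuousAt.mpr fun h => (hasFDerivAt_Et hc h f).continuousAt

lemma continuous_tilt : Continuous fun p : ℝ × (ι → ℝ) => tilt p.1 p.2 := by
  unfold tilt
  fun_prop

lemma continuous_fld {c : Finset ι → ℝ} (hc : Adm c) :
    Continuous fun p : ℝ × (ι → ℝ) => fld c p.1 p.2 := by
  refine continuous_pi fun e => ?_
  exact (continuous_Et hc (ind e)).comp continuous_tilt

lemma continuousOn_fld_comp {c : Finset ι → ℝ} (hc : Adm c) {s : Set ℝ} {β : ℝ → ι → ℝ}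
    (hβ : ContinuousOn β s) : ContinuousOn (fun σ => fld c σ (β σ)) s := by
  have h1 : ContinuousOn (fun σ : ℝ => (σ, β σ)) s := continuousOn_id.prodMk hβ
  have h2 := continuous_fld hc
  have h3 := h2.comp_continuousOn h1
  exact h3

lemma norm_tilt_sub (τ : ℝ) (z z' : ι → ℝ) :
    ‖tilt τ z - tilt τ z'‖ = |τ| * ‖z - z'‖ := by
  have : tilt τ z - tilt τ z' = τ • (z - z') := by
    funext i
    simp [tilt]
    ring
  rw [this, norm_smul, Real.norm_eq_abs]

/-- Coordinatewise Lipschitz estimate in the sup norm. -/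
lemma abs_fld_sub_le {c : Finset ι → ℝ} (hc : Adm c) {C : ℝ} (hC : CovBd c C) (τ : ℝ)
    (z z' : ι → ℝ) (e : ι) :
    |fld c τ z e - fld c τ z' e| ≤ C * (|τ| * ‖z - z'‖) := by
  have := abs_Et_sub_le hc (f := ind e) (C := C) (fun h => hC h e) (tilt τ z) (tilt τ z')
  rwa [norm_tilt_sub] at this

lemma norm_fld_sub_le {c : Finset ι → ℝ} (hc : Adm c) {C : ℝ} (hC0 : 0 ≤ C) (hC : CovBd c C)
    (τ : ℝ) (z z' : ι → ℝ) :
    ‖fld c τ z - fld c τ z'‖ ≤ C * (|τ| * ‖z - z'‖) := by
  refine (pi_norm_le_iff_of_nonneg (by positivity)).mpr fun e => ?_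
  rw [Real.norm_eq_abs]
  exact abs_fld_sub_le hc hC τ z z' e

/-- Local existence (on a whole interval) from Picard–Lindelöf. -/
lemma exists_sol {c : Finset ι → ℝ} (hc : Adm c) {C : ℝ} (hC0 : 0 ≤ C) (hC : CovBd c C)
    {T : ℝ} (hT : 0 ≤ T) (ζ : ι → ℝ) :
    ∃ α : ℝ → ι → ℝ, α 0 = ζ ∧
      ∀ t ∈ Icc 0 T, HasDerivWithinAt α (fld c t (α t)) (Icc 0 T) t := by
  let t₀ : Icc (0 : ℝ) T := ⟨0, le_rfl, hT⟩
  have hPL : IsPicardLindelof (fld c) t₀ ζ (Real.toNNReal T) 0 1 (Real.toNNReal (C * T)) := by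
    refine ⟨?_, ?_, ?_, ?_⟩
    · intro t ht
      refine LipschitzWith.lipschitzOnWith ?_
      refine LipschitzWith.of_dist_le_mul fun z z' => ?_
      rw [dist_eq_norm, dist_eq_norm]
      refine (norm_fld_sub_le hc hC0 hC t z z').trans ?_
      have ht' : |t| ≤ T := by
        rw [abs_of_nonneg ht.1]; exact ht.2
      have := mul_le_mul_of_nonneg_right ht' (norm_nonneg (z - z'))
      rw [Real.coe_toNNReal _ (mul_nonneg hC0 hT)]
      nlinarith [mul_le_mul_of_nonneg_left this hC0]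
    · intro x _
      exact ((continuous_fld hc).comp (Continuous.prodMk continuous_id continuous_const)).continuousOn
    · intro t _ x _
      simpa using norm_fld_le hc t x
    · simp [t₀, Real.coe_toNNReal _ hT, hT]
  obtain ⟨α, h0, hα⟩ := hPL.exists_eq_forall_mem_Icc_hasDerivWithinAt₀
  exact ⟨α, h0, hα⟩

/-- One step of the Euler scheme. -/
noncomputable def eulStep (c : Finset ι → ℝ) (η : ℝ) (k : ℕ) (z : ι → ℝ) : ι → ℝ :=
  z + η • fld c (k * η) z

/-- The Euler scheme with step `η`. -/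
noncomputable def eul (c : Finset ι → ℝ) (η : ℝ) (ζ : ι → ℝ) (k : ℕ) : ι → ℝ :=
  Nat.rec ζ (fun k z => eulStep c η k z) k

@[simp] lemma eul_zero (c : Finset ι → ℝ) (η : ℝ) (ζ : ι → ℝ) : eul c η ζ 0 = ζ := rfl

lemma eul_succ (c : Finset ι → ℝ) (η : ℝ) (ζ : ι → ℝ) (k : ℕ) :
    eul c η ζ (k + 1) = eul c η ζ k + η • fld c (k * η) (eul c η ζ k) := rfl

/-- The flow, defined as a limit of the Euler scheme (in `limsup` form in order to make it
measurable in all arguments, for all coefficient functions). -/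
noncomputable def flowV (c : Finset ι → ℝ) (τ : ℝ) (ζ : ι → ℝ) : ι → ℝ :=
  fun i => Filter.limsup (fun N : ℕ => eul c (τ / (N + 1)) ζ (N + 1) i) Filter.atTop

set_option maxHeartbeats 2000000 in
/-- Convergence of the Euler scheme to a solution. -/
theorem eul_tendsto {c : Finset ι → ℝ} (hc : Adm c) {C : ℝ} (hC0 : 0 ≤ C) (hC : CovBd c C)
    {τ : ℝ} (hτ : 0 ≤ τ) {ζ : ι → ℝ} {α : ℝ → ι → ℝ} (h0 : α 0 = ζ)
    (hα : ∀ t ∈ Icc 0 τ, HasDerivWithinAt α (fld c t (α t)) (Icc 0 τ) t) :
    Filter.Tendsto (fun N : ℕ => eul c (τ / (N + 1)) ζ (N + 1)) Filter.atTop (nhds (α τ)) := by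
  have hαcont : ContinuousOn α (Icc 0 τ) := fun t ht => (hα t ht).continuousWithinAt
  let g : ℝ → ι → ℝ := fun σ => fld c σ (α σ)
  have hgcont : ContinuousOn g (Icc 0 τ) := continuousOn_fld_comp hc hαcont
  have hgunif : UniformContinuousOn g (Icc 0 τ) := isCompact_Icc.uniformContinuousOn_of_continuous hgcont
  set L : ℝ := C * τ with hL
  have hL0 : 0 ≤ L := mul_nonneg hC0 hτ
  rw [Metric.tendsto_atTop]
  intro ε hε
  set ε' : ℝ := ε / (2 * (τ * Real.exp (L * τ) + 1)) with hε'
  have hden : 0 < 2 * (τ * Real.exp (L * τ) + 1) := by positivity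
  have hε'pos : 0 < ε' := div_pos hε hden
  obtain ⟨δ, hδ, hδg⟩ := Metric.uniformContinuousOn_iff.mp hgunif ε' hε'pos
  obtain ⟨N₀, hN₀⟩ : ∃ N₀ : ℕ, τ / δ < N₀ := exists_nat_gt _
  refine ⟨N₀, fun N hN => ?_⟩
  set η : ℝ := τ / (N + 1) with hη
  have hNpos : (0 : ℝ) < N + 1 := by positivity
  have hη0 : 0 ≤ η := div_nonneg hτ hNpos.le
  have hηδ : η < δ := by
    rw [hη, div_lt_iff₀ hNpos]
    have h1 : τ / δ < N + 1 := by
      have : (N₀ : ℝ) ≤ N := by exact_mod_cast hN
      linarith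
    rw [div_lt_iff₀ hδ] at h1
    linarith
  have hNη : ((N + 1 : ℕ) : ℝ) * η = τ := by
    rw [hη]; push_cast; field_simp
  -- the inductive error bound
  have herr : ∀ k : ℕ, k ≤ N + 1 →
      ‖eul c η ζ k - α (k * η)‖ ≤ ε' * (k * η) * Real.exp (L * (k * η)) := by
    intro k
    induction k with
    | zero =>
      intro _
      simp [h0]
    | succ k ih =>
      intro hk
      have hk' : k ≤ N + 1 := by omega
      have ihk := ih hk'
      have hkη0 : 0 ≤ (k : ℝ) * η := by positivity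
      have hkηle : ((k : ℝ) + 1) * η ≤ τ := by
        have : ((k : ℝ) + 1) ≤ ((N + 1 : ℕ) : ℝ) := by exact_mod_cast hk
        calc ((k : ℝ) + 1) * η ≤ ((N + 1 : ℕ) : ℝ) * η := mul_le_mul_of_nonneg_right this hη0
          _ = τ := hNη
      have hkηmem : (k : ℝ) * η ∈ Icc 0 τ := ⟨hkη0, by nlinarith⟩
      -- local error of the exact solution
      have hsub : Icc ((k : ℝ) * η) (((k : ℝ) + 1) * η) ⊆ Icc 0 τ := by
        intro x hx
        exact ⟨hkη0.trans hx.1, hx.2.trans hkηle⟩
      have hlocal : ‖α (((k : ℝ) + 1) * η) - α (k * η) - η • g (k * η)‖ ≤ ε' * η := by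
        let f : ℝ → ι → ℝ := fun s => α s - s • g (k * η)
        have hf : ∀ x ∈ Icc ((k : ℝ) * η) (((k : ℝ) + 1) * η),
            HasDerivWithinAt f (g x - g (k * η)) (Icc ((k : ℝ) * η) (((k : ℝ) + 1) * η)) x := by
          intro x hx
          have h1 := ((hα x (hsub hx)).mono hsub)
          have h2 : HasDerivWithinAt (fun s : ℝ => s • g (k * η)) (g (k * η))
              (Icc ((k : ℝ) * η) (((k : ℝ) + 1) * η)) x := by
            simpa using (hasDerivWithinAt_id x _).smul_const (g (k * η))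
          exact h1.sub h2
        have hbound : ∀ x ∈ Ico ((k : ℝ) * η) (((k : ℝ) + 1) * η), ‖g x - g (k * η)‖ ≤ ε' := by
          intro x hx
          have hxmem : x ∈ Icc 0 τ := hsub ⟨hx.1, hx.2.le⟩
          have hdist : dist x ((k : ℝ) * η) < δ := by
            rw [Real.dist_eq, abs_of_nonneg (by linarith [hx.1])]
            have : x < (k : ℝ) * η + η := by nlinarith [hx.2]
            linarith
          have := hδg x hxmem ((k : ℝ) * η) hkηmem hdist
          rw [dist_eq_norm] at this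
          exact this.le
        have hle : ((k : ℝ) * η) ≤ ((k : ℝ) + 1) * η := by nlinarith
        have := norm_image_sub_le_of_norm_deriv_le_segment' hf hbound
          (((k : ℝ) + 1) * η) ⟨hle, le_rfl⟩
        have h3 : f (((k : ℝ) + 1) * η) - f (k * η)
            = α (((k : ℝ) + 1) * η) - α (k * η) - η • g (k * η) := by
          simp only [f]
          have : ((k : ℝ) + 1) * η = k * η + η := by ring
          rw [this, add_smul]
          abel
        rw [h3] at this
        have h4 : ((k : ℝ) + 1) * η - k * η = η := by ring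
        rwa [h4] at this
      -- the Euler step
      have hstep : eul c η ζ (k + 1) - α (((k + 1 : ℕ) : ℝ) * η)
          = (eul c η ζ k - α (k * η)) + η • (fld c (k * η) (eul c η ζ k) - g (k * η))
            - (α (((k : ℝ) + 1) * η) - α (k * η) - η • g (k * η)) := by
        rw [eul_succ]
        push_cast
        rw [smul_sub]
        abel
      rw [hstep]
      have hlip : ‖fld c (k * η) (eul c η ζ k) - g (k * η)‖ ≤ L * ‖eul c η ζ k - α (k * η)‖ := by
        refine (norm_fld_sub_le hc hC0 hC _ _ _).trans ?_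
        have : |(k : ℝ) * η| ≤ τ := by
          rw [abs_of_nonneg hkη0]; exact hkηmem.2
        rw [hL, mul_assoc]
        exact mul_le_mul_of_nonneg_left
          (mul_le_mul_of_nonneg_right this (norm_nonneg _)) hC0
      set E := ‖eul c η ζ k - α (k * η)‖ with hE
      have hbound : ‖(eul c η ζ k - α (k * η)) + η • (fld c (k * η) (eul c η ζ k) - g (k * η))
            - (α (((k : ℝ) + 1) * η) - α (k * η) - η • g (k * η))‖
          ≤ (1 + η * L) * E + ε' * η := by
        refine (norm_sub_le _ _).trans ?_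
        refine add_le_add ?_ hlocal
        refine (norm_add_le _ _).trans ?_
        rw [norm_smul, Real.norm_eq_abs, abs_of_nonneg hη0]
        have := mul_le_mul_of_nonneg_left hlip hη0
        nlinarith
      refine hbound.trans ?_
      have hexp : 1 + η * L ≤ Real.exp (L * η) := by
        have := Real.add_one_le_exp (L * η)
        nlinarith
      have hE0 : 0 ≤ E := norm_nonneg _
      set K := (k : ℝ) * η with hK
      have hk1 : (((k + 1 : ℕ) : ℝ)) * η = K + η := by
        push_cast; rw [hK]; ring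
      rw [hk1]
      have hexp2 : Real.exp (L * (K + η)) = Real.exp (L * K) * Real.exp (L * η) := by
        rw [← Real.exp_add]; congr 1; ring
      rw [hexp2]
      have hexpLK : 1 ≤ Real.exp (L * K) := Real.one_le_exp (by positivity)
      have hexpLη : 1 ≤ Real.exp (L * η) := Real.one_le_exp (by positivity)
      calc (1 + η * L) * E + ε' * η
          ≤ Real.exp (L * η) * (ε' * K * Real.exp (L * K)) + ε' * η := by
            have : (1 + η * L) * E ≤ Real.exp (L * η) * E :=
              mul_le_mul_of_nonneg_right hexp hE0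
            have h2 : Real.exp (L * η) * E ≤ Real.exp (L * η) * (ε' * K * Real.exp (L * K)) :=
              mul_le_mul_of_nonneg_left ihk (Real.exp_pos _).le
            linarith
        _ ≤ ε' * (K + η) * (Real.exp (L * K) * Real.exp (L * η)) := by
            have h3 : η ≤ η * (Real.exp (L * K) * Real.exp (L * η)) := by
              have : 1 ≤ Real.exp (L * K) * Real.exp (L * η) := by nlinarith
              nlinarith
            have h4 := mul_le_mul_of_nonneg_left h3 hε'pos.le
            nlinarith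
  have hfinal := herr (N + 1) le_rfl
  rw [hNη] at hfinal
  rw [dist_eq_norm]
  have hlt : ε' * τ * Real.exp (L * τ) < ε := by
    rw [hε', div_mul_eq_mul_div, div_mul_eq_mul_div, div_lt_iff₀ hden]
    have hpos := Real.exp_pos (L * τ)
    nlinarith [mul_nonneg hτ hpos.le]
  exact lt_of_le_of_lt hfinal hlt

/-- The flow agrees with every solution of the ODE. -/
theorem flowV_eq_of_sol {c : Finset ι → ℝ} (hc : Adm c) {C : ℝ} (hC0 : 0 ≤ C) (hC : CovBd c C)
    {T : ℝ} {ζ : ι → ℝ} {α : ℝ → ι → ℝ} (h0 : α 0 = ζ)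
    (hα : ∀ t ∈ Icc 0 T, HasDerivWithinAt α (fld c t (α t)) (Icc 0 T) t)
    {τ : ℝ} (hτ : τ ∈ Icc 0 T) : flowV c τ ζ = α τ := by
  have hsub : Icc 0 τ ⊆ Icc 0 T := Icc_subset_Icc le_rfl hτ.2
  have hα' : ∀ t ∈ Icc 0 τ, HasDerivWithinAt α (fld c t (α t)) (Icc 0 τ) t :=
    fun t ht => (hα t (hsub ht)).mono hsub
  have hlim := eul_tendsto hc hC0 hC hτ.1 h0 hα'
  funext i
  exact ((tendsto_pi_nhds.mp hlim) i).limsup_eq

/-- The flow solves the ODE on every bounded time interval. -/
theorem flowV_sol {c : Finset ι → ℝ} (hc : Adm c) {C : ℝ} (hC0 : 0 ≤ C) (hC : CovBd c C)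
    {T : ℝ} (hT : 0 ≤ T) (ζ : ι → ℝ) :
    flowV c 0 ζ = ζ ∧
      ∀ t ∈ Icc 0 T, HasDerivWithinAt (fun σ => flowV c σ ζ) (fld c t (flowV c t ζ)) (Icc 0 T) t := by
  obtain ⟨α, h0, hα⟩ := exists_sol hc hC0 hC hT ζ
  have heq : ∀ t ∈ Icc 0 T, flowV c t ζ = α t := fun t ht => flowV_eq_of_sol hc hC0 hC h0 hα ht
  refine ⟨by rw [heq 0 ⟨le_rfl, hT⟩, h0], fun t ht => ?_⟩
  rw [heq t ht]
  exact (hα t ht).congr (fun s hs => heq s hs) (heq t ht)

lemma flowV_zero {c : Finset ι → ℝ} (hc : Adm c) {C : ℝ} (hC0 : 0 ≤ C) (hC : CovBd c C)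
    (ζ : ι → ℝ) : flowV c 0 ζ = ζ := (flowV_sol hc hC0 hC le_rfl ζ).1

lemma flowV_continuousOn {c : Finset ι → ℝ} (hc : Adm c) {C : ℝ} (hC0 : 0 ≤ C) (hC : CovBd c C)
    (ζ : ι → ℝ) : ContinuousOn (fun σ => flowV c σ ζ) (Ici 0) := by
  intro t ht
  have ht0 : (0 : ℝ) ≤ t := ht
  have h := (flowV_sol hc hC0 hC (T := t + 1) (by linarith) ζ).2 t ⟨ht0, by linarith⟩
  have hnh : Icc 0 (t + 1) ∈ nhdsWithin t (Ici (0 : ℝ)) := by
    refine mem_nhdsWithin.mpr ⟨Iio (t + 1), isOpen_Iio, by simp, ?_⟩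
    intro x hx
    exact ⟨hx.2, hx.1.le⟩
  exact (h.continuousWithinAt).mono_of_mem_nhdsWithin hnh

/-- The integral form of the flow. -/
theorem flowV_integral {c : Finset ι → ℝ} (hc : Adm c) {C : ℝ} (hC0 : 0 ≤ C) (hC : CovBd c C)
    {τ : ℝ} (hτ : 0 ≤ τ) (ζ : ι → ℝ) (e : ι) :
    flowV c τ ζ e = ζ e + ∫ σ in (0 : ℝ)..τ, fld c σ (flowV c σ ζ) e := by
  obtain ⟨h0, hsol⟩ := flowV_sol hc hC0 hC hτ ζ
  have hcont : ContinuousOn (fun σ => flowV c σ ζ) (Icc 0 τ) :=
    fun t ht => (hsol t ht).continuousWithinAt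
  have hgcont : ContinuousOn (fun σ => fld c σ (flowV c σ ζ) e) (Icc 0 τ) := by
    have h1 : ContinuousOn (fun σ => fld c σ (flowV c σ ζ)) (Icc 0 τ) :=
      continuousOn_fld_comp hc hcont
    have h3 := (continuous_apply e).comp_continuousOn h1
    exact h3
  have hder : ∀ x ∈ Ioo 0 τ, HasDerivAt (fun σ => flowV c σ ζ e) (fld c x (flowV c x ζ) e) x := by
    intro x hx
    have h1 := (hsol x ⟨hx.1.le, hx.2.le⟩).hasDerivAt (Icc_mem_nhds hx.1 hx.2)
    exact (hasDerivAt_pi.mp h1) e
  have hcont2 : ContinuousOn (fun σ => flowV c σ ζ e) (Icc 0 τ) := by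
    have h3 := (continuous_apply e).comp_continuousOn hcont
    exact h3
  have hint := intervalIntegral.integral_eq_sub_of_hasDerivAt_of_le hτ
    hcont2 hder
    (hgcont.intervalIntegrable_of_Icc hτ)
  rw [hint, h0]
  ring

/-- Increments of the coordinates of the flow lie between `0` and the elapsed time. -/
theorem flowV_increment {c : Finset ι → ℝ} (hc : Adm c) {C : ℝ} (hC0 : 0 ≤ C) (hC : CovBd c C)
    {τ τ' : ℝ} (hτ : 0 ≤ τ) (hττ' : τ ≤ τ') (ζ : ι → ℝ) (e : ι) :
    flowV c τ ζ e ≤ flowV c τ' ζ e ∧ flowV c τ' ζ e ≤ flowV c τ ζ e + (τ' - τ) := by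
  have hτ' : 0 ≤ τ' := hτ.trans hττ'
  have h1 := flowV_integral hc hC0 hC hτ ζ e
  have h2 := flowV_integral hc hC0 hC hτ' ζ e
  obtain ⟨h0, hsol⟩ := flowV_sol hc hC0 hC hτ' ζ
  have hcont : ContinuousOn (fun σ => flowV c σ ζ) (Icc 0 τ') :=
    fun t ht => (hsol t ht).continuousWithinAt
  have hgcont : ContinuousOn (fun σ => fld c σ (flowV c σ ζ) e) (Icc 0 τ') := by
    have h1 : ContinuousOn (fun σ => fld c σ (flowV c σ ζ)) (Icc 0 τ') :=
      continuousOn_fld_comp hc hcont
    have h3 := (continuous_apply e).comp_continuousOn h1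
    exact h3
  have hii : IntervalIntegrable (fun σ => fld c σ (flowV c σ ζ) e) volume 0 τ :=
    (hgcont.mono (Icc_subset_Icc le_rfl hττ')).intervalIntegrable_of_Icc hτ
  have hii2 : IntervalIntegrable (fun σ => fld c σ (flowV c σ ζ) e) volume τ τ' :=
    (hgcont.mono (Icc_subset_Icc hτ le_rfl)).intervalIntegrable_of_Icc hττ'
  have hsplit := intervalIntegral.integral_add_adjacent_intervals hii hii2
  have hlo : 0 ≤ ∫ σ in τ..τ', fld c σ (flowV c σ ζ) e :=
    intervalIntegral.integral_nonneg hττ' fun σ _ => fld_nonneg hc _ _ _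
  have hhi : ∫ σ in τ..τ', fld c σ (flowV c σ ζ) e ≤ τ' - τ := by
    have := intervalIntegral.integral_mono_on hττ' hii2 (intervalIntegrable_const (c := (1 : ℝ)))
      (fun σ _ => fld_le_one hc σ (flowV c σ ζ) e)
    simpa using this
  constructor <;> linarith

/-! ### Measurability -/

lemma measurable_wt (f : Finset ι → ℝ) (S : Finset ι) :
    Measurable fun p : (Finset ι → ℝ) × (ι → ℝ) => wt p.1 p.2 S * f S := by
  unfold wt
  fun_prop

lemma measurable_Et (f : Finset ι → ℝ) :
    Measurable fun p : (Finset ι → ℝ) × (ι → ℝ) => Et p.1 p.2 f := by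
  unfold Et Zt
  refine Measurable.div ?_ ?_
  · exact Finset.measurable_sum _ fun S _ => measurable_wt f S
  · refine Finset.measurable_sum _ fun S _ => ?_
    simpa using measurable_wt (fun _ => (1 : ℝ)) S

set_option maxHeartbeats 1000000 in
lemma measurable_fld (τ : ℝ) :
    Measurable fun p : (Finset ι → ℝ) × (ι → ℝ) => fld p.1 τ p.2 := by
  refine measurable_pi_lambda _ fun e => ?_
  have h1 : Measurable fun p : (Finset ι → ℝ) × (ι → ℝ) => (p.1, tilt τ p.2) := by
    refine measurable_fst.prodMk ?_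
    refine measurable_pi_lambda _ fun i => ?_
    unfold tilt
    fun_prop
  exact (measurable_Et (ind e)).comp h1

lemma measurable_eul (η : ℝ) (k : ℕ) :
    Measurable fun p : (Finset ι → ℝ) × (ι → ℝ) => eul p.1 η p.2 k := by
  induction k with
  | zero => exact measurable_snd
  | succ k ih =>
    simp only [eul_succ]
    have h1 : Measurable fun p : (Finset ι → ℝ) × (ι → ℝ) => (p.1, eul p.1 η p.2 k) :=
      measurable_fst.prodMk ih
    have h2 := (measurable_fld (ι := ι) ((k : ℝ) * η)).comp h1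
    exact ih.add (h2.const_smul η)

/-- The flow is jointly measurable in the coefficient function and the initial condition. -/
lemma measurable_flowV (τ : ℝ) :
    Measurable fun p : (Finset ι → ℝ) × (ι → ℝ) => flowV p.1 τ p.2 := by
  refine measurable_pi_lambda _ fun i => ?_
  refine Measurable.limsup fun N => ?_
  exact (measurable_pi_apply i).comp (measurable_eul (τ / ((N : ℝ) + 1)) (N + 1))

end Crest.Agent.Lib.SRFlow
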