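import Crest.Agent.Lib.SRFlow.Shift

/-!
# The law of the flow

The flow `flowV c τ` transports the standard Gaussian measure onto the mixture of the
shifted Gaussians `τ 1_S + y`, with weights `c S`. We prove this for the Euler scheme up to
an error of size `O(η)`, by telescoping along a `C^{1,1}` test function.
-/

set_option autoImplicit false
set_option linter.unusedSectionVars false
set_option linter.unusedSimpArgs false
set_option linter.unusedVariables false

namespace Crest.Agent.Lib.SRFlow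

open Finset MeasureTheory Set ProbabilityTheory
open scoped ENNReal

variable {ι : Type*} [Fintype ι] [DecidableEq ι]

/-! ### Crude Lipschitz bounds for the tilted expectations -/

lemma abs_Covt_le {c : Finset ι → ℝ} (hc : Adm c) (h : ι → ℝ) {f g : Finset ι → ℝ}
    (hf : ∀ S, |f S| ≤ 1) (hg : ∀ S, |g S| ≤ 1) : |Covt c h f g| ≤ 2 := by
  unfold Covt
  have h1 : |Et c h (fun S => f S * g S)| ≤ 1 := abs_Et_le hc h fun S => by
    rw [abs_mul]; exact mul_le_one₀ (hf S) (abs_nonneg _) (hg S)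
  have h2 : |Et c h f * Et c h g| ≤ 1 := by
    rw [abs_mul]; exact mul_le_one₀ (abs_Et_le hc h hf) (abs_nonneg _) (abs_Et_le hc h hg)
  have := abs_sub (Et c h (fun S => f S * g S)) (Et c h f * Et c h g)
  linarith

lemma abs_ind_mul_le (e i : ι) (S : Finset ι) : |ind e S * ind i S| ≤ 1 := by
  rw [abs_mul]; exact mul_le_one₀ (abs_ind_le e S) (abs_nonneg _) (abs_ind_le i S)

/-- Crude Lipschitz constant of tilted expectations. -/
lemma abs_Et_lip {c : Finset ι → ℝ} (hc : Adm c) {f : Finset ι → ℝ} (hf : ∀ S, |f S| ≤ 1)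
    (h h' : ι → ℝ) : |Et c h f - Et c h' f| ≤ (2 * Fintype.card ι) * ‖h - h'‖ := by
  refine abs_Et_sub_le hc (fun h => ?_) h h'
  calc ∑ i, |Covt c h f (ind i)| ≤ ∑ _i : ι, (2 : ℝ) :=
        Finset.sum_le_sum fun i _ => abs_Covt_le hc h hf (abs_ind_le i)
    _ = 2 * Fintype.card ι := by
        rw [Finset.sum_const, Finset.card_univ, nsmul_eq_mul]; ring

lemma abs_Covt_sub_le {c : Finset ι → ℝ} (hc : Adm c) {f g : Finset ι → ℝ}
    (hf : ∀ S, |f S| ≤ 1) (hg : ∀ S, |g S| ≤ 1) (h h' : ι → ℝ) :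
    |Covt c h f g - Covt c h' f g| ≤ (6 * Fintype.card ι) * ‖h - h'‖ := by
  unfold Covt
  set K : ℝ := (2 * Fintype.card ι) * ‖h - h'‖ with hK
  have hfg : ∀ S, |f S * g S| ≤ 1 := fun S => by
    rw [abs_mul]; exact mul_le_one₀ (hf S) (abs_nonneg _) (hg S)
  have h1 := abs_Et_lip hc hfg h h'
  have h2 := abs_Et_lip hc hf h h'
  have h3 := abs_Et_lip hc hg h h'
  have hfb := abs_Et_le hc h hf
  have hgb := abs_Et_le hc h' hg
  have hK0 : 0 ≤ K := by positivity
  have h4 : Et c h f * Et c h g - Et c h' f * Et c h' g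
      = Et c h f * (Et c h g - Et c h' g) + (Et c h f - Et c h' f) * Et c h' g := by ring
  have h5 : |Et c h f * (Et c h g - Et c h' g)| ≤ K := by
    rw [abs_mul]
    calc |Et c h f| * |Et c h g - Et c h' g| ≤ 1 * K :=
          mul_le_mul hfb h3 (abs_nonneg _) zero_le_one
      _ = K := one_mul _
  have h6 : |(Et c h f - Et c h' f) * Et c h' g| ≤ K := by
    rw [abs_mul]
    calc |Et c h f - Et c h' f| * |Et c h' g| ≤ K * 1 :=
          mul_le_mul h2 hgb (abs_nonneg _) hK0
      _ = K := mul_one _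
  have h7 : Et c h (fun S => f S * g S) - Et c h f * Et c h g
      - (Et c h' (fun S => f S * g S) - Et c h' f * Et c h' g)
      = (Et c h (fun S => f S * g S) - Et c h' (fun S => f S * g S))
        - (Et c h f * (Et c h g - Et c h' g) + (Et c h f - Et c h' f) * Et c h' g) := by
    rw [← h4]; ring
  rw [h7]
  have h8 := abs_sub (Et c h (fun S => f S * g S) - Et c h' (fun S => f S * g S))
    (Et c h f * (Et c h g - Et c h' g) + (Et c h f - Et c h' f) * Et c h' g)
  have h9 := abs_add_le (Et c h f * (Et c h g - Et c h' g))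
    ((Et c h f - Et c h' f) * Et c h' g)
  have h10 : (6 * (Fintype.card ι : ℝ)) * ‖h - h'‖ = 3 * K := by rw [hK]; ring
  rw [h10]
  linarith

/-! ### The derivative of the drift -/

/-- The derivative of the drift. -/
noncomputable def fldD (c : Finset ι → ℝ) (τ : ℝ) (z : ι → ℝ) : (ι → ℝ) →L[ℝ] (ι → ℝ) :=
  ContinuousLinearMap.pi fun e => τ • linF fun i => Covt c (tilt τ z) (ind e) (ind i)

lemma fldD_apply (c : Finset ι → ℝ) (τ : ℝ) (z v : ι → ℝ) (e : ι) :
    fldD c τ z v e = τ * ∑ i, Covt c (tilt τ z) (ind e) (ind i) * v i := by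
  simp [fldD, linF_apply]

lemma hasFDerivAt_tilt (τ : ℝ) (z : ι → ℝ) :
    HasFDerivAt (tilt τ) (τ • ContinuousLinearMap.id ℝ (ι → ℝ)) z := by
  rw [hasFDerivAt_pi']
  intro i
  have h1 : HasFDerivAt (fun z : ι → ℝ => z i) (ContinuousLinearMap.proj (R := ℝ) (φ := fun _ : ι => ℝ) i) z :=
    (ContinuousLinearMap.proj (R := ℝ) (φ := fun _ : ι => ℝ) i).hasFDerivAt
  have h2 : HasFDerivAt (fun z : ι → ℝ => τ * z i - τ ^ 2 / 2)
      (τ • ContinuousLinearMap.proj (R := ℝ) (φ := fun _ : ι => ℝ) i) z :=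
    (h1.const_mul τ).sub_const _
  refine (show HasFDerivAt (fun z : ι → ℝ => tilt τ z i) _ z from h2).congr_fderiv ?_
  ext v
  simp

lemma hasFDerivAt_fld {c : Finset ι → ℝ} (hc : Adm c) (τ : ℝ) (z : ι → ℝ) :
    HasFDerivAt (fld c τ) (fldD c τ z) z := by
  rw [hasFDerivAt_pi']
  intro e
  have h1 := hasFDerivAt_Et hc (tilt τ z) (ind e)
  have h2 := h1.comp z (hasFDerivAt_tilt τ z)
  refine (show HasFDerivAt (fun z : ι → ℝ => fld c τ z e) _ z from h2).congr_fderiv ?_
  ext v
  simp [fldD, linF_apply, Finset.mul_sum]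

lemma norm_fldD_le {c : Finset ι → ℝ} {C : ℝ} (hC0 : 0 ≤ C) (hC : CovBd c C) (τ : ℝ)
    (z : ι → ℝ) : ‖fldD c τ z‖ ≤ |τ| * C := by
  refine ContinuousLinearMap.opNorm_le_bound _ (by positivity) fun v => ?_
  refine (pi_norm_le_iff_of_nonneg (by positivity)).mpr fun e => ?_
  rw [fldD_apply, Real.norm_eq_abs, abs_mul, mul_assoc]
  refine mul_le_mul_of_nonneg_left ?_ (abs_nonneg _)
  calc |∑ i, Covt c (tilt τ z) (ind e) (ind i) * v i|
      ≤ ∑ i, |Covt c (tilt τ z) (ind e) (ind i) * v i| := Finset.abs_sum_le_sum_abs _ _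
    _ ≤ ∑ i, |Covt c (tilt τ z) (ind e) (ind i)| * ‖v‖ := by
        refine Finset.sum_le_sum fun i _ => ?_
        rw [abs_mul]
        exact mul_le_mul_of_nonneg_left (norm_le_pi_norm v i) (abs_nonneg _)
    _ = (∑ i, |Covt c (tilt τ z) (ind e) (ind i)|) * ‖v‖ := by rw [Finset.sum_mul]
    _ ≤ C * ‖v‖ := mul_le_mul_of_nonneg_right (hC _ e) (norm_nonneg _)

lemma norm_fldD_sub_le {c : Finset ι → ℝ} (hc : Adm c) (τ : ℝ) (z z' : ι → ℝ) :
    ‖fldD c τ z - fldD c τ z'‖ ≤ (6 * τ ^ 2 * (Fintype.card ι) ^ 2) * ‖z - z'‖ := by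
  refine ContinuousLinearMap.opNorm_le_bound _ (by positivity) fun v => ?_
  refine (pi_norm_le_iff_of_nonneg (by positivity)).mpr fun e => ?_
  rw [ContinuousLinearMap.sub_apply, Pi.sub_apply, fldD_apply, fldD_apply, ← mul_sub,
    ← Finset.sum_sub_distrib, Real.norm_eq_abs, abs_mul]
  have h1 : ∀ i, |Covt c (tilt τ z) (ind e) (ind i) * v i
        - Covt c (tilt τ z') (ind e) (ind i) * v i|
      ≤ ((6 * Fintype.card ι) * (|τ| * ‖z - z'‖)) * ‖v‖ := by
    intro i
    rw [← sub_mul, abs_mul]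
    refine mul_le_mul ?_ (norm_le_pi_norm v i) (abs_nonneg _) (by positivity)
    have := abs_Covt_sub_le hc (abs_ind_le e) (abs_ind_le i) (tilt τ z) (tilt τ z')
    rwa [norm_tilt_sub] at this
  have h2 : |∑ i, (Covt c (tilt τ z) (ind e) (ind i) * v i
        - Covt c (tilt τ z') (ind e) (ind i) * v i)|
      ≤ Fintype.card ι * (((6 * Fintype.card ι) * (|τ| * ‖z - z'‖)) * ‖v‖) := by
    refine (Finset.abs_sum_le_sum_abs _ _).trans ?_
    refine (Finset.sum_le_sum fun i _ => h1 i).trans ?_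
    rw [Finset.sum_const, Finset.card_univ, nsmul_eq_mul]
  calc |τ| * |∑ i, (Covt c (tilt τ z) (ind e) (ind i) * v i
        - Covt c (tilt τ z') (ind e) (ind i) * v i)|
      ≤ |τ| * (Fintype.card ι * (((6 * Fintype.card ι) * (|τ| * ‖z - z'‖)) * ‖v‖)) :=
        mul_le_mul_of_nonneg_left h2 (abs_nonneg _)
    _ = (6 * τ ^ 2 * (Fintype.card ι) ^ 2) * ‖z - z'‖ * ‖v‖ := by
        have : |τ| * |τ| = τ ^ 2 := by rw [abs_mul_abs_self τ]; ring
        calc _ = (|τ| * |τ|) * (6 * (Fintype.card ι : ℝ) ^ 2) * ‖z - z'‖ * ‖v‖ := by ring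
          _ = _ := by rw [this]; ring

/-! ### `C^{1,1}` test functions -/

/-- `G` is differentiable with bounded, Lipschitz derivative `G'`. -/
structure GoodD (G : (ι → ℝ) → ℝ) (G' : (ι → ℝ) → (ι → ℝ) →L[ℝ] ℝ) (A B : ℝ) : Prop where
  deriv : ∀ z, HasFDerivAt G (G' z) z
  bd : ∀ z, ‖G' z‖ ≤ A
  lip : ∀ z z', ‖G' z - G' z'‖ ≤ B * ‖z - z'‖

/-- `G` is a `C^{1,1}` function with the given constants. -/
def Good (G : (ι → ℝ) → ℝ) (A B : ℝ) : Prop := ∃ G', GoodD G G' A B

lemma GoodD.continuous {G : (ι → ℝ) → ℝ} {G' : (ι → ℝ) → (ι → ℝ) →L[ℝ] ℝ} {A B : ℝ}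
    (h : GoodD G G' A B) : Continuous G :=
  continuous_iff_continuousAt.mpr fun z => (h.deriv z).continuousAt

lemma GoodD.continuous_deriv {G : (ι → ℝ) → ℝ} {G' : (ι → ℝ) → (ι → ℝ) →L[ℝ] ℝ} {A B : ℝ}
    (h : GoodD G G' A B) (B0 : 0 ≤ B) : Continuous G' := by
  refine (LipschitzWith.of_dist_le_mul (K := Real.toNNReal B) fun z z' => ?_).continuous
  rw [dist_eq_norm, dist_eq_norm, Real.coe_toNNReal _ B0]
  exact h.lip z z'

/-- Second-order Taylor estimate. -/
lemma GoodD.taylor {G : (ι → ℝ) → ℝ} {G' : (ι → ℝ) → (ι → ℝ) →L[ℝ] ℝ} {A B : ℝ}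
    (h : GoodD G G' A B) (B0 : 0 ≤ B) (z w : ι → ℝ) :
    |G (z + w) - G z - G' z w| ≤ B * ‖w‖ ^ 2 := by
  set s := Metric.closedBall z ‖w‖ with hs
  let f : (ι → ℝ) → ℝ := fun x => G x - G' z x
  have hf : ∀ x ∈ s, HasFDerivWithinAt f (G' x - G' z) s x := fun x _ =>
    ((h.deriv x).sub (G' z).hasFDerivAt).hasFDerivWithinAt
  have hbd : ∀ x ∈ s, ‖G' x - G' z‖ ≤ B * ‖w‖ := by
    intro x hx
    refine (h.lip x z).trans (mul_le_mul_of_nonneg_left ?_ B0)
    rwa [hs, Metric.mem_closedBall, dist_eq_norm] at hx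
  have hz : z ∈ s := Metric.mem_closedBall_self (norm_nonneg _)
  have hzw : z + w ∈ s := by
    rw [hs, Metric.mem_closedBall, dist_eq_norm]; simp
  have := (convex_closedBall z ‖w‖).norm_image_sub_le_of_norm_hasFDerivWithin_le hf hbd hz hzw
  have h2 : f (z + w) - f z = G (z + w) - G z - G' z w := by
    simp only [f, map_add]; ring
  rw [h2, Real.norm_eq_abs] at this
  simpa [pow_two, mul_assoc] using this

/-- Composition with a near-identity map. -/
lemma GoodD.comp_step {G : (ι → ℝ) → ℝ} {G' : (ι → ℝ) → (ι → ℝ) →L[ℝ] ℝ} {A B : ℝ}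
    (h : GoodD G G' A B) (B0 : 0 ≤ B) (A0 : 0 ≤ A) {a : (ι → ℝ) → (ι → ℝ)}
    {a' : (ι → ℝ) → (ι → ℝ) →L[ℝ] (ι → ℝ)} {L L₂ η : ℝ} (hη : 0 ≤ η) (hL0 : 0 ≤ L)
    (hL₂0 : 0 ≤ L₂) (ha : ∀ z, HasFDerivAt a (a' z) z) (hab : ∀ z, ‖a' z‖ ≤ L)
    (hal : ∀ z z', ‖a z - a z'‖ ≤ L * ‖z - z'‖)
    (hal₂ : ∀ z z', ‖a' z - a' z'‖ ≤ L₂ * ‖z - z'‖) :
    GoodD (fun z => G (z + η • a z))
      (fun z => (G' (z + η • a z)).comp (ContinuousLinearMap.id ℝ (ι → ℝ) + η • a' z))
      (A * (1 + η * L)) (B * (1 + η * L) ^ 2 + A * (η * L₂)) := by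
  have hDT : ∀ z, ‖ContinuousLinearMap.id ℝ (ι → ℝ) + η • a' z‖ ≤ 1 + η * L := by
    intro z
    refine (norm_add_le _ _).trans ?_
    refine add_le_add (ContinuousLinearMap.norm_id_le) ?_
    rw [norm_smul, Real.norm_eq_abs, abs_of_nonneg hη]
    exact mul_le_mul_of_nonneg_left (hab z) hη
  have hD0 : 0 ≤ 1 + η * L := by positivity
  refine ⟨fun z => ?_, fun z => ?_, fun z z' => ?_⟩
  · have hT : HasFDerivAt (fun z => z + η • a z)
        (ContinuousLinearMap.id ℝ (ι → ℝ) + η • a' z) z :=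
      (hasFDerivAt_id z).add ((ha z).const_smul η)
    exact (h.deriv (z + η • a z)).comp z hT
  · refine (ContinuousLinearMap.opNorm_comp_le _ _).trans ?_
    exact mul_le_mul (h.bd _) (hDT z) (norm_nonneg _) A0
  · have hT : ‖(z + η • a z) - (z' + η • a z')‖ ≤ (1 + η * L) * ‖z - z'‖ := by
      have h1 : (z + η • a z) - (z' + η • a z') = (z - z') + η • (a z - a z') := by
        rw [smul_sub]; abel
      rw [h1]
      refine (norm_add_le _ _).trans ?_
      rw [norm_smul, Real.norm_eq_abs, abs_of_nonneg hη]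
      have := mul_le_mul_of_nonneg_left (hal z z') hη
      nlinarith
    have hsplit : (G' (z + η • a z)).comp (ContinuousLinearMap.id ℝ (ι → ℝ) + η • a' z)
        - (G' (z' + η • a z')).comp (ContinuousLinearMap.id ℝ (ι → ℝ) + η • a' z')
        = (G' (z + η • a z) - G' (z' + η • a z')).comp
            (ContinuousLinearMap.id ℝ (ι → ℝ) + η • a' z)
          + (G' (z' + η • a z')).comp (η • (a' z - a' z')) := by
      ext v
      simp only [ContinuousLinearMap.sub_apply, ContinuousLinearMap.comp_apply,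
        ContinuousLinearMap.add_apply, ContinuousLinearMap.id_apply,
        ContinuousLinearMap.smul_apply, map_add, map_smul, map_sub, smul_eq_mul, Pi.sub_apply,
        Pi.add_apply, Pi.smul_apply, Pi.single_apply]
      ring
    rw [hsplit]
    refine (norm_add_le _ _).trans ?_
    have h1 : ‖(G' (z + η • a z) - G' (z' + η • a z')).comp
        (ContinuousLinearMap.id ℝ (ι → ℝ) + η • a' z)‖
        ≤ B * ((1 + η * L) * ‖z - z'‖) * (1 + η * L) := by
      refine (ContinuousLinearMap.opNorm_comp_le _ _).trans ?_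
      refine mul_le_mul ?_ (hDT z) (norm_nonneg _) (by positivity)
      exact (h.lip _ _).trans (mul_le_mul_of_nonneg_left hT B0)
    have h2 : ‖(G' (z' + η • a z')).comp (η • (a' z - a' z'))‖ ≤ A * (η * (L₂ * ‖z - z'‖)) := by
      refine (ContinuousLinearMap.opNorm_comp_le _ _).trans ?_
      refine mul_le_mul (h.bd _) ?_ (norm_nonneg _) A0
      rw [norm_smul, Real.norm_eq_abs, abs_of_nonneg hη]
      exact mul_le_mul_of_nonneg_left (hal₂ z z') hη
    calc _ ≤ B * ((1 + η * L) * ‖z - z'‖) * (1 + η * L) + A * (η * (L₂ * ‖z - z'‖)) :=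
          add_le_add h1 h2
      _ = (B * (1 + η * L) ^ 2 + A * (η * L₂)) * ‖z - z'‖ := by ring

/-! ### Multi-step Euler maps -/

/-- `m` steps of the Euler scheme starting from the step index `j` at the position `z`. -/
noncomputable def fwd (c : Finset ι → ℝ) (η : ℝ) : ℕ → ℕ → (ι → ℝ) → (ι → ℝ)
  | 0, _, z => z
  | m + 1, j, z => fwd c η m (j + 1) (eulStep c η j z)

lemma fwd_succ_last (c : Finset ι → ℝ) (η : ℝ) (m j : ℕ) (z : ι → ℝ) :
    fwd c η (m + 1) j z = eulStep c η (j + m) (fwd c η m j z) := by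
  induction m generalizing j z with
  | zero => simp [fwd]
  | succ m ih =>
    rw [fwd, ih, fwd]
    congr 1
    omega

lemma eul_eq_fwd (c : Finset ι → ℝ) (η : ℝ) (ζ : ι → ℝ) (k : ℕ) :
    eul c η ζ k = fwd c η k 0 ζ := by
  induction k with
  | zero => simp [fwd]
  | succ k ih =>
    rw [fwd_succ_last, ← ih, zero_add]
    rfl

/-- Stability of the good class along the Euler scheme. -/
lemma good_fwd {c : Finset ι → ℝ} (hc : Adm c) {C T : ℝ} (hC0 : 0 ≤ C) (hC : CovBd c C)
    (hT : 0 ≤ T) {η : ℝ} (hη : 0 ≤ η) {g : (ι → ℝ) → ℝ} {A B : ℝ} (A0 : 0 ≤ A) (B0 : 0 ≤ B)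
    (hg : Good g A B) (m : ℕ) :
    ∀ j : ℕ, ((j : ℝ) + m) * η ≤ T →
      Good (fun z => g (fwd c η m j z))
        (A * Real.exp ((T * C) * (m * η)))
        ((B + A * ((6 * T ^ 2 * (Fintype.card ι) ^ 2) * (m * η)))
          * Real.exp (3 * (T * C) * (m * η))) := by
  set L : ℝ := T * C with hL
  set L₂ : ℝ := 6 * T ^ 2 * (Fintype.card ι) ^ 2 with hL₂
  have hL0 : 0 ≤ L := mul_nonneg hT hC0
  have hL₂0 : 0 ≤ L₂ := by positivity
  induction m with
  | zero =>
    intro j _
    simpa [fwd] using hg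
  | succ m ih =>
    intro j hj
    have hj1 : ((j + 1 : ℕ) : ℝ) + m = (j : ℝ) + ((m + 1 : ℕ) : ℝ) := by
      push_cast; ring
    obtain ⟨G', hG'⟩ := ih (j + 1) (by rw [hj1]; exact hj)
    have hjT : (j : ℝ) * η ≤ T := by
      have : (j : ℝ) * η ≤ ((j : ℝ) + ((m + 1 : ℕ) : ℝ)) * η :=
        mul_le_mul_of_nonneg_right (by simp; positivity) hη
      linarith
    have hj0 : 0 ≤ (j : ℝ) * η := by positivity
    have habs : |(j : ℝ) * η| ≤ T := by rwa [abs_of_nonneg hj0]
    set mη : ℝ := (m : ℝ) * η with hmη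
    have hmη0 : 0 ≤ mη := by positivity
    have hA1 : 0 ≤ A * Real.exp (L * mη) := by positivity
    have hB1 : 0 ≤ (B + A * (L₂ * mη)) * Real.exp (3 * L * mη) := by positivity
    have hstep := hG'.comp_step (a := fld c ((j : ℝ) * η)) (a' := fldD c ((j : ℝ) * η))
      (L := L) (L₂ := L₂) hB1 hA1 hη hL0 hL₂0 (hasFDerivAt_fld hc _)
      (fun z => (norm_fldD_le hC0 hC _ z).trans
        (mul_le_mul_of_nonneg_right habs hC0))
      (fun z z' => (norm_fld_sub_le hc hC0 hC _ z z').trans (by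
        have h2 : |(j : ℝ) * η| * ‖z - z'‖ ≤ T * ‖z - z'‖ :=
          mul_le_mul_of_nonneg_right habs (norm_nonneg _)
        calc C * (|(j : ℝ) * η| * ‖z - z'‖) ≤ C * (T * ‖z - z'‖) :=
              mul_le_mul_of_nonneg_left h2 hC0
          _ = L * ‖z - z'‖ := by rw [hL]; ring))
      (fun z z' => (norm_fldD_sub_le hc _ z z').trans (by
        refine mul_le_mul_of_nonneg_right ?_ (norm_nonneg _)
        rw [hL₂]
        have : ((j : ℝ) * η) ^ 2 ≤ T ^ 2 := by
          rw [← sq_abs]; exact pow_le_pow_left₀ (abs_nonneg _) habs 2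
        have h2 : (0 : ℝ) ≤ (Fintype.card ι) ^ 2 := by positivity
        nlinarith [mul_le_mul_of_nonneg_right this h2]))
    have hexp1 : 1 + η * L ≤ Real.exp (L * η) := by
      have := Real.add_one_le_exp (L * η)
      nlinarith
    have h1η : 0 ≤ 1 + η * L := by positivity
    have hm1 : ((m + 1 : ℕ) : ℝ) * η = mη + η := by
      push_cast; rw [hmη]; ring
    refine ⟨fun z => (G' (z + η • fld c ((j : ℝ) * η) z)).comp
      (ContinuousLinearMap.id ℝ (ι → ℝ) + η • fldD c ((j : ℝ) * η) z), ⟨?_, ?_, ?_⟩⟩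
    · exact fun z => hstep.deriv z
    · intro z
      refine (hstep.bd z).trans ?_
      rw [hm1, mul_add L, Real.exp_add, mul_assoc]
      refine mul_le_mul_of_nonneg_left ?_ A0
      exact mul_le_mul_of_nonneg_left hexp1 (Real.exp_pos _).le
    · intro z z'
      refine (hstep.lip z z').trans ?_
      refine mul_le_mul_of_nonneg_right ?_ (norm_nonneg _)
      rw [hm1]
      have hE1 : (1 + η * L) ^ 2 ≤ Real.exp (L * η) ^ 2 := pow_le_pow_left₀ h1η hexp1 2
      set e1 := Real.exp (3 * L * mη) with he1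
      set e2 := Real.exp (L * mη) with he2
      set e3 := Real.exp (L * η) with he3
      have he3pos : 1 ≤ e3 := Real.one_le_exp (by positivity)
      have he1pos : 1 ≤ e1 := Real.one_le_exp (by positivity)
      have he2pos : 1 ≤ e2 := Real.one_le_exp (by positivity)
      have hprod : Real.exp (3 * L * (mη + η)) = e1 * e3 ^ 3 := by
        rw [he1, he3, ← Real.exp_nat_mul, ← Real.exp_add]
        congr 1
        push_cast
        ring
      rw [hprod]
      have h21 : e2 ≤ e1 := Real.exp_le_exp.mpr (by nlinarith [mul_nonneg hL0 hmη0])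
      have hη2 : 0 ≤ A * (L₂ * η) := by positivity
      have hQ : 0 ≤ B + A * (L₂ * mη) := by positivity
      have hlhs : (B + A * (L₂ * mη)) * e1 * (1 + η * L) ^ 2 + A * e2 * (η * L₂)
          ≤ (B + A * (L₂ * mη)) * e1 * e3 ^ 3 + A * (L₂ * η) * (e1 * e3 ^ 3) := by
        have h3 : (1 + η * L) ^ 2 ≤ e3 ^ 3 := by
          refine hE1.trans ?_
          have : e3 ^ 2 * 1 ≤ e3 ^ 2 * e3 := mul_le_mul_of_nonneg_left he3pos (by positivity)
          calc e3 ^ 2 = e3 ^ 2 * 1 := (mul_one _).symm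
            _ ≤ e3 ^ 2 * e3 := this
            _ = e3 ^ 3 := by ring
        have h4 : (B + A * (L₂ * mη)) * e1 * (1 + η * L) ^ 2
            ≤ (B + A * (L₂ * mη)) * e1 * e3 ^ 3 :=
          mul_le_mul_of_nonneg_left h3 (by positivity)
        have h5 : e2 ≤ e1 * e3 ^ 3 := by
          have : 1 ≤ e3 ^ 3 := one_le_pow₀ he3pos
          nlinarith
        have h6 : A * e2 * (η * L₂) ≤ A * (L₂ * η) * (e1 * e3 ^ 3) := by
          calc A * e2 * (η * L₂) = A * (L₂ * η) * e2 := by ring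
            _ ≤ _ := mul_le_mul_of_nonneg_left h5 hη2
        exact add_le_add h4 h6
      calc _ ≤ (B + A * (L₂ * mη)) * e1 * e3 ^ 3 + A * (L₂ * η) * (e1 * e3 ^ 3) := hlhs
        _ = _ := by ring

/-! ### The one-step estimate -/

lemma continuous_shiftV (τ : ℝ) (S : Finset ι) : Continuous (shiftV τ S) := by
  have h1 : Continuous fun y : ι → ℝ => (τ, y) := continuous_const.prodMk continuous_id
  exact (continuous_shiftV_prod S).comp h1

lemma continuous_fld_right {c : Finset ι → ℝ} (hc : Adm c) (τ : ℝ) : Continuous (fld c τ) := by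
  have h1 : Continuous fun y : ι → ℝ => (τ, y) := continuous_const.prodMk continuous_id
  have h2 := (continuous_fld hc).comp h1
  exact h2

lemma Mix_zero {c : Finset ι → ℝ} (hsum : ∑ S, c S = 1) (f : (ι → ℝ) → ℝ) :
    Mix c 0 f = ∫ y, f y ∂(gam ι) := by
  unfold Mix
  have : ∀ (S : Finset ι) (y : ι → ℝ), shiftV 0 S y = y := by
    intro S y; funext i; simp [shiftV]
  simp_rw [this]
  rw [← Finset.sum_mul, hsum, one_mul]

lemma norm_ind_le (S : Finset ι) : ‖fun i => ind i S‖ ≤ 1 :=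
  (pi_norm_le_iff_of_nonneg zero_le_one).mpr fun i => by
    rw [Real.norm_eq_abs]; exact abs_ind_le i S

/-- Averaging the first-order terms: posterior identity for a derivative. -/
lemma mix_deriv_eq {c : Finset ι → ℝ} (hc : Adm c) (τ : ℝ)
    {D : (ι → ℝ) → (ι → ℝ) →L[ℝ] ℝ} (hD : Continuous D) {A : ℝ} (hA : ∀ z, ‖D z‖ ≤ A) :
    ∑ S : Finset ι, c S * ∫ y, D (shiftV τ S y) (fun i => ind i S) ∂(gam ι)
      = ∑ S : Finset ι, c S * ∫ y, D (shiftV τ S y) (fld c τ (shiftV τ S y)) ∂(gam ι) := by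
  let d : ι → (ι → ℝ) → ℝ := fun e z => D z (Pi.single e 1)
  have hd : ∀ e, Continuous (d e) := fun e => hD.clm_apply continuous_const
  have hdm : ∀ e, Measurable (d e) := fun e => (hd e).measurable
  have hdb : ∀ e z, |d e z| ≤ A := by
    intro e z
    have h1 := (D z).le_opNorm (Pi.single e 1)
    have h2 : ‖(Pi.single e 1 : ι → ℝ)‖ ≤ 1 := by
      rw [Pi.norm_single]; simp
    have hA0 : 0 ≤ A := (norm_nonneg _).trans (hA z)
    rw [Real.norm_eq_abs] at h1
    calc |d e z| ≤ ‖D z‖ * ‖(Pi.single e 1 : ι → ℝ)‖ := h1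
      _ ≤ A * 1 := mul_le_mul (hA z) h2 (norm_nonneg _) hA0
      _ = A := mul_one _
  have hexp : ∀ (z v : ι → ℝ), D z v = ∑ e, v e * d e z := by
    intro z v
    have h1 : v = ∑ e, v e • (Pi.single e (1 : ℝ) : ι → ℝ) := by
      funext i
      simp [Finset.sum_apply, Pi.single_apply]
    conv_lhs => rw [h1]
    rw [map_sum]
    refine Finset.sum_congr rfl fun e _ => ?_
    rw [map_smul, smul_eq_mul]
  have hint1 : ∀ (S : Finset ι) (e : ι), Integrable (fun y => d e (shiftV τ S y)) (gam ι) :=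
    fun S e => integrable_of_bdd ((hdm e).comp (measurable_shiftV τ S)) fun y => hdb e _
  have hmf : ∀ e, Measurable fun z : ι → ℝ => fld c τ z e := fun e =>
    ((continuous_apply e).comp (continuous_fld_right hc τ)).measurable
  have hint2 : ∀ (S : Finset ι) (e : ι),
      Integrable (fun y => d e (shiftV τ S y) * fld c τ (shiftV τ S y) e) (gam ι) := by
    intro S e
    refine integrable_of_bdd (M := A) (((hdm e).mul (hmf e)).comp (measurable_shiftV τ S)) fun y => ?_
    have hA0 : 0 ≤ A := (abs_nonneg _).trans (hdb e 0)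
    rw [abs_mul, abs_of_nonneg (fld_nonneg hc τ _ e)]
    calc |d e (shiftV τ S y)| * fld c τ (shiftV τ S y) e ≤ A * 1 :=
          mul_le_mul (hdb e _) (fld_le_one hc τ _ e) (fld_nonneg hc τ _ e) hA0
      _ = A := mul_one _
  have hL : ∀ S : Finset ι, ∫ y, D (shiftV τ S y) (fun i => ind i S) ∂(gam ι)
      = ∑ e, ind e S * ∫ y, d e (shiftV τ S y) ∂(gam ι) := by
    intro S
    simp_rw [hexp]
    rw [integral_finset_sum _ fun e _ => (hint1 S e).const_mul _]
    refine Finset.sum_congr rfl fun e _ => ?_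
    rw [integral_const_mul]
  have hR : ∀ S : Finset ι, ∫ y, D (shiftV τ S y) (fld c τ (shiftV τ S y)) ∂(gam ι)
      = ∑ e, ∫ y, d e (shiftV τ S y) * fld c τ (shiftV τ S y) e ∂(gam ι) := by
    intro S
    simp_rw [hexp]
    rw [integral_finset_sum _ fun e _ => ?_]
    · refine Finset.sum_congr rfl fun e _ => ?_
      refine integral_congr_ae (Filter.Eventually.of_forall fun y => ?_)
      simp only [mul_comm]
    · refine (hint2 S e).congr (Filter.Eventually.of_forall fun y => ?_)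
      simp only [mul_comm]
  simp_rw [hL, hR, Finset.mul_sum]
  rw [Finset.sum_comm]
  conv_rhs => rw [Finset.sum_comm]
  refine Finset.sum_congr rfl fun e _ => ?_
  have := posterior hc τ (hdm e) (hdb e) e
  rw [← this]
  refine Finset.sum_congr rfl fun S _ => ?_
  ring

/-- The one-step estimate. -/
lemma one_step {c : Finset ι → ℝ} (hc : Adm c) (hsum : ∑ S, c S = 1)
    {G : (ι → ℝ) → ℝ} {G' : (ι → ℝ) → (ι → ℝ) →L[ℝ] ℝ} {A B : ℝ}
    (hG : GoodD G G' A B) (A0 : 0 ≤ A) (B0 : 0 ≤ B) {M : ℝ} (hM : ∀ z, |G z| ≤ M)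
    (τ : ℝ) {η : ℝ} (hη : 0 ≤ η) :
    |Mix c (τ + η) G - Mix c τ (fun z => G (z + η • fld c τ z))| ≤ 2 * B * η ^ 2 := by
  have hGc := hG.continuous
  have hDc := hG.continuous_deriv B0
  have hfc := continuous_fld_right hc τ
  have hs : ∀ (S : Finset ι) (y : ι → ℝ), shiftV (τ + η) S y
      = shiftV τ S y + η • (fun i => ind i S) := by
    intro S y
    funext i
    by_cases h : i ∈ S <;> simp [shiftV, ind, h] <;> ring
  -- the four integrands
  have hc1 : ∀ S : Finset ι, Continuous fun y : ι → ℝ =>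
      G (shiftV τ S y + η • (fun i => ind i S)) := fun S =>
    hGc.comp ((continuous_shiftV τ S).add continuous_const)
  have hc2 : ∀ S : Finset ι, Continuous fun y : ι → ℝ =>
      G (shiftV τ S y + η • fld c τ (shiftV τ S y)) := fun S =>
    hGc.comp ((continuous_shiftV τ S).add ((hfc.comp (continuous_shiftV τ S)).const_smul η))
  have hc3 : ∀ S : Finset ι, Continuous fun y : ι → ℝ =>
      G' (shiftV τ S y) (fun i => ind i S) := fun S =>
    (hDc.comp (continuous_shiftV τ S)).clm_apply continuous_const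
  have hc4 : ∀ S : Finset ι, Continuous fun y : ι → ℝ =>
      G' (shiftV τ S y) (fld c τ (shiftV τ S y)) := fun S =>
    (hDc.comp (continuous_shiftV τ S)).clm_apply (hfc.comp (continuous_shiftV τ S))
  have hb3 : ∀ (S : Finset ι) (y : ι → ℝ), |G' (shiftV τ S y) (fun i => ind i S)| ≤ A := by
    intro S y
    have h1 := (G' (shiftV τ S y)).le_opNorm (fun i => ind i S)
    rw [Real.norm_eq_abs] at h1
    calc _ ≤ _ := h1
      _ ≤ A * 1 := mul_le_mul (hG.bd _) (norm_ind_le S) (norm_nonneg _) A0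
      _ = A := mul_one _
  have hb4 : ∀ (S : Finset ι) (y : ι → ℝ),
      |G' (shiftV τ S y) (fld c τ (shiftV τ S y))| ≤ A := by
    intro S y
    have h1 := (G' (shiftV τ S y)).le_opNorm (fld c τ (shiftV τ S y))
    rw [Real.norm_eq_abs] at h1
    calc _ ≤ _ := h1
      _ ≤ A * 1 := mul_le_mul (hG.bd _) (norm_fld_le hc _ _) (norm_nonneg _) A0
      _ = A := mul_one _
  have hi1 : ∀ S : Finset ι, Integrable (fun y : ι → ℝ =>
      G (shiftV τ S y + η • (fun i => ind i S))) (gam ι) := fun S =>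
    integrable_of_bdd (hc1 S).measurable fun y => hM _
  have hi2 : ∀ S : Finset ι, Integrable (fun y : ι → ℝ =>
      G (shiftV τ S y + η • fld c τ (shiftV τ S y))) (gam ι) := fun S =>
    integrable_of_bdd (hc2 S).measurable fun y => hM _
  have hi3 : ∀ S : Finset ι, Integrable (fun y : ι → ℝ =>
      G' (shiftV τ S y) (fun i => ind i S)) (gam ι) := fun S =>
    integrable_of_bdd (hc3 S).measurable fun y => hb3 S y
  have hi4 : ∀ S : Finset ι, Integrable (fun y : ι → ℝ =>
      G' (shiftV τ S y) (fld c τ (shiftV τ S y))) (gam ι) := fun S =>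
    integrable_of_bdd (hc4 S).measurable fun y => hb4 S y
  -- the per-subset bound
  have hbound : ∀ S : Finset ι,
      |∫ y, G (shiftV τ S y + η • (fun i => ind i S)) ∂(gam ι)
        - ∫ y, G (shiftV τ S y + η • fld c τ (shiftV τ S y)) ∂(gam ι)
        - η * (∫ y, G' (shiftV τ S y) (fun i => ind i S) ∂(gam ι)
            - ∫ y, G' (shiftV τ S y) (fld c τ (shiftV τ S y)) ∂(gam ι))|
        ≤ 2 * B * η ^ 2 := by
    intro S
    have hsub : ∫ y, G (shiftV τ S y + η • (fun i => ind i S)) ∂(gam ι)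
        - ∫ y, G (shiftV τ S y + η • fld c τ (shiftV τ S y)) ∂(gam ι)
        - η * (∫ y, G' (shiftV τ S y) (fun i => ind i S) ∂(gam ι)
            - ∫ y, G' (shiftV τ S y) (fld c τ (shiftV τ S y)) ∂(gam ι))
        = ∫ y, (G (shiftV τ S y + η • (fun i => ind i S))
            - G (shiftV τ S y + η • fld c τ (shiftV τ S y))
            - η * (G' (shiftV τ S y) (fun i => ind i S)
              - G' (shiftV τ S y) (fld c τ (shiftV τ S y)))) ∂(gam ι) := by
      have e1 := integral_sub ((hi1 S).sub (hi2 S)) (((hi3 S).sub (hi4 S)).const_mul η)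
      have e2 := integral_sub (hi1 S) (hi2 S)
      have e3 := integral_sub (hi3 S) (hi4 S)
      have e4 := integral_const_mul (μ := gam ι) η (fun y : ι → ℝ =>
        G' (shiftV τ S y) (fun i => ind i S) - G' (shiftV τ S y) (fld c τ (shiftV τ S y)))
      simp only [Pi.sub_apply] at e1
      rw [e1, e2, e4, e3]
    rw [hsub]
    have hpt : ∀ y : ι → ℝ, ‖G (shiftV τ S y + η • (fun i => ind i S))
            - G (shiftV τ S y + η • fld c τ (shiftV τ S y))
            - η * (G' (shiftV τ S y) (fun i => ind i S)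
              - G' (shiftV τ S y) (fld c τ (shiftV τ S y)))‖ ≤ 2 * B * η ^ 2 := by
      intro y
      set z := shiftV τ S y
      have h1 := hG.taylor B0 z (η • (fun i => ind i S))
      have h2 := hG.taylor B0 z (η • fld c τ z)
      have hn1 : ‖η • (fun i => ind i S)‖ ^ 2 ≤ η ^ 2 := by
        rw [norm_smul, Real.norm_eq_abs, mul_pow, sq_abs]
        have : ‖fun i => ind i S‖ ^ 2 ≤ 1 := pow_le_one₀ (norm_nonneg _) (norm_ind_le S)
        nlinarith [sq_nonneg η]
      have hn2 : ‖η • fld c τ z‖ ^ 2 ≤ η ^ 2 := by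
        rw [norm_smul, Real.norm_eq_abs, mul_pow, sq_abs]
        have : ‖fld c τ z‖ ^ 2 ≤ 1 := pow_le_one₀ (norm_nonneg _) (norm_fld_le hc τ z)
        nlinarith [sq_nonneg η]
      have h3 := mul_le_mul_of_nonneg_left hn1 B0
      have h4 := mul_le_mul_of_nonneg_left hn2 B0
      rw [map_smul, smul_eq_mul] at h1 h2
      rw [Real.norm_eq_abs]
      have h5 : G (z + η • (fun i => ind i S)) - G (z + η • fld c τ z)
          - η * (G' z (fun i => ind i S) - G' z (fld c τ z))
          = (G (z + η • (fun i => ind i S)) - G z - η * G' z (fun i => ind i S))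
            - (G (z + η • fld c τ z) - G z - η * G' z (fld c τ z)) := by ring
      rw [h5]
      have h6 := abs_sub (G (z + η • (fun i => ind i S)) - G z - η * G' z (fun i => ind i S))
        (G (z + η • fld c τ z) - G z - η * G' z (fld c τ z))
      linarith
    have := norm_integral_le_of_norm_le_const (μ := gam ι)
      (Filter.Eventually.of_forall hpt)
    simpa [Measure.real] using this
  unfold Mix
  simp_rw [hs]
  have hderiv := mix_deriv_eq hc τ hDc hG.bd
  have hdecomp : ∑ S : Finset ι, c S * ∫ y, G (shiftV τ S y + η • fun i => ind i S) ∂(gam ι)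
      - ∑ S : Finset ι, c S * ∫ y, G (shiftV τ S y + η • fld c τ (shiftV τ S y)) ∂(gam ι)
      = ∑ S : Finset ι, c S *
        (∫ y, G (shiftV τ S y + η • (fun i => ind i S)) ∂(gam ι)
        - ∫ y, G (shiftV τ S y + η • fld c τ (shiftV τ S y)) ∂(gam ι)
        - η * (∫ y, G' (shiftV τ S y) (fun i => ind i S) ∂(gam ι)
            - ∫ y, G' (shiftV τ S y) (fld c τ (shiftV τ S y)) ∂(gam ι)))
        + η * (∑ S : Finset ι, c S * ∫ y, G' (shiftV τ S y) (fun i => ind i S) ∂(gam ι)
          - ∑ S : Finset ι, c S *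
            ∫ y, G' (shiftV τ S y) (fld c τ (shiftV τ S y)) ∂(gam ι)) := by
    rw [← Finset.sum_sub_distrib, ← Finset.sum_sub_distrib, Finset.mul_sum,
      ← Finset.sum_add_distrib]
    refine Finset.sum_congr rfl fun S _ => ?_
    ring
  rw [hdecomp, hderiv, sub_self, mul_zero, add_zero]
  calc _ ≤ ∑ S : Finset ι, |c S * (∫ y, G (shiftV τ S y + η • (fun i => ind i S)) ∂(gam ι)
        - ∫ y, G (shiftV τ S y + η • fld c τ (shiftV τ S y)) ∂(gam ι)
        - η * (∫ y, G' (shiftV τ S y) (fun i => ind i S) ∂(gam ι)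
            - ∫ y, G' (shiftV τ S y) (fld c τ (shiftV τ S y)) ∂(gam ι)))| :=
        Finset.abs_sum_le_sum_abs _ _
    _ ≤ ∑ S : Finset ι, c S * (2 * B * η ^ 2) := by
        refine Finset.sum_le_sum fun S _ => ?_
        rw [abs_mul, abs_of_nonneg (hc.nonneg S)]
        exact mul_le_mul_of_nonneg_left (hbound S) (hc.nonneg S)
    _ = 2 * B * η ^ 2 := by rw [← Finset.sum_mul, hsum, one_mul]

/-- Telescoping the one-step estimate. -/
lemma telescope {c : Finset ι → ℝ} (hc : Adm c) (hsum : ∑ S, c S = 1) {C T : ℝ} (hC0 : 0 ≤ C)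
    (hC : CovBd c C) (hT : 0 ≤ T) {η : ℝ} (hη : 0 ≤ η) {g : (ι → ℝ) → ℝ} {A B M : ℝ} (A0 : 0 ≤ A)
    (B0 : 0 ≤ B) (hg : Good g A B) (hM : ∀ z, |g z| ≤ M) (m : ℕ) :
    ∀ j : ℕ, ((j : ℝ) + m) * η ≤ T →
      |Mix c ((j : ℝ) * η) (fun z => g (fwd c η m j z)) - Mix c (((j : ℝ) + m) * η) g|
        ≤ m * (2 * ((B + A * ((6 * T ^ 2 * (Fintype.card ι) ^ 2) * T))
          * Real.exp (3 * (T * C) * T)) * η ^ 2) := by
  set L : ℝ := T * C with hL
  set L₂ : ℝ := 6 * T ^ 2 * (Fintype.card ι) ^ 2 with hL₂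
  have hL0 : 0 ≤ L := mul_nonneg hT hC0
  have hL₂0 : 0 ≤ L₂ := by positivity
  set Bb : ℝ := (B + A * (L₂ * T)) * Real.exp (3 * L * T) with hBb
  induction m with
  | zero =>
    intro j _
    simp [fwd]
  | succ m ih =>
    intro j hj
    have hj1 : ((j + 1 : ℕ) : ℝ) + m = (j : ℝ) + ((m + 1 : ℕ) : ℝ) := by
      push_cast; ring
    have hle : ((j + 1 : ℕ) : ℝ) + m = (j : ℝ) + ((m + 1 : ℕ) : ℝ) := hj1
    have hgood := good_fwd hc hC0 hC hT hη A0 B0 hg m (j + 1) (by rw [hj1]; exact hj)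
    obtain ⟨G', hG'⟩ := hgood
    set mη : ℝ := (m : ℝ) * η with hmη
    have hmη0 : 0 ≤ mη := by positivity
    have hmηT : mη ≤ T := by
      have : (m : ℝ) * η ≤ ((j : ℝ) + ((m + 1 : ℕ) : ℝ)) * η := by
        refine mul_le_mul_of_nonneg_right ?_ hη
        push_cast
        have : (0 : ℝ) ≤ j := by positivity
        linarith
      linarith
    have hstep := one_step hc hsum hG' (by positivity) (by positivity)
      (M := M) (fun z => hM _) ((j : ℝ) * η) hη
    have hjη : (j : ℝ) * η + η = ((j + 1 : ℕ) : ℝ) * η := by push_cast; ring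
    rw [hjη] at hstep
    have hih := ih (j + 1) (by rw [hj1]; exact hj)
    have hBm : (B + A * (L₂ * mη)) * Real.exp (3 * L * mη) ≤ Bb := by
      rw [hBb]
      refine mul_le_mul ?_ ?_ (Real.exp_pos _).le (by positivity)
      · have : L₂ * mη ≤ L₂ * T := mul_le_mul_of_nonneg_left hmηT hL₂0
        have := mul_le_mul_of_nonneg_left this A0
        linarith
      · refine Real.exp_le_exp.mpr ?_
        exact mul_le_mul_of_nonneg_left hmηT (by positivity)
    have hη2 : 0 ≤ η ^ 2 := by positivity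
    have hstep' : 2 * ((B + A * (L₂ * mη)) * Real.exp (3 * L * mη)) * η ^ 2 ≤ 2 * Bb * η ^ 2 := by
      have := mul_le_mul_of_nonneg_right hBm hη2
      nlinarith
    have heq1 : (fun z => g (fwd c η (m + 1) j z))
        = fun z => (fun w => g (fwd c η m (j + 1) w)) (z + η • fld c ((j : ℝ) * η) z) := rfl
    rw [heq1]
    have heq2 : ((j : ℝ) + ((m + 1 : ℕ) : ℝ)) * η = (((j + 1 : ℕ) : ℝ) + m) * η := by
      rw [hj1]
    rw [heq2]
    have hfin : ((m + 1 : ℕ) : ℝ) * (2 * Bb * η ^ 2) = 2 * Bb * η ^ 2 + m * (2 * Bb * η ^ 2) := by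
      push_cast; ring
    rw [hfin]
    set X := Mix c ((j : ℝ) * η)
      (fun z => (fun w => g (fwd c η m (j + 1) w)) (z + η • fld c ((j : ℝ) * η) z)) with hX
    set Y := Mix c (((j + 1 : ℕ) : ℝ) * η) (fun w => g (fwd c η m (j + 1) w)) with hY
    set Z := Mix c ((((j + 1 : ℕ) : ℝ) + m) * η) g with hZ
    have h1 : |Y - X| ≤ 2 * Bb * η ^ 2 := hstep.trans hstep'
    have h2 : |Y - Z| ≤ m * (2 * Bb * η ^ 2) := hih
    rw [abs_le] at h1 h2 ⊢
    constructor <;> linarith [h1.1, h1.2, h2.1, h2.2]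

/-- The Euler scheme transports the Gaussian measure to the mixture, in the limit. -/
theorem Mix_eq_integral_flowV {c : Finset ι → ℝ} (hc : Adm c) (hsum : ∑ S, c S = 1) {C τ : ℝ}
    (hC0 : 0 ≤ C) (hC : CovBd c C) (hτ : 0 ≤ τ) {g : (ι → ℝ) → ℝ} {A B M : ℝ} (A0 : 0 ≤ A)
    (B0 : 0 ≤ B) (hg : Good g A B) (hM : ∀ z, |g z| ≤ M) :
    ∫ ζ, g (flowV c τ ζ) ∂(gam ι) = Mix c τ g := by
  obtain ⟨g', hg'⟩ := id hg
  have hgc := hg'.continuous
  set Bb : ℝ := ((B + A * ((6 * τ ^ 2 * (Fintype.card ι) ^ 2) * τ))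
          * Real.exp (3 * (τ * C) * τ)) with hBb
  have hBb0 : 0 ≤ Bb := by positivity
  -- the integrals along the Euler scheme
  let a : ℕ → ℝ := fun N => ∫ ζ, g (eul c (τ / (N + 1)) ζ (N + 1)) ∂(gam ι)
  have hmeul : ∀ N : ℕ, Measurable fun ζ : ι → ℝ => eul c (τ / (N + 1)) ζ (N + 1) := by
    intro N
    have h1 : Measurable fun z : ι → ℝ => (c, z) := measurable_const.prodMk measurable_id
    have h2 := (measurable_eul (τ / ((N : ℝ) + 1)) (N + 1)).comp h1
    exact h2
  have hlim1 : Filter.Tendsto a Filter.atTop (nhds (∫ ζ, g (flowV c τ ζ) ∂(gam ι))) := by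
    refine tendsto_integral_of_dominated_convergence (fun _ => M) ?_ (integrable_const M) ?_ ?_
    · exact fun N => (hgc.measurable.comp (hmeul N)).aestronglyMeasurable
    · exact fun N => Filter.Eventually.of_forall fun ζ => by
        simpa using hM _
    · refine Filter.Eventually.of_forall fun ζ => ?_
      obtain ⟨h0, hsol⟩ := flowV_sol hc hC0 hC hτ ζ
      exact hgc.continuousAt.tendsto.comp (eul_tendsto hc hC0 hC hτ h0 hsol)
  have hbd : ∀ N : ℕ, |a N - Mix c τ g| ≤ 2 * Bb * τ ^ 2 / (N + 1) := by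
    intro N
    have hNpos : (0 : ℝ) < N + 1 := by positivity
    set η : ℝ := τ / (N + 1) with hη
    have hη0 : 0 ≤ η := div_nonneg hτ hNpos.le
    have hNη : (((0 : ℕ) : ℝ) + ((N + 1 : ℕ) : ℝ)) * η = τ := by
      rw [hη]; push_cast; field_simp; ring
    have := telescope hc hsum hC0 hC hτ hη0 A0 B0 hg hM (N + 1) 0 hNη.le
    rw [hNη] at this
    have h0 : ((0 : ℕ) : ℝ) * η = 0 := by simp
    rw [h0, Mix_zero hsum] at this
    have h2 : a N = ∫ y, g (fwd c η (N + 1) 0 y) ∂(gam ι) := by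
      show ∫ ζ, g (eul c η ζ (N + 1)) ∂(gam ι) = _
      simp_rw [eul_eq_fwd]
    rw [h2]
    have h3 : ((N + 1 : ℕ) : ℝ) * (2 * Bb * η ^ 2) = 2 * Bb * τ ^ 2 / (N + 1) := by
      rw [hη]
      push_cast
      field_simp
    rw [← h3]
    exact this
  have hlim2 : Filter.Tendsto a Filter.atTop (nhds (Mix c τ g)) := by
    rw [tendsto_iff_dist_tendsto_zero]
    have hzero : Filter.Tendsto (fun N : ℕ => 2 * Bb * τ ^ 2 / ((N : ℝ) + 1)) Filter.atTop (nhds 0) :=
      (tendsto_natCast_atTop_atTop.atTop_add tendsto_const_nhds).const_div_atTop _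
    refine squeeze_zero (fun _ => dist_nonneg) (fun N => ?_) hzero
    rw [Real.dist_eq]
    exact hbd N
  exact tendsto_nhds_unique hlim1 hlim2

/-! ### Trigonometric test functions and the law of the flow -/

lemma good_cos (L : (ι → ℝ) →L[ℝ] ℝ) : Good (fun z => Real.cos (L z)) ‖L‖ (‖L‖ ^ 2) := by
  refine ⟨fun z => (-Real.sin (L z)) • L, fun z => ?_, fun z => ?_, fun z z' => ?_⟩
  · have h1 : HasFDerivAt L L z := L.hasFDerivAt
    exact (Real.hasDerivAt_cos (L z)).comp_hasFDerivAt z h1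
  · rw [norm_smul, Real.norm_eq_abs, abs_neg]
    have := Real.abs_sin_le_one (L z)
    nlinarith [norm_nonneg L]
  · rw [show (-Real.sin (L z)) • L - (-Real.sin (L z')) • L
      = ((-Real.sin (L z)) - (-Real.sin (L z'))) • L from (sub_smul _ _ _).symm,
      norm_smul, Real.norm_eq_abs]
    have h1 : |(-Real.sin (L z)) - (-Real.sin (L z'))| ≤ |L z - L z'| := by
      have := Real.abs_sin_sub_sin_le (L z) (L z')
      rw [show (-Real.sin (L z)) - (-Real.sin (L z')) = -(Real.sin (L z) - Real.sin (L z')) by ring,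
        abs_neg]
      simpa [Real.dist_eq] using this
    have h2 : |L z - L z'| ≤ ‖L‖ * ‖z - z'‖ := by
      rw [← map_sub]
      exact L.le_opNorm _
    nlinarith [norm_nonneg L, norm_nonneg (z - z'), abs_nonneg (L z - L z')]

lemma good_sin (L : (ι → ℝ) →L[ℝ] ℝ) : Good (fun z => Real.sin (L z)) ‖L‖ (‖L‖ ^ 2) := by
  refine ⟨fun z => (Real.cos (L z)) • L, fun z => ?_, fun z => ?_, fun z z' => ?_⟩
  · have h1 : HasFDerivAt L L z := L.hasFDerivAt
    exact (Real.hasDerivAt_sin (L z)).comp_hasFDerivAt z h1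
  · rw [norm_smul, Real.norm_eq_abs]
    have := Real.abs_cos_le_one (L z)
    nlinarith [norm_nonneg L]
  · rw [show (Real.cos (L z)) • L - (Real.cos (L z')) • L
      = (Real.cos (L z) - Real.cos (L z')) • L from (sub_smul _ _ _).symm,
      norm_smul, Real.norm_eq_abs]
    have h1 : |Real.cos (L z) - Real.cos (L z')| ≤ |L z - L z'| := by
      have := Real.abs_cos_sub_cos_le (L z) (L z')
      simpa [Real.dist_eq] using this
    have h2 : |L z - L z'| ≤ ‖L‖ * ‖z - z'‖ := by
      rw [← map_sub]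
      exact L.le_opNorm _
    nlinarith [norm_nonneg L, norm_nonneg (z - z'), abs_nonneg (L z - L z')]

/-- The mixture of shifted Gaussians. -/
noncomputable def mixM (c : Finset ι → ℝ) (τ : ℝ) : Measure (ι → ℝ) :=
  ∑ S : Finset ι, ENNReal.ofReal (c S) • (gam ι).map (shiftV τ S)

lemma mixM_univ {c : Finset ι → ℝ} (hc : Adm c) (hsum : ∑ S, c S = 1) (τ : ℝ) :
    IsProbabilityMeasure (mixM c τ) := by
  constructor
  unfold mixM
  rw [Measure.finset_sum_apply]
  have : ∀ S : Finset ι, (ENNReal.ofReal (c S) • (gam ι).map (shiftV τ S)) Set.univ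
      = ENNReal.ofReal (c S) := by
    intro S
    rw [Measure.smul_apply, Measure.map_apply (measurable_shiftV τ S) MeasurableSet.univ]
    simp
  simp_rw [this]
  rw [← ENNReal.ofReal_sum_of_nonneg fun S _ => hc.nonneg S, hsum]
  simp

lemma integral_mixM {c : Finset ι → ℝ} (hc : Adm c) (τ : ℝ) {f : (ι → ℝ) → ℝ}
    (hf : Measurable f) {M : ℝ} (hM : ∀ z, |f z| ≤ M) :
    ∫ z, f z ∂(mixM c τ) = Mix c τ f := by
  unfold mixM Mix
  have hi : ∀ S : Finset ι, Integrable f (ENNReal.ofReal (c S) • (gam ι).map (shiftV τ S)) := by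
    intro S
    refine Integrable.smul_measure ?_ ENNReal.ofReal_ne_top
    have hp : IsProbabilityMeasure ((gam ι).map (shiftV τ S)) :=
      Measure.isProbabilityMeasure_map (measurable_shiftV τ S).aemeasurable
    exact integrable_of_bdd hf hM
  rw [integral_finset_sum_measure fun S _ => hi S]
  refine Finset.sum_congr rfl fun S _ => ?_
  rw [integral_smul_measure, ENNReal.toReal_ofReal (hc.nonneg S), smul_eq_mul,
    integral_map (measurable_shiftV τ S).aemeasurable hf.aestronglyMeasurable]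

lemma measurable_flowV_right (c : Finset ι → ℝ) (τ : ℝ) : Measurable (flowV c τ) := by
  have h1 : Measurable fun z : ι → ℝ => (c, z) := measurable_const.prodMk measurable_id
  have h2 := (measurable_flowV τ).comp h1
  exact h2

/-- **The law of the flow.** -/
theorem law_flowV {c : Finset ι → ℝ} (hc : Adm c) (hsum : ∑ S, c S = 1) {C τ : ℝ}
    (hC0 : 0 ≤ C) (hC : CovBd c C) (hτ : 0 ≤ τ) :
    (gam ι).map (flowV c τ) = mixM c τ := by
  have hm := measurable_flowV_right c τ
  have hp1 : IsProbabilityMeasure ((gam ι).map (flowV c τ)) :=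
    Measure.isProbabilityMeasure_map hm.aemeasurable
  have hp2 := mixM_univ hc hsum τ
  refine Measure.ext_of_charFunDual ?_
  funext L
  rw [charFunDual_apply, charFunDual_apply]
  have hcos : ∫ z, Real.cos (L z) ∂((gam ι).map (flowV c τ)) = ∫ z, Real.cos (L z) ∂(mixM c τ) := by
    have hmeas : Measurable fun z => Real.cos (L z) := by fun_prop
    have hb : ∀ z, |Real.cos (L z)| ≤ 1 := fun z => Real.abs_cos_le_one _
    rw [integral_map hm.aemeasurable hmeas.aestronglyMeasurable, integral_mixM hc τ hmeas hb]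
    exact Mix_eq_integral_flowV hc hsum hC0 hC hτ (norm_nonneg _) (by positivity) (good_cos L) hb
  have hsin : ∫ z, Real.sin (L z) ∂((gam ι).map (flowV c τ)) = ∫ z, Real.sin (L z) ∂(mixM c τ) := by
    have hmeas : Measurable fun z => Real.sin (L z) := by fun_prop
    have hb : ∀ z, |Real.sin (L z)| ≤ 1 := fun z => Real.abs_sin_le_one _
    rw [integral_map hm.aemeasurable hmeas.aestronglyMeasurable, integral_mixM hc τ hmeas hb]
    exact Mix_eq_integral_flowV hc hsum hC0 hC hτ (norm_nonneg _) (by positivity) (good_sin L) hb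
  have hexp : ∀ μ : Measure (ι → ℝ), IsProbabilityMeasure μ →
      ∫ v, Complex.exp ((L v : ℂ) * Complex.I) ∂μ
        = (∫ v, Real.cos (L v) ∂μ : ℝ) + (∫ v, Real.sin (L v) ∂μ : ℝ) * Complex.I := by
    intro μ hμ
    have h1 : ∀ v, Complex.exp ((L v : ℂ) * Complex.I)
        = ((Real.cos (L v) : ℝ) : ℂ) + ((Real.sin (L v) : ℝ) : ℂ) * Complex.I := by
      intro v
      rw [Complex.exp_mul_I]
      simp
    simp_rw [h1]
    have hc1 : Integrable (fun v => ((Real.cos (L v) : ℝ) : ℂ)) μ :=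
      (integrable_of_bdd (by fun_prop) (fun z => Real.abs_cos_le_one _)).ofReal
    have hc2 : Integrable (fun v => ((Real.sin (L v) : ℝ) : ℂ)) μ :=
      (integrable_of_bdd (by fun_prop) (fun z => Real.abs_sin_le_one _)).ofReal
    rw [integral_add hc1 (hc2.mul_const _), integral_mul_const,
      integral_complex_ofReal, integral_complex_ofReal]
  rw [hexp _ hp1, hexp _ hp2, hcos, hsin]

/-- The law of the flow, at the level of bounded test functions. -/
theorem integral_flowV {c : Finset ι → ℝ} (hc : Adm c) (hsum : ∑ S, c S = 1) {C τ : ℝ}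
    (hC0 : 0 ≤ C) (hC : CovBd c C) (hτ : 0 ≤ τ) {f : (ι → ℝ) → ℝ} (hf : Measurable f) {M : ℝ}
    (hM : ∀ z, |f z| ≤ M) :
    ∫ ζ, f (flowV c τ ζ) ∂(gam ι) = Mix c τ f := by
  have hm := measurable_flowV_right c τ
  have := integral_mixM hc τ hf hM
  rw [← law_flowV hc hsum hC0 hC hτ,
    integral_map hm.aemeasurable hf.aestronglyMeasurable] at this
  exact this

end Crest.Agent.Lib.SRFlow
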