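import Crest.Agent.Lib.SRFlow.Tower

/-!
# Thresholding the flow: the law of the limit
-/

set_option autoImplicit false
set_option linter.unusedSectionVars false
set_option linter.unusedSimpArgs false
set_option linter.unusedVariables false

namespace Crest.Agent.Lib.SRFlow

open Finset MeasureTheory Set ProbabilityTheory
open scoped ENNReal

variable {E : Type*} [DecidableEq E]

/-! ### Gaussian tails -/

/-- A bound on the Gaussian tail. -/
noncomputable def gtl (t : ℝ) : ℝ := 2 * Real.exp (1 / 2 - t)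

lemma gtl_nonneg (t : ℝ) : 0 ≤ gtl t := by
  unfold gtl; positivity

lemma gaussian_tail (t : ℝ) : (gaussianReal 0 1).real {y : ℝ | t ≤ |y|} ≤ gtl t := by
  have hsub : {y : ℝ | t ≤ |y|} ⊆ {y | t ≤ id y} ∪ {y | id y ≤ -t} := by
    intro y hy
    simp only [Set.mem_setOf_eq, Set.mem_union, id] at hy ⊢
    rcases le_abs.mp hy with h | h
    · exact Or.inl h
    · right; linarith
  have h1 : (gaussianReal 0 1).real {y : ℝ | t ≤ id y} ≤ Real.exp (1 / 2 - t) := by
    have := measure_ge_le_exp_mul_mgf (X := id) (μ := gaussianReal 0 1) (t := 1) t zero_le_one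
      (by simpa using integrable_exp_mul_gaussianReal (μ := 0) (v := 1) 1)
    rw [mgf_id_gaussianReal] at this
    refine this.trans (le_of_eq ?_)
    rw [← Real.exp_add]
    congr 1
    simp
    ring
  have h2 : (gaussianReal 0 1).real {y : ℝ | id y ≤ -t} ≤ Real.exp (1 / 2 - t) := by
    have := measure_le_le_exp_mul_mgf (X := id) (μ := gaussianReal 0 1) (t := -1) (-t)
      (by norm_num)
      (by simpa using integrable_exp_mul_gaussianReal (μ := 0) (v := 1) (-1))
    rw [mgf_id_gaussianReal] at this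
    refine this.trans (le_of_eq ?_)
    rw [← Real.exp_add]
    congr 1
    simp
    ring
  calc _ ≤ (gaussianReal 0 1).real ({y : ℝ | t ≤ id y} ∪ {y | id y ≤ -t}) :=
        measureReal_mono hsub
    _ ≤ _ := measureReal_union_le _ _
    _ ≤ gtl t := by
        unfold gtl
        linarith

lemma gamE_tail (t : ℝ) (e : E) : (gamE E).real {y : E → ℝ | t ≤ |y e|} ≤ gtl t := by
  have h1 : (gamE E).map (fun x => x e) = gaussianReal 0 1 := Measure.infinitePi_map_eval _ e
  have h2 : (gamE E) {y : E → ℝ | t ≤ |y e|} = (gaussianReal 0 1) {y : ℝ | t ≤ |y|} := by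
    have hms : MeasurableSet {y : ℝ | t ≤ |y|} :=
      measurableSet_le measurable_const continuous_abs.measurable
    rw [← h1, Measure.map_apply (measurable_pi_apply e) hms]
    rfl
  have : (gamE E).real {y : E → ℝ | t ≤ |y e|} = (gaussianReal 0 1).real {y : ℝ | t ≤ |y|} := by
    simp only [Measure.real, h2]
  rw [this]
  exact gaussian_tail t

/-! ### The law, for events -/

lemma measurable_flowE_map {c : Finset E → Finset E → ℝ} (h : SRSys c) (F : Finset E) {τ : ℝ}
    (hτ : 0 ≤ τ) : Measurable (flowE (c F) F τ) :=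
  measurable_pi_lambda _ fun e => measurable_flowE_right h F hτ e

/-- The law of the flow, for local events. -/
theorem law_set {c : Finset E → Finset E → ℝ} (h : SRSys c) (F : Finset E) {τ : ℝ} (hτ : 0 ≤ τ)
    {P : Set (E → ℝ)} (hP : MeasurableSet P)
    (hloc : ∀ z z', (∀ i ∈ F, z i = z' i) → (z ∈ P ↔ z' ∈ P)) :
    (gamE E).real ((flowE (c F) F τ) ⁻¹' P)
      = ∑ S ∈ F.powerset, c F S * (gamE E).real ((shiftE τ S) ⁻¹' P) := by
  classical
  have hm : Measurable (P.indicator (fun _ => (1 : ℝ)) : (E → ℝ) → ℝ) :=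
    measurable_const.indicator hP
  have hb : ∀ z, |P.indicator (fun _ => (1 : ℝ)) z| ≤ 1 := by
    intro z
    by_cases hz : z ∈ P <;> simp [hz]
  have hl : IsLoc F (P.indicator (fun _ => (1 : ℝ))) := by
    intro z z' hz
    by_cases hzP : z ∈ P
    · rw [Set.indicator_of_mem hzP, Set.indicator_of_mem ((hloc z z' hz).mp hzP)]
    · rw [Set.indicator_of_notMem hzP,
        Set.indicator_of_notMem (fun h' => hzP ((hloc z z' hz).mpr h'))]
  have hconv : ∀ (g : (E → ℝ) → (E → ℝ)), Measurable g →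
      ∫ y, P.indicator (fun _ => (1 : ℝ)) (g y) ∂(gamE E) = (gamE E).real (g ⁻¹' P) := by
    intro g hg
    have h1 : (fun y => P.indicator (fun _ => (1 : ℝ)) (g y))
        = (g ⁻¹' P).indicator (fun _ => (1 : ℝ)) := by
      funext y
      by_cases hy : g y ∈ P
      · rw [Set.indicator_of_mem hy, Set.indicator_of_mem (Set.mem_preimage.mpr hy)]
      · rw [Set.indicator_of_notMem hy,
          Set.indicator_of_notMem (fun h' => hy (Set.mem_preimage.mp h'))]
    rw [h1, integral_indicator (hg hP)]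
    simp [Measure.real]
  have := law_flowE h F hτ hm hb hl
  rw [hconv _ (measurable_flowE_map h F hτ)] at this
  rw [this]
  unfold MixE
  refine Finset.sum_congr rfl fun S _ => ?_
  rw [hconv _ (measurable_shiftE τ S)]

/-- Restricting the mixture to a smaller window, for local events. -/
theorem marginal_set {c : Finset E → Finset E → ℝ} (h : SRSys c) {F G : Finset E} (hGF : G ⊆ F)
    (τ : ℝ) {P : Set (E → ℝ)} (hP : MeasurableSet P)
    (hloc : ∀ z z', (∀ i ∈ G, z i = z' i) → (z ∈ P ↔ z' ∈ P)) :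
    ∑ S ∈ F.powerset, c F S * (gamE E).real ((shiftE τ S) ⁻¹' P)
      = ∑ S ∈ G.powerset, c G S * (gamE E).real ((shiftE τ S) ⁻¹' P) := by
  classical
  have hl : IsLoc G (P.indicator (fun _ => (1 : ℝ))) := by
    intro z z' hz
    by_cases hzP : z ∈ P
    · rw [Set.indicator_of_mem hzP, Set.indicator_of_mem ((hloc z z' hz).mp hzP)]
    · rw [Set.indicator_of_notMem hzP,
        Set.indicator_of_notMem (fun h' => hzP ((hloc z z' hz).mpr h'))]
  have hconv : ∀ (g : (E → ℝ) → (E → ℝ)), Measurable g →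
      ∫ y, P.indicator (fun _ => (1 : ℝ)) (g y) ∂(gamE E) = (gamE E).real (g ⁻¹' P) := by
    intro g hg
    have h1 : (fun y => P.indicator (fun _ => (1 : ℝ)) (g y))
        = (g ⁻¹' P).indicator (fun _ => (1 : ℝ)) := by
      funext y
      by_cases hy : g y ∈ P
      · rw [Set.indicator_of_mem hy, Set.indicator_of_mem (Set.mem_preimage.mpr hy)]
      · rw [Set.indicator_of_notMem hy,
          Set.indicator_of_notMem (fun h' => hy (Set.mem_preimage.mp h'))]
    rw [h1, integral_indicator (hg hP)]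
    simp [Measure.real]
  have := MixE_marginal h hGF hl τ (fun _ => 1)
  simp only [mul_one] at this
  simp_rw [hconv _ (measurable_shiftE τ _)] at this
  exact this

/-! ### The pattern events -/

/-- The threshold pattern. -/
def patt (τ : ℝ) (A Q : Finset E) : Set (E → ℝ) := {z | ∀ e ∈ A, (τ / 2 < z e ↔ e ∈ Q)}

lemma measurableSet_patt (τ : ℝ) (A Q : Finset E) : MeasurableSet (patt τ A Q) := by
  have : patt τ A Q = ⋂ e ∈ A, {z : E → ℝ | τ / 2 < z e ↔ e ∈ Q} := by
    ext z
    simp [patt]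
  rw [this]
  refine Finset.measurableSet_biInter _ fun e _ => ?_
  by_cases he : e ∈ Q
  · simp only [he, iff_true]
    exact measurableSet_lt measurable_const (measurable_pi_apply e)
  · simp only [he, iff_false, not_lt]
    exact measurableSet_le (measurable_pi_apply e) measurable_const

lemma patt_loc (τ : ℝ) (A Q : Finset E) (z z' : E → ℝ) (hz : ∀ i ∈ A, z i = z' i) :
    z ∈ patt τ A Q ↔ z' ∈ patt τ A Q := by
  constructor
  · intro h e he
    rw [← hz e he]
    exact h e he
  · intro h e he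
    rw [hz e he]
    exact h e he

lemma shiftE_apply_mem (τ : ℝ) {S : Finset E} {e : E} (he : e ∈ S) (y : E → ℝ) :
    shiftE τ S y e = τ + y e := by
  simp [shiftE, he]

lemma shiftE_apply_notMem (τ : ℝ) {S : Finset E} {e : E} (he : e ∉ S) (y : E → ℝ) :
    shiftE τ S y e = y e := by
  simp [shiftE, he]

lemma patt_self_bound {τ : ℝ} (hτ : 0 ≤ τ) (A Q : Finset E) :
    1 - A.card * gtl (τ / 2) ≤ (gamE E).real ((shiftE τ Q) ⁻¹' patt τ A Q) := by
  have hcompl : ((shiftE τ Q) ⁻¹' patt τ A Q)ᶜ ⊆ ⋃ e ∈ A, {y : E → ℝ | τ / 2 ≤ |y e|} := by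
    intro y hy
    by_contra hcon
    simp only [Set.mem_iUnion, Set.mem_setOf_eq, not_exists, not_le] at hcon
    apply hy
    intro e he
    have h1 := abs_lt.mp (hcon e (by simpa using he))
    by_cases heQ : e ∈ Q
    · simp only [heQ, iff_true]
      rw [shiftE_apply_mem τ heQ]
      linarith [h1.1]
    · simp only [heQ, iff_false, not_lt]
      rw [shiftE_apply_notMem τ heQ]
      linarith [h1.2]
  have hm : MeasurableSet ((shiftE τ Q) ⁻¹' patt τ A Q) :=
    measurable_shiftE τ Q (measurableSet_patt τ A Q)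
  have h1 : (gamE E).real ((shiftE τ Q) ⁻¹' patt τ A Q)ᶜ ≤ A.card * gtl (τ / 2) := by
    calc _ ≤ (gamE E).real (⋃ e ∈ A, {y : E → ℝ | τ / 2 ≤ |y e|}) :=
          measureReal_mono hcompl (measure_ne_top _ _)
      _ ≤ ∑ e ∈ A, (gamE E).real {y : E → ℝ | τ / 2 ≤ |y e|} :=
        measureReal_biUnion_finset_le _ _
      _ ≤ ∑ _e ∈ A, gtl (τ / 2) := Finset.sum_le_sum fun e _ => gamE_tail _ e
      _ = A.card * gtl (τ / 2) := by rw [Finset.sum_const, nsmul_eq_mul]
  have h2 := measureReal_add_measureReal_compl (μ := gamE E) hm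
  have h3 : (gamE E).real Set.univ = 1 := by simp
  linarith

lemma patt_other_bound {τ : ℝ} (hτ : 0 ≤ τ) {A Q S : Finset E} (hQ : Q ⊆ A) (hS : S ⊆ A)
    (hne : S ≠ Q) : (gamE E).real ((shiftE τ S) ⁻¹' patt τ A Q) ≤ gtl (τ / 2) := by
  obtain ⟨e, heA, hdiff⟩ : ∃ e ∈ A, ¬ (e ∈ S ↔ e ∈ Q) := by
    by_contra hcon
    push Not at hcon
    apply hne
    ext x
    constructor
    · intro hx
      exact (hcon x (hS hx)).mp hx
    · intro hx
      exact (hcon x (hQ hx)).mpr hx
  have hsub : (shiftE τ S) ⁻¹' patt τ A Q ⊆ {y : E → ℝ | τ / 2 ≤ |y e|} := by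
    intro y hy
    have h1 := hy e heA
    simp only [Set.mem_setOf_eq]
    by_cases heS : e ∈ S
    · have heQ : e ∉ Q := fun h => hdiff (iff_of_true heS h)
      rw [shiftE_apply_mem τ heS] at h1
      simp only [heQ, iff_false, not_lt] at h1
      have : τ / 2 ≤ - y e := by linarith
      exact this.trans (neg_le_abs _)
    · have heQ : e ∈ Q := by
        by_contra h
        exact hdiff (iff_of_false heS h)
      rw [shiftE_apply_notMem τ heS] at h1
      simp only [heQ, iff_true] at h1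
      exact h1.le.trans (le_abs_self _)
  exact (measureReal_mono hsub).trans (gamE_tail _ e)

/-- The law of the thresholded flow is close to the law of the system. -/
theorem pattern_bound {c : Finset E → Finset E → ℝ} (h : SRSys c) {F A Q : Finset E} (hAF : A ⊆ F)
    (hQA : Q ⊆ A) {τ : ℝ} (hτ : 0 ≤ τ) :
    |(gamE E).real ((flowE (c F) F τ) ⁻¹' patt τ A Q) - c A Q|
      ≤ (A.card + 1) * gtl (τ / 2) := by
  have hm := measurableSet_patt τ A Q
  rw [law_set h F hτ hm (fun z z' hz => patt_loc τ A Q z z' fun i hi => hz i (hAF hi)),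
    marginal_set h hAF τ hm (patt_loc τ A Q)]
  have hQmem : Q ∈ A.powerset := Finset.mem_powerset.mpr hQA
  rw [← Finset.add_sum_erase _ _ hQmem]
  set p := (gamE E).real ((shiftE τ Q) ⁻¹' patt τ A Q) with hp
  have hp1 : p ≤ 1 := measureReal_le_one
  have hp2 := patt_self_bound (E := E) hτ A Q
  have hsum : ∑ S ∈ A.powerset.erase Q, c A S = 1 - c A Q := by
    have := Finset.add_sum_erase A.powerset (c A) hQmem
    rw [h.sum_one A] at this
    linarith
  have hc0 := h.nonneg A Q
  have hsum0 : 0 ≤ ∑ S ∈ A.powerset.erase Q, c A S := Finset.sum_nonneg fun S _ => h.nonneg A S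
  have hc1 : c A Q ≤ 1 := by linarith
  have hg := gtl_nonneg (τ / 2)
  have hother : ∑ S ∈ A.powerset.erase Q, c A S * (gamE E).real ((shiftE τ S) ⁻¹' patt τ A Q)
      ≤ (1 - c A Q) * gtl (τ / 2) := by
    rw [← hsum, Finset.sum_mul]
    refine Finset.sum_le_sum fun S hS => ?_
    refine mul_le_mul_of_nonneg_left ?_ (h.nonneg A S)
    have hS' := Finset.mem_erase.mp hS
    exact patt_other_bound hτ hQA (Finset.mem_powerset.mp hS'.2) hS'.1
  have hother0 : 0 ≤ ∑ S ∈ A.powerset.erase Q, c A S * (gamE E).real ((shiftE τ S) ⁻¹' patt τ A Q) :=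
    Finset.sum_nonneg fun S _ => mul_nonneg (h.nonneg A S) measureReal_nonneg
  have hcard : (0 : ℝ) ≤ A.card := by positivity
  have hself : c A Q * (1 - p) ≤ A.card * gtl (τ / 2) := by
    have h1 : 1 - p ≤ A.card * gtl (τ / 2) := by linarith
    have h2 : 0 ≤ 1 - p := by linarith
    calc c A Q * (1 - p) ≤ 1 * (1 - p) := mul_le_mul_of_nonneg_right hc1 h2
      _ ≤ _ := by linarith
  rw [abs_le]
  constructor
  · nlinarith
  · nlinarith

/-! ### Comparing thresholds -/

/-- The threshold event. -/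
def Yk (c : Finset E → Finset E → ℝ) (F : Finset E) (k : ℕ) (ζ : E → ℝ) (e : E) : Prop :=
  (k : ℝ) / 2 < flowE (c F) F k ζ e

lemma measurableSet_Yk {c : Finset E → Finset E → ℝ} (h : SRSys c) (F : Finset E) (k : ℕ) (e : E) :
    MeasurableSet {ζ | Yk c F k ζ e} :=
  measurableSet_lt measurable_const (measurable_flowE_right h F (Nat.cast_nonneg k) e)

/-- The flow is unlikely to be near the threshold. -/
lemma near_threshold {c : Finset E → Finset E → ℝ} (h : SRSys c) {F : Finset E} {e : E} (he : e ∈ F)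
    (k : ℕ) :
    (gamE E).real {ζ | |flowE (c F) F k ζ e - (k : ℝ) / 2| ≤ 1 / 2} ≤ gtl (((k : ℝ) - 1) / 2) := by
  set P : Set (E → ℝ) := {z | |z e - (k : ℝ) / 2| ≤ 1 / 2} with hP
  have hPm : MeasurableSet P :=
    measurableSet_le ((measurable_pi_apply e).sub measurable_const).abs measurable_const
  have hloc : ∀ z z' : E → ℝ, (∀ i ∈ F, z i = z' i) → (z ∈ P ↔ z' ∈ P) := by
    intro z z' hz
    simp only [hP, Set.mem_setOf_eq]
    rw [hz e he]
  have h1 := law_set h F (τ := k) (Nat.cast_nonneg k) hPm hloc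
  have h2 : {ζ | |flowE (c F) F k ζ e - (k : ℝ) / 2| ≤ 1 / 2} = (flowE (c F) F k) ⁻¹' P := rfl
  rw [h2, h1]
  have h3 : ∀ S ∈ F.powerset, c F S * (gamE E).real ((shiftE (k : ℝ) S) ⁻¹' P)
      ≤ c F S * gtl (((k : ℝ) - 1) / 2) := by
    intro S _
    refine mul_le_mul_of_nonneg_left ?_ (h.nonneg F S)
    have hsub : (shiftE (k : ℝ) S) ⁻¹' P ⊆ {y : E → ℝ | ((k : ℝ) - 1) / 2 ≤ |y e|} := by
      intro y hy
      simp only [hP, Set.mem_preimage, Set.mem_setOf_eq] at hy ⊢
      have h4 := abs_le.mp hy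
      by_cases heS : e ∈ S
      · rw [shiftE_apply_mem _ heS] at h4
        have : ((k : ℝ) - 1) / 2 ≤ - y e := by linarith [h4.1]
        exact this.trans (neg_le_abs _)
      · rw [shiftE_apply_notMem _ heS] at h4
        have : ((k : ℝ) - 1) / 2 ≤ y e := by linarith [h4.2]
        exact this.trans (le_abs_self _)
    exact (measureReal_mono hsub).trans (gamE_tail _ e)
  refine (Finset.sum_le_sum h3).trans (le_of_eq ?_)
  rw [← Finset.sum_mul, h.sum_one, one_mul]

/-- Two windows rarely disagree. -/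
lemma window_disagree {c : Finset E → Finset E → ℝ} (h : SRSys c) {F F' : Finset E} {e : E}
    (he : e ∈ F) (he' : e ∈ F') (k : ℕ) {d : ℝ}
    (hd : ∫ ζ, |flowE (c F) F k ζ e - flowE (c F') F' k ζ e| ∂(gamE E) ≤ d) :
    (gamE E).real {ζ | ¬ (Yk c F k ζ e ↔ Yk c F' k ζ e)} ≤ gtl (((k : ℝ) - 1) / 2) + 2 * d := by
  have hsub : {ζ | ¬ (Yk c F k ζ e ↔ Yk c F' k ζ e)}
      ⊆ {ζ | |flowE (c F) F k ζ e - (k : ℝ) / 2| ≤ 1 / 2}
        ∪ {ζ | (1 / 2 : ℝ) ≤ |flowE (c F) F k ζ e - flowE (c F') F' k ζ e|} := by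
    intro ζ hζ
    simp only [Set.mem_setOf_eq, Set.mem_union]
    by_contra hcon
    push Not at hcon
    obtain ⟨h1, h2⟩ := hcon
    apply hζ
    unfold Yk
    have h3 := abs_lt.mp h2
    rw [lt_abs] at h1
    rcases h1 with h1 | h1
    · constructor
      · intro _
        linarith [h3.1, h3.2]
      · intro _
        linarith [h3.1, h3.2]
    · constructor
      · intro _
        linarith [h3.1, h3.2]
      · intro h4
        linarith [h3.1, h3.2]
  have hmk := measurable_flowE_right h F (τ := k) (Nat.cast_nonneg k) e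
  have hmk' := measurable_flowE_right h F' (τ := k) (Nat.cast_nonneg k) e
  have hint : Integrable (fun ζ => |flowE (c F) F k ζ e - flowE (c F') F' k ζ e|) (gamE E) :=
    integrable_of_bdd (M := k) (hmk.sub hmk').abs (fun ζ => by
      rw [abs_abs]
      exact abs_flowE_sub_le h F F' (Nat.cast_nonneg k) ζ e)
  have hmarkov := mul_meas_ge_le_integral_of_nonneg (μ := gamE E)
    (Filter.Eventually.of_forall fun ζ => abs_nonneg _) hint (1 / 2)
  have h5 : (gamE E).real {ζ | (1 / 2 : ℝ) ≤ |flowE (c F) F k ζ e - flowE (c F') F' k ζ e|}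
      ≤ 2 * d := by
    linarith
  calc _ ≤ _ := measureReal_mono hsub
    _ ≤ _ := measureReal_union_le _ _
    _ ≤ _ := add_le_add (near_threshold h he k) h5

/-- The threshold rarely changes between consecutive integer times. -/
lemma time_disagree {c : Finset E → Finset E → ℝ} (h : SRSys c) {F : Finset E} {e : E} (he : e ∈ F)
    (k : ℕ) :
    (gamE E).real {ζ | ¬ (Yk c F k ζ e ↔ Yk c F (k + 1) ζ e)} ≤ gtl (((k : ℝ) - 1) / 2) := by
  refine le_trans (measureReal_mono ?_) (near_threshold h he k)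
  intro ζ hζ
  simp only [Set.mem_setOf_eq] at hζ ⊢
  have h1 := flowE_increment h F (τ := k) (τ' := ((k + 1 : ℕ) : ℝ)) (Nat.cast_nonneg k)
    (by push_cast; linarith) ζ e
  push_cast at h1
  by_contra hcon
  apply hζ
  unfold Yk
  push_cast
  rw [not_le, lt_abs] at hcon
  rcases hcon with h2 | h2
  · constructor
    · intro _
      linarith [h1.1, h1.2]
    · intro _
      linarith [h1.1, h1.2]
  · constructor
    · intro h3
      linarith [h1.1, h1.2]
    · intro h3
      linarith [h1.1, h1.2]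

/-! ### Summability -/

/-- The error bound for being close to the threshold at the time `k`. -/
noncomputable def epk (k : ℕ) : ℝ := gtl (((k : ℝ) - 1) / 2)

lemma epk_nonneg (k : ℕ) : 0 ≤ epk k := gtl_nonneg _

lemma summable_epk : Summable epk := by
  have h1 : ∀ k : ℕ, epk k = (2 * Real.exp 1) * (Real.exp (-(1 / 2))) ^ k := by
    intro k
    unfold epk gtl
    rw [← Real.exp_nat_mul, mul_assoc, ← Real.exp_add]
    congr 2
    ring
  have h2 : Summable fun k : ℕ => (Real.exp (-(1 / 2))) ^ k :=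
    summable_geometric_of_lt_one (Real.exp_pos _).le (by
      rw [Real.exp_lt_one_iff]
      norm_num)
  exact (h2.mul_left _).congr fun k => (h1 k).symm

lemma tendsto_gtl_half : Filter.Tendsto (fun k : ℕ => gtl ((k : ℝ) / 2)) Filter.atTop (nhds 0) := by
  have h1 : ∀ k : ℕ, gtl ((k : ℝ) / 2) = epk (k + 1) := by
    intro k
    unfold epk
    congr 1
    push_cast
    ring
  simp_rw [h1]
  exact ((summable_nat_add_iff 1).mpr summable_epk).tendsto_atTop_zero

/-! ### The limit -/

/-- The limit of the thresholds in a sequence of windows. -/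
def Xlim (c : Finset E → Finset E → ℝ) (W : ℕ → E → Finset E) (ζ : E → ℝ) (e : E) : Prop :=
  ∃ᶠ k : ℕ in Filter.atTop, Yk c (W k e) k ζ e

lemma measurableSet_Xlim {c : Finset E → Finset E → ℝ} (h : SRSys c) (W : ℕ → E → Finset E)
    (e : E) : MeasurableSet {ζ | Xlim c W ζ e} := by
  have : {ζ | Xlim c W ζ e} = ⋂ a : ℕ, ⋃ b : ℕ, ⋃ (_ : b ≥ a), {ζ | Yk c (W b e) b ζ e} := by
    ext ζ
    simp [Xlim, Filter.frequently_atTop]
  rw [this]
  exact MeasurableSet.iInter fun a => MeasurableSet.iUnion fun b => MeasurableSet.iUnion fun _ =>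
    measurableSet_Yk h _ b e

/-- Windows adapted to the time `k`. -/
theorem exists_window {c : Finset E → Finset E → ℝ} (h : SRSys c) (k : ℕ) (e : E) {d : ℝ}
    (hd : 0 < d) : ∃ G : Finset E, e ∈ G ∧ ∀ F F', G ⊆ F → G ⊆ F' →
      ∫ ζ, |flowE (c F) F k ζ e - flowE (c F') F' k ζ e| ∂(gamE E) ≤ d := by
  obtain ⟨G, hG, hGb⟩ := tower h (T := k) (Nat.cast_nonneg k) {e} hd
  refine ⟨G, hG (Finset.mem_singleton_self e), fun F F' hF hF' => ?_⟩
  refine le_trans ?_ (hGb F F' hF hF' k (Nat.cast_nonneg k) le_rfl)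
  have hk : (0 : ℝ) ≤ k := Nat.cast_nonneg k
  refine integral_mono_of_nonneg (Filter.Eventually.of_forall fun ζ => abs_nonneg _) ?_
    (Filter.Eventually.of_forall fun ζ => abs_le_supD (Finset.mem_singleton_self e))
  exact integrable_of_bdd (M := k) (measurable_supD_right h _ F F' hk) (fun ζ => by
    rw [abs_of_nonneg (supD_nonneg _ _ _)]
    exact supD_flow_le h _ F F' hk ζ)

/-- **The law of the limit.** -/
theorem limit_law {c : Finset E → Finset E → ℝ} (h : SRSys c) (W : ℕ → E → Finset E)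
    (hWe : ∀ k e, e ∈ W k e) {dl : ℕ → ℝ} (hdl0 : ∀ k, 0 ≤ dl k) (hdl : Summable dl)
    (hWin : ∀ k e F F', W k e ⊆ F → W k e ⊆ F' →
      ∫ ζ, |flowE (c F) F k ζ e - flowE (c F') F' k ζ e| ∂(gamE E) ≤ dl k)
    {A Q : Finset E} (hQA : Q ⊆ A) :
    (gamE E).real {ζ | ∀ e ∈ A, (Xlim c W ζ e ↔ e ∈ Q)} = c A Q := by
  classical
  set ka : ℕ → ℝ := fun k => epk k + 2 * dl k with hka
  have hka0 : ∀ k, 0 ≤ ka k := fun k => add_nonneg (epk_nonneg k) (by linarith [hdl0 k])
  have hkaS : Summable ka := summable_epk.add (hdl.mul_left 2)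
  set bt : ℕ → ℝ := fun k => ka k + epk k + ka (k + 1) with hbt
  have hbt0 : ∀ k, 0 ≤ bt k := fun k =>
    add_nonneg (add_nonneg (hka0 k) (epk_nonneg k)) (hka0 (k + 1))
  have hbtS : Summable bt := (hkaS.add summable_epk).add ((summable_nat_add_iff 1).mpr hkaS)
  -- bad events
  let Bad : ℕ → E → Set (E → ℝ) := fun k e =>
    {ζ | ¬ (Yk c (W k e) k ζ e ↔ Yk c (W (k + 1) e) (k + 1) ζ e)}
  have hBad : ∀ k e, (gamE E).real (Bad k e) ≤ bt k := by
    intro k e
    set F := W k e ∪ W (k + 1) e with hF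
    have hF1 : W k e ⊆ F := Finset.subset_union_left
    have hF2 : W (k + 1) e ⊆ F := Finset.subset_union_right
    have heF : e ∈ F := hF1 (hWe k e)
    have h1 := window_disagree h (hWe k e) heF k (hWin k e _ _ subset_rfl hF1)
    have h2 := time_disagree h heF k
    have h3 := window_disagree h heF (hWe (k + 1) e) (k + 1)
      (hWin (k + 1) e _ _ hF2 subset_rfl)
    have hsub : Bad k e ⊆ {ζ | ¬ (Yk c (W k e) k ζ e ↔ Yk c F k ζ e)}
        ∪ {ζ | ¬ (Yk c F k ζ e ↔ Yk c F (k + 1) ζ e)}
        ∪ {ζ | ¬ (Yk c F (k + 1) ζ e ↔ Yk c (W (k + 1) e) (k + 1) ζ e)} := by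
      intro ζ hζ
      by_contra hcon
      simp only [Set.mem_union, Set.mem_setOf_eq, not_or, not_not] at hcon
      exact hζ (hcon.1.1.trans (hcon.1.2.trans hcon.2))
    have h4 : (gamE E).real (Bad k e)
        ≤ (epk k + 2 * dl k) + epk k + (epk (k + 1) + 2 * dl (k + 1)) := by
      refine (measureReal_mono hsub).trans ?_
      refine (measureReal_union_le _ _).trans (add_le_add ?_ h3)
      exact (measureReal_union_le _ _).trans (add_le_add h1 h2)
    exact h4
  -- tail events
  let Tail : ℕ → E → Set (E → ℝ) := fun k e => ⋃ j : ℕ, Bad (j + k) e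
  set rho : ℕ → ℝ := fun k => ∑' j : ℕ, bt (j + k) with hrho
  have hrhoT : Filter.Tendsto rho Filter.atTop (nhds 0) := tendsto_sum_nat_add bt
  have hTail : ∀ k e, (gamE E).real (Tail k e) ≤ rho k := by
    intro k e
    have hS : Summable fun j : ℕ => bt (j + k) := (summable_nat_add_iff k).mpr hbtS
    have h1 : (gamE E) (Tail k e) ≤ ENNReal.ofReal (rho k) := by
      calc (gamE E) (Tail k e) ≤ ∑' j : ℕ, (gamE E) (Bad (j + k) e) := measure_iUnion_le _
        _ ≤ ∑' j : ℕ, ENNReal.ofReal (bt (j + k)) := by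
            refine ENNReal.tsum_le_tsum fun j => ?_
            rw [← ofReal_measureReal]
            exact ENNReal.ofReal_le_ofReal (hBad _ _)
        _ = ENNReal.ofReal (rho k) := by
            rw [hrho, ENNReal.ofReal_tsum_of_nonneg (fun j => hbt0 _) hS]
    have h2 : 0 ≤ rho k := tsum_nonneg fun j => hbt0 _
    have := ENNReal.toReal_mono ENNReal.ofReal_ne_top h1
    rwa [ENNReal.toReal_ofReal h2] at this
  -- outside the tail, the limit is decided at the time `k`
  have hdec : ∀ k e ζ, ζ ∉ Tail k e → (Xlim c W ζ e ↔ Yk c (W k e) k ζ e) := by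
    intro k e ζ hζ
    have hall : ∀ j : ℕ, (Yk c (W (j + k) e) (j + k) ζ e ↔ Yk c (W k e) k ζ e) := by
      intro j
      induction j with
      | zero => simp
      | succ j ih =>
        have h1 : ζ ∉ Bad (j + k) e := fun h' => hζ (Set.mem_iUnion.mpr ⟨j, h'⟩)
        have h2 : Yk c (W (j + k) e) (j + k) ζ e ↔ Yk c (W (j + k + 1) e) (j + k + 1) ζ e := by
          by_contra h3
          exact h1 h3
        rw [show j + 1 + k = j + k + 1 by omega]
        exact h2.symm.trans ih
    constructor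
    · intro hX
      obtain ⟨m, hmk, hm⟩ := (Filter.frequently_atTop.mp hX) k
      have : m = (m - k) + k := by omega
      rw [this] at hm
      exact (hall (m - k)).mp hm
    · intro hY
      rw [Xlim, Filter.frequently_atTop]
      intro a
      refine ⟨a + k, by omega, (hall a).mpr hY⟩
  -- measurability of the relevant sets is not needed for the comparison of finite measures
  have hbound : ∀ k : ℕ, |(gamE E).real {ζ | ∀ e ∈ A, (Xlim c W ζ e ↔ e ∈ Q)} - c A Q|
      ≤ A.card * (rho k + ka k) + (A.card + 1) * gtl ((k : ℝ) / 2) := by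
    intro k
    set F := A ∪ A.biUnion (W k) with hF
    have hAF : A ⊆ F := Finset.subset_union_left
    have hWF : ∀ e ∈ A, W k e ⊆ F := fun e he =>
      (Finset.subset_biUnion_of_mem (W k) he).trans Finset.subset_union_right
    let Dis : E → Set (E → ℝ) := fun e => {ζ | ¬ (Yk c (W k e) k ζ e ↔ Yk c F k ζ e)}
    let U : Set (E → ℝ) := ⋃ e ∈ A, (Tail k e ∪ Dis e)
    have hU : (gamE E).real U ≤ A.card * (rho k + ka k) := by
      calc (gamE E).real U ≤ ∑ e ∈ A, (gamE E).real (Tail k e ∪ Dis e) :=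
            measureReal_biUnion_finset_le _ _
        _ ≤ ∑ _e ∈ A, (rho k + ka k) := by
            refine Finset.sum_le_sum fun e he => ?_
            refine (measureReal_union_le _ _).trans (add_le_add (hTail k e) ?_)
            exact window_disagree h (hWe k e) (hAF he) k (hWin k e _ _ subset_rfl (hWF e he))
        _ = A.card * (rho k + ka k) := by rw [Finset.sum_const, nsmul_eq_mul]
    set PX : Set (E → ℝ) := {ζ | ∀ e ∈ A, (Xlim c W ζ e ↔ e ∈ Q)} with hPX
    set Pk : Set (E → ℝ) := (flowE (c F) F k) ⁻¹' patt (k : ℝ) A Q with hPk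
    have hiff : ∀ ζ, ζ ∉ U → (ζ ∈ PX ↔ ζ ∈ Pk) := by
      intro ζ hζ
      have hgood : ∀ e ∈ A, (Xlim c W ζ e ↔ ((k : ℝ) / 2 < flowE (c F) F k ζ e)) := by
        intro e he
        have h1 : ζ ∉ Tail k e ∪ Dis e := fun h' =>
          hζ (Set.mem_biUnion (Finset.mem_coe.mpr he) h')
        rw [Set.mem_union, not_or] at h1
        have h2 := hdec k e ζ h1.1
        have h3 : Yk c (W k e) k ζ e ↔ Yk c F k ζ e := by
          by_contra h4
          exact h1.2 h4
        exact h2.trans h3
      constructor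
      · intro hz e he
        exact (hgood e he).symm.trans (hz e he)
      · intro hz e he
        exact (hgood e he).trans (hz e he)
    have h1 : PX ⊆ Pk ∪ U := by
      intro ζ hζ
      by_cases hU' : ζ ∈ U
      · exact Or.inr hU'
      · exact Or.inl ((hiff ζ hU').mp hζ)
    have h2 : Pk ⊆ PX ∪ U := by
      intro ζ hζ
      by_cases hU' : ζ ∈ U
      · exact Or.inr hU'
      · exact Or.inl ((hiff ζ hU').mpr hζ)
    have h3 : (gamE E).real PX ≤ (gamE E).real Pk + (gamE E).real U :=
      (measureReal_mono h1).trans (measureReal_union_le _ _)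
    have h4 : (gamE E).real Pk ≤ (gamE E).real PX + (gamE E).real U :=
      (measureReal_mono h2).trans (measureReal_union_le _ _)
    have h5 := pattern_bound h hAF hQA (τ := k) (Nat.cast_nonneg k)
    rw [abs_le] at h5 ⊢
    constructor <;> linarith [h5.1, h5.2]
  have hlim : Filter.Tendsto (fun k : ℕ => (A.card : ℝ) * (rho k + ka k)
      + (A.card + 1) * gtl ((k : ℝ) / 2)) Filter.atTop (nhds 0) := by
    have h1 : Filter.Tendsto ka Filter.atTop (nhds 0) := hkaS.tendsto_atTop_zero
    have h2 := ((hrhoT.add h1).const_mul (A.card : ℝ)).add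
      (tendsto_gtl_half.const_mul ((A.card : ℝ) + 1))
    simpa using h2
  have hfin : |(gamE E).real {ζ | ∀ e ∈ A, (Xlim c W ζ e ↔ e ∈ Q)} - c A Q| ≤ 0 :=
    ge_of_tendsto' hlim hbound
  have := abs_nonpos_iff.mp hfin
  linarith

end Crest.Agent.Lib.SRFlow
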