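import Crest.Agent.Lib.SRFlow.Limit

/-!
# Reindexing the flow along a bijection of the index set
-/

set_option autoImplicit false
set_option linter.unusedSectionVars false
set_option linter.unusedSimpArgs false
set_option linter.unusedVariables false

namespace Crest.Agent.Lib.SRFlow

open Finset MeasureTheory Set ProbabilityTheory
open scoped ENNReal

section Finite

variable {ι ι' : Type*} [Fintype ι] [DecidableEq ι] [Fintype ι'] [DecidableEq ι']
  (ψ : ι ≃ ι') {c : Finset ι → ℝ} {c' : Finset ι' → ℝ}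

lemma sum_finset_reindex {M : Type*} [AddCommMonoid M] (f : Finset ι' → M) :
    ∑ S', f S' = ∑ S : Finset ι, f (S.map ψ.toEmbedding) :=
  (Fintype.sum_equiv (ψ.finsetCongr) (fun S => f (S.map ψ.toEmbedding)) f fun S => rfl).symm

lemma wt_reindex (hcc : ∀ S, c' (S.map ψ.toEmbedding) = c S) (h' : ι' → ℝ) (S : Finset ι) :
    wt c' h' (S.map ψ.toEmbedding) = wt c (h' ∘ ψ) S := by
  unfold wt
  rw [hcc, Finset.sum_map]
  rfl

lemma Et_reindex (hcc : ∀ S, c' (S.map ψ.toEmbedding) = c S) (h' : ι' → ℝ) (f' : Finset ι' → ℝ) :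
    Et c' h' f' = Et c (h' ∘ ψ) (fun S => f' (S.map ψ.toEmbedding)) := by
  unfold Et Zt
  rw [sum_finset_reindex ψ, sum_finset_reindex ψ]
  simp_rw [wt_reindex ψ hcc]

lemma ind_reindex (b : ι) (S : Finset ι) : ind (ψ b) (S.map ψ.toEmbedding) = ind b S := by
  unfold ind
  simp

lemma fld_reindex (hcc : ∀ S, c' (S.map ψ.toEmbedding) = c S) (τ : ℝ) (z' : ι' → ℝ) (b : ι) :
    fld c' τ z' (ψ b) = fld c τ (z' ∘ ψ) b := by
  unfold fld
  rw [Et_reindex ψ hcc]
  simp_rw [ind_reindex]
  rfl

lemma eul_reindex (hcc : ∀ S, c' (S.map ψ.toEmbedding) = c S) (η : ℝ) (z' : ι' → ℝ) (k : ℕ) (b : ι) :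
    eul c' η z' k (ψ b) = eul c η (z' ∘ ψ) k b := by
  induction k generalizing b with
  | zero => rfl
  | succ k ih =>
    rw [eul_succ, eul_succ]
    simp only [Pi.add_apply, Pi.smul_apply, smul_eq_mul]
    rw [ih, fld_reindex ψ hcc]
    congr 3
    funext x
    exact ih x

lemma flowV_reindex (hcc : ∀ S, c' (S.map ψ.toEmbedding) = c S) (τ : ℝ) (z' : ι' → ℝ) (b : ι) :
    flowV c' τ z' (ψ b) = flowV c τ (z' ∘ ψ) b := by
  unfold flowV
  simp_rw [eul_reindex ψ hcc]

end Finite

section Window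

variable {E E' : Type*} [DecidableEq E] [DecidableEq E']

/-- The bijection between the windows induced by a bijection of the index sets. -/
def winEquiv (φ : E ≃ E') (F : Finset E) : ↥F ≃ ↥(F.map φ.toEmbedding) :=
  φ.subtypeEquiv fun a => by simp

lemma wc_reindex (φ : E ≃ E') {F : Finset E} {cF : Finset E → ℝ} {cF' : Finset E' → ℝ}
    (hcc : ∀ S ∈ F.powerset, cF' (S.map φ.toEmbedding) = cF S) (S' : Finset ↥F) :
    wc cF' (F.map φ.toEmbedding) (S'.map (winEquiv φ F).toEmbedding) = wc cF F S' := by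
  unfold wc
  have h1 : (S'.map (winEquiv φ F).toEmbedding).map (Function.Embedding.subtype _)
      = (S'.map (Function.Embedding.subtype _)).map φ.toEmbedding := by
    ext x
    simp [winEquiv, Finset.mem_map]
  rw [h1, hcc]
  rw [Finset.mem_powerset]
  intro x hx
  obtain ⟨y, _, rfl⟩ := Finset.mem_map.mp hx
  exact y.2

/-- **Reindexing the flow.** -/
theorem flowE_reindex (φ : E ≃ E') {F : Finset E} {cF : Finset E → ℝ} {cF' : Finset E' → ℝ}
    (hcc : ∀ S ∈ F.powerset, cF' (S.map φ.toEmbedding) = cF S) (τ : ℝ) (ζ' : E' → ℝ) (b : E) :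
    flowE cF' (F.map φ.toEmbedding) τ ζ' (φ b) = flowE cF F τ (ζ' ∘ φ) b := by
  unfold flowE
  by_cases hb : b ∈ F
  · have hb' : φ b ∈ F.map φ.toEmbedding := by simp [hb]
    rw [dif_pos hb, dif_pos hb']
    have := flowV_reindex (winEquiv φ F) (wc_reindex φ hcc) τ
      ((F.map φ.toEmbedding).restrict ζ') ⟨b, hb⟩
    refine this.trans ?_
    rfl
  · have hb' : φ b ∉ F.map φ.toEmbedding := by simp [hb]
    rw [dif_neg hb, dif_neg hb']
    rfl

/-- The Gaussian noise is invariant under reindexing. -/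
theorem gamE_map_reindex (φ : E ≃ E') : (gamE E').map (fun ζ' => ζ' ∘ φ) = gamE E := by
  classical
  have hm : Measurable fun ζ' : E' → ℝ => ζ' ∘ φ :=
    measurable_pi_lambda _ fun i => measurable_pi_apply _
  have hp : IsProbabilityMeasure ((gamE E').map (fun ζ' => ζ' ∘ φ)) :=
    Measure.isProbabilityMeasure_map hm.aemeasurable
  refine Measure.eq_infinitePi _ fun s t ht => ?_
  rw [Measure.map_apply hm (MeasurableSet.pi s.countable_toSet fun i _ => ht i)]
  have h1 : (fun ζ' : E' → ℝ => ζ' ∘ φ) ⁻¹' Set.pi s t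
      = Set.pi (s.map φ.toEmbedding) (fun i => t (φ.symm i)) := by
    ext ζ'
    simp only [Set.mem_preimage, Set.mem_pi, Finset.mem_coe, Finset.mem_map_equiv,
      Function.comp_apply]
    constructor
    · intro h i hi
      have := h (φ.symm i) hi
      simpa using this
    · intro h i hi
      have := h (φ i) (by simpa using hi)
      simpa using this
  rw [h1]
  unfold gamE
  have h2 := Measure.infinitePi_pi (fun _ : E' => gaussianReal 0 1) (s := s.map φ.toEmbedding)
    (t := fun i => t (φ.symm i)) (fun i _ => ht _)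
  rw [h2, Finset.prod_map]
  simp

end Window

end Crest.Agent.Lib.SRFlow
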