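import Mathlib

/-!
# A Schwarz–Pick argument on the slit plane

If `A, B` are polynomials with nonnegative coefficients such that `u A(t) + B(t)` has no zeros with
`u, t` in the open upper half plane, then `t ↦ B(t)/A(t)` maps the slit plane to itself, so at the
point `1` its logarithmic derivative is at most one.
-/

set_option autoImplicit false
set_option linter.unusedSectionVars false
set_option linter.unusedSimpArgs false
set_option linter.unusedVariables false

namespace Crest.Agent.Lib.SRFlow

open Complex Metric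

variable {κ : Type*}

/-- A polynomial with coefficients `α` and exponents `n`, as a function on `ℂ`. -/
noncomputable def mono (s : Finset κ) (α : κ → ℝ) (n : κ → ℕ) (t : ℂ) : ℂ :=
  ∑ k ∈ s, (α k : ℂ) * t ^ n k

/-- Formal derivative of `mono`. -/
noncomputable def mono' (s : Finset κ) (α : κ → ℝ) (n : κ → ℕ) (t : ℂ) : ℂ :=
  ∑ k ∈ s, (α k : ℂ) * ((n k : ℂ) * t ^ (n k - 1))

lemma hasDerivAt_mono (s : Finset κ) (α : κ → ℝ) (n : κ → ℕ) (t : ℂ) :
    HasDerivAt (mono s α n) (mono' s α n t) t := by
  unfold mono mono'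
  refine HasDerivAt.fun_sum fun k _ => ?_
  exact (hasDerivAt_pow (n k) t).const_mul _

lemma differentiable_mono (s : Finset κ) (α : κ → ℝ) (n : κ → ℕ) :
    Differentiable ℂ (mono s α n) := fun t => (hasDerivAt_mono s α n t).differentiableAt

lemma mono_conj (s : Finset κ) (α : κ → ℝ) (n : κ → ℕ) (t : ℂ) :
    (starRingEnd ℂ) (mono s α n t) = mono s α n ((starRingEnd ℂ) t) := by
  simp [mono, map_sum, map_mul, map_pow]

lemma mono_ofReal (s : Finset κ) (α : κ → ℝ) (n : κ → ℕ) (x : ℝ) :
    mono s α n (x : ℂ) = ((∑ k ∈ s, α k * x ^ n k : ℝ) : ℂ) := by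
  simp [mono]

lemma mono_one (s : Finset κ) (α : κ → ℝ) (n : κ → ℕ) :
    mono s α n 1 = ((∑ k ∈ s, α k : ℝ) : ℂ) := by
  simp [mono]

lemma mono'_one (s : Finset κ) (α : κ → ℝ) (n : κ → ℕ) :
    mono' s α n 1 = ((∑ k ∈ s, α k * n k : ℝ) : ℂ) := by
  simp [mono']

lemma mono_pos_of_pos {s : Finset κ} {α : κ → ℝ} (n : κ → ℕ) (hα : ∀ k ∈ s, 0 ≤ α k)
    (hA : 0 < ∑ k ∈ s, α k) {x : ℝ} (hx : 0 < x) : 0 < ∑ k ∈ s, α k * x ^ n k := by
  obtain ⟨k, hk, hk'⟩ : ∃ k ∈ s, 0 < α k := by
    by_contra hcon
    push Not at hcon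
    have : ∑ k ∈ s, α k ≤ 0 := Finset.sum_nonpos hcon
    linarith
  refine Finset.sum_pos' (fun j hj => mul_nonneg (hα j hj) (pow_pos hx _).le) ⟨k, hk, ?_⟩
  exact mul_pos hk' (pow_pos hx _)

/-- The upper half plane. -/
def upperH : Set ℂ := {z | 0 < z.im}

lemma isOpen_upperH : IsOpen upperH := isOpen_lt continuous_const continuous_im

lemma convex_upperH : Convex ℝ upperH := convex_halfSpace_im_gt 0

lemma isPreconnected_upperH : IsPreconnected upperH := convex_upperH.isPreconnected

section core

variable {s : Finset κ} {α β : κ → ℝ} {n : κ → ℕ}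

/-- The Cayley transform of `B/A`. -/
noncomputable def cay (s : Finset κ) (α β : κ → ℝ) (n : κ → ℕ) (t : ℂ) : ℂ :=
  (mono s β n t - I * mono s α n t) / (mono s β n t + I * mono s α n t)

lemma im_div_nonneg_of_stable
    (hst : ∀ u t : ℂ, 0 < u.im → 0 < t.im → u * mono s α n t + mono s β n t ≠ 0)
    {t : ℂ} (ht : 0 < t.im) (hA : mono s α n t ≠ 0) :
    0 ≤ (mono s β n t / mono s α n t).im := by
  by_contra hcon
  push Not at hcon
  apply hst (-(mono s β n t / mono s α n t)) t (by simpa using hcon) ht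
  field_simp
  ring

lemma denom_ne_zero
    (hst : ∀ u t : ℂ, 0 < u.im → 0 < t.im → u * mono s α n t + mono s β n t ≠ 0)
    {t : ℂ} (ht : 0 < t.im) : mono s β n t + I * mono s α n t ≠ 0 := by
  have := hst I t (by simp) ht
  rwa [add_comm] at this

lemma differentiableOn_cay
    (hst : ∀ u t : ℂ, 0 < u.im → 0 < t.im → u * mono s α n t + mono s β n t ≠ 0) :
    DifferentiableOn ℂ (cay s α β n) upperH := by
  intro t ht
  unfold cay
  refine DifferentiableAt.differentiableWithinAt ?_
  refine DifferentiableAt.div ?_ ?_ (denom_ne_zero hst ht)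
  · exact ((differentiable_mono s β n) t).sub (((differentiable_mono s α n) t).const_mul _)
  · exact ((differentiable_mono s β n) t).add (((differentiable_mono s α n) t).const_mul _)

lemma norm_sub_le_norm_add_of_im_nonneg {R : ℂ} (hR : 0 ≤ R.im) : ‖R - I‖ ≤ ‖R + I‖ := by
  rw [← sq_le_sq₀ (norm_nonneg _) (norm_nonneg _), ← normSq_eq_norm_sq, ← normSq_eq_norm_sq]
  simp only [normSq_apply, sub_re, I_re, sub_im, I_im, add_re, add_im]
  nlinarith

lemma norm_sub_lt_norm_add_of_im_pos {R : ℂ} (hR : 0 < R.im) : ‖R - I‖ < ‖R + I‖ := by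
  rw [← sq_lt_sq₀ (norm_nonneg _) (norm_nonneg _), ← normSq_eq_norm_sq, ← normSq_eq_norm_sq]
  simp only [normSq_apply, sub_re, I_re, sub_im, I_im, add_re, add_im]
  nlinarith

lemma im_pos_of_norm_sub_lt {R : ℂ} (h : ‖R - I‖ < ‖R + I‖) : 0 < R.im := by
  rw [← sq_lt_sq₀ (norm_nonneg _) (norm_nonneg _), ← normSq_eq_norm_sq, ← normSq_eq_norm_sq] at h
  simp only [normSq_apply, sub_re, I_re, sub_im, I_im, add_re, add_im] at h
  nlinarith

lemma div_add_I_ne {A B : ℂ} (hA : A ≠ 0) (h : B + I * A ≠ 0) : B / A + I ≠ 0 := by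
  have : B / A + I = (B + I * A) / A := by field_simp
  rw [this]
  exact div_ne_zero h hA

lemma cay_eq_of_ne {t : ℂ} (hA : mono s α n t ≠ 0) :
    cay s α β n t = (mono s β n t / mono s α n t - I) / (mono s β n t / mono s α n t + I) := by
  unfold cay
  have h1 : mono s β n t / mono s α n t - I = (mono s β n t - I * mono s α n t) / mono s α n t := by
    field_simp
  have h2 : mono s β n t / mono s α n t + I = (mono s β n t + I * mono s α n t) / mono s α n t := by
    field_simp
  rw [h1, h2, div_div_div_cancel_right₀ hA]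

lemma norm_cay_le
    (hst : ∀ u t : ℂ, 0 < u.im → 0 < t.im → u * mono s α n t + mono s β n t ≠ 0)
    {t : ℂ} (ht : 0 < t.im) : ‖cay s α β n t‖ ≤ 1 := by
  have hd := denom_ne_zero hst ht
  by_cases hA : mono s α n t = 0
  · have hB : mono s β n t ≠ 0 := by simpa [hA] using hd
    unfold cay
    rw [hA]
    simp [hB]
  · rw [cay_eq_of_ne hA, norm_div]
    have hne : mono s β n t / mono s α n t + I ≠ 0 := div_add_I_ne hA hd
    exact div_le_one_of_le₀ (norm_sub_le_norm_add_of_im_nonneg (im_div_nonneg_of_stable hst ht hA))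
      (norm_nonneg _)

/-- The dichotomy: either `B = ρ A` identically, or `B/A` maps the upper half plane to itself. -/
lemma stable_dichotomy (hα : ∀ k ∈ s, 0 ≤ α k) (hβ : ∀ k ∈ s, 0 ≤ β k)
    (hA1 : 0 < ∑ k ∈ s, α k) (hB1 : 0 < ∑ k ∈ s, β k)
    (hst : ∀ u t : ℂ, 0 < u.im → 0 < t.im → u * mono s α n t + mono s β n t ≠ 0) :
    (∃ ρ : ℂ, ∀ t, mono s β n t = ρ * mono s α n t) ∨
      ∀ t : ℂ, 0 < t.im → mono s α n t ≠ 0 ∧ 0 < (mono s β n t / mono s α n t).im := by
  by_cases h : ∃ t₀ : ℂ, 0 < t₀.im ∧ ‖cay s α β n t₀‖ = 1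
  · left
    obtain ⟨t₀, ht₀, hmax⟩ := h
    have hm : IsMaxOn (norm ∘ cay s α β n) upperH t₀ := by
      intro t ht
      simp only [Set.mem_setOf_eq, Function.comp]
      rw [hmax]
      exact norm_cay_le hst ht
    have hconst := Complex.eqOn_of_isPreconnected_of_isMaxOn_norm isPreconnected_upperH
      isOpen_upperH (differentiableOn_cay hst) ht₀ hm
    set κ' : ℂ := cay s α β n t₀ with hκ
    -- the polynomial identity
    let D : ℂ → ℂ := fun t => (1 - κ') * mono s β n t - I * (1 + κ') * mono s α n t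
    have hDdiff : Differentiable ℂ D := by
      intro t
      exact ((differentiable_mono s β n t).const_mul _).sub
        ((differentiable_mono s α n t).const_mul _)
    have hDan : AnalyticOnNhd ℂ D Set.univ := hDdiff.differentiableOn.analyticOnNhd isOpen_univ
    have hDzero : ∀ t ∈ upperH, D t = 0 := by
      intro t ht
      have h1 : cay s α β n t = κ' := hconst ht
      have hd := denom_ne_zero hst ht
      unfold cay at h1
      rw [div_eq_iff hd] at h1
      simp only [D]
      linear_combination h1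
    have hDev : D =ᶠ[nhds t₀] 0 := by
      filter_upwards [isOpen_upperH.mem_nhds ht₀] with t ht
      exact hDzero t ht
    have hDall : Set.EqOn D 0 Set.univ :=
      hDan.eqOn_zero_of_preconnected_of_eventuallyEq_zero isPreconnected_univ (Set.mem_univ _) hDev
    have hD1 := hDall (Set.mem_univ (1 : ℂ))
    simp only [D, mono_one, Pi.zero_apply] at hD1
    have hκ1 : 1 - κ' ≠ 0 := by
      intro h0
      have hκ' : κ' = 1 := by linear_combination -h0
      rw [h0, hκ'] at hD1
      have : ((∑ k ∈ s, α k : ℝ) : ℂ) = 0 := by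
        have h2 : I * (1 + 1) * ((∑ k ∈ s, α k : ℝ) : ℂ) = 0 := by
          simpa using hD1
        have h3 : I * (1 + 1) ≠ 0 := by
          simp [I_ne_zero]
        exact (mul_eq_zero.mp h2).resolve_left h3
      have h4 : (∑ k ∈ s, α k : ℝ) = 0 := by exact_mod_cast this
      linarith
    refine ⟨I * (1 + κ') / (1 - κ'), fun t => ?_⟩
    have := hDall (Set.mem_univ t)
    simp only [D, Pi.zero_apply] at this
    field_simp
    linear_combination this
  · right
    push Not at h
    intro t ht
    have hlt : ‖cay s α β n t‖ < 1 := lt_of_le_of_ne (norm_cay_le hst ht) (h t ht)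
    have hd := denom_ne_zero hst ht
    have hAne : mono s α n t ≠ 0 := by
      intro hA
      have hB : mono s β n t ≠ 0 := by simpa [hA] using hd
      apply ne_of_lt hlt
      unfold cay
      rw [hA]
      simp [hB]
    refine ⟨hAne, ?_⟩
    rw [cay_eq_of_ne hAne, norm_div] at hlt
    have hne : mono s β n t / mono s α n t + I ≠ 0 := div_add_I_ne hAne hd
    have hnpos : 0 < ‖mono s β n t / mono s α n t + I‖ := norm_pos_iff.mpr hne
    rw [div_lt_one hnpos] at hlt
    exact im_pos_of_norm_sub_lt hlt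

/-- `v ↦ v^2` maps the right half plane to the slit plane. -/
lemma sq_mem_slitPlane {v : ℂ} (hv : 0 < v.re) : v ^ 2 ∈ slitPlane := by
  rw [mem_slitPlane_iff]
  by_cases him : v.im = 0
  · left
    simp only [sq, mul_re, him]
    nlinarith
  · right
    simp only [sq, mul_im]
    have : v.re * v.im + v.im * v.re = 2 * (v.re * v.im) := by ring
    rw [this]
    exact mul_ne_zero two_ne_zero (mul_ne_zero hv.ne' him)

/-- The half-angle exponential has positive real part on the slit plane. -/
lemma re_exp_half_log_pos {z : ℂ} (hz : z ∈ slitPlane) : 0 < (exp (log z / 2)).re := by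
  rw [exp_re]
  refine mul_pos (Real.exp_pos _) (Real.cos_pos_of_mem_Ioo ?_)
  have h1 : (log z / 2).im = arg z / 2 := by
    have : log z / 2 = log z * ((2 : ℝ) : ℂ)⁻¹ := by
      rw [div_eq_mul_inv]; norm_num
    rw [this, ← ofReal_inv, im_mul_ofReal, log_im]
    ring
  rw [h1]
  have h2 := neg_pi_lt_arg z
  have h3 : arg z < Real.pi := lt_of_le_of_ne (arg_le_pi z) (mem_slitPlane_iff_arg.mp hz).1
  constructor <;> linarith

/-- The Möbius map of the disc to the right half plane. -/
noncomputable def mob (w : ℂ) : ℂ := (1 + w) / (1 - w)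

lemma one_sub_ne {w : ℂ} (hw : ‖w‖ < 1) : 1 - w ≠ 0 := by
  intro h
  have : w = 1 := by linear_combination -h
  rw [this] at hw
  simp at hw

lemma mob_re_pos {w : ℂ} (hw : ‖w‖ < 1) : 0 < (mob w).re := by
  have hne := one_sub_ne hw
  unfold mob
  rw [div_re]
  have hpos : 0 < normSq (1 - w) := normSq_pos.mpr hne
  have hnorm : w.re * w.re + w.im * w.im < 1 := by
    have := pow_lt_one₀ (norm_nonneg w) hw two_ne_zero
    rwa [← normSq_eq_norm_sq, normSq_apply] at this
  have : (1 + w).re * (1 - w).re / normSq (1 - w) + (1 + w).im * (1 - w).im / normSq (1 - w)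
      = (1 - (w.re * w.re + w.im * w.im)) / normSq (1 - w) := by
    simp only [add_re, one_re, sub_re, add_im, one_im, sub_im]
    field_simp
    ring
  rw [this]
  exact div_pos (by linarith) hpos

/-- **The key inequality**: `t R'(t) ≤ R(t)` at `t = 1` for `R = B/A`. -/
theorem schwarz_core (hα : ∀ k ∈ s, 0 ≤ α k) (hβ : ∀ k ∈ s, 0 ≤ β k)
    (hA1 : 0 < ∑ k ∈ s, α k) (hB1 : 0 < ∑ k ∈ s, β k)
    (hst : ∀ u t : ℂ, 0 < u.im → 0 < t.im → u * mono s α n t + mono s β n t ≠ 0) :
    (∑ k ∈ s, β k * n k) * (∑ k ∈ s, α k) - (∑ k ∈ s, α k * n k) * (∑ k ∈ s, β k)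
      ≤ (∑ k ∈ s, α k) * (∑ k ∈ s, β k) := by
  set a : ℝ := ∑ k ∈ s, α k with ha
  set b : ℝ := ∑ k ∈ s, β k with hb
  set a' : ℝ := ∑ k ∈ s, α k * n k with ha'
  set b' : ℝ := ∑ k ∈ s, β k * n k with hb'
  have hA1c : mono s α n 1 = (a : ℂ) := mono_one s α n
  have hB1c : mono s β n 1 = (b : ℂ) := mono_one s β n
  have hA'1c : mono' s α n 1 = (a' : ℂ) := mono'_one s α n
  have hB'1c : mono' s β n 1 = (b' : ℂ) := mono'_one s β n
  have hac : (a : ℂ) ≠ 0 := by exact_mod_cast hA1.ne'
  have hbc : (b : ℂ) ≠ 0 := by exact_mod_cast hB1.ne'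
  rcases stable_dichotomy hα hβ hA1 hB1 hst with ⟨ρ, hρ⟩ | hopen
  · -- constant ratio
    have hder : HasDerivAt (mono s β n) (ρ * mono' s α n 1) 1 := by
      have h1 : mono s β n = fun t => ρ * mono s α n t := funext hρ
      rw [h1]
      exact (hasDerivAt_mono s α n 1).const_mul ρ
    have h2 := hder.unique (hasDerivAt_mono s β n 1)
    rw [hA'1c, hB'1c] at h2
    have h3 := hρ 1
    rw [hA1c, hB1c] at h3
    have h4 : ((b' * a - a' * b : ℝ) : ℂ) = 0 := by
      push_cast
      rw [← h2, h3]
      ring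
    have h5 : b' * a - a' * b = 0 := by exact_mod_cast h4
    rw [h5]
    positivity
  · -- the Schwarz argument
    have hApos : ∀ x : ℝ, 0 < x → mono s α n (x : ℂ) ≠ 0 := by
      intro x hx
      rw [mono_ofReal]
      exact_mod_cast (mono_pos_of_pos n hα hA1 hx).ne'
    have hAne : ∀ t ∈ slitPlane, mono s α n t ≠ 0 := by
      intro t ht
      rcases lt_trichotomy t.im 0 with him | him | him
      · intro h0
        have h1 : 0 < ((starRingEnd ℂ) t).im := by simpa using him
        apply (hopen _ h1).1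
        rw [← mono_conj, h0, map_zero]
      · have hre : 0 < t.re := by
          rcases mem_slitPlane_iff.mp ht with h | h
          · exact h
          · exact absurd him h
        have : t = (t.re : ℂ) := by
          apply Complex.ext <;> simp [him]
        rw [this]
        exact hApos _ hre
      · exact (hopen t him).1
    have hRslit : ∀ t ∈ slitPlane, mono s β n t / mono s α n t ∈ slitPlane := by
      intro t ht
      rw [mem_slitPlane_iff]
      rcases lt_trichotomy t.im 0 with him | him | him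
      · right
        have h1 : 0 < ((starRingEnd ℂ) t).im := by simpa using him
        have h2 := (hopen _ h1).2
        rw [← mono_conj, ← mono_conj, ← map_div₀, conj_im] at h2
        intro h0
        rw [h0] at h2
        simp at h2
      · left
        have hre : 0 < t.re := by
          rcases mem_slitPlane_iff.mp ht with h | h
          · exact h
          · exact absurd him h
        have : t = (t.re : ℂ) := by
          apply Complex.ext <;> simp [him]
        rw [this, mono_ofReal, mono_ofReal, ← ofReal_div, ofReal_re]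
        exact div_pos (mono_pos_of_pos n hβ hB1 hre) (mono_pos_of_pos n hα hA1 hre)
      · right
        exact ((hopen t him).2).ne'
    -- the composite
    let R : ℂ → ℂ := fun t => mono s β n t / mono s α n t
    let τ' : ℂ → ℂ := fun w => mob w ^ 2
    let y : ℂ → ℂ := fun w => exp (log (R (τ' w)) / 2)
    have hτ'mem : ∀ w : ℂ, ‖w‖ < 1 → τ' w ∈ slitPlane := fun w hw => sq_mem_slitPlane (mob_re_pos hw)
    have hzmem : ∀ w : ℂ, ‖w‖ < 1 → R (τ' w) ∈ slitPlane := fun w hw => hRslit _ (hτ'mem w hw)
    have hyre : ∀ w : ℂ, ‖w‖ < 1 → 0 < (y w).re := fun w hw => re_exp_half_log_pos (hzmem w hw)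
    have hmob0 : mob 0 = 1 := by simp [mob]
    have hτ0 : τ' 0 = 1 := by simp [τ', hmob0]
    have hR1 : R 1 = ((b / a : ℝ) : ℂ) := by
      simp only [R, hA1c, hB1c]
      push_cast
      rfl
    have hρpos : 0 < b / a := div_pos hB1 hA1
    set g : ℝ := Real.exp (Real.log (b / a) / 2) with hg
    have hgpos : 0 < g := Real.exp_pos _
    have hy0 : y 0 = (g : ℂ) := by
      simp only [y, hτ0, hR1]
      rw [← ofReal_log hρpos.le]
      rw [hg, ofReal_exp]
      congr 1
      push_cast
      rfl
    let H : ℂ → ℂ := fun w => (y w - (g : ℂ)) / (y w + (g : ℂ))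
    have hdenom : ∀ w : ℂ, ‖w‖ < 1 → y w + (g : ℂ) ≠ 0 := by
      intro w hw h0
      have := congrArg Complex.re h0
      simp only [add_re, ofReal_re, zero_re] at this
      linarith [hyre w hw]
    have hmobdiff : ∀ w : ℂ, ‖w‖ < 1 → HasDerivAt mob (2 / (1 - w) ^ 2) w := by
      intro w hw
      have hne := one_sub_ne hw
      have h1 : HasDerivAt (fun w : ℂ => 1 + w) 1 w := (hasDerivAt_id w).const_add 1
      have h2 : HasDerivAt (fun w : ℂ => 1 - w) (-1) w := (hasDerivAt_id w).const_sub 1
      have h3 := h1.div h2 hne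
      refine h3.congr_deriv ?_
      field_simp
      ring
    have hτ'diff : ∀ w : ℂ, ‖w‖ < 1 →
        HasDerivAt τ' (((2 : ℕ) : ℂ) * mob w ^ (2 - 1) * (2 / (1 - w) ^ 2)) w := by
      intro w hw
      exact (hmobdiff w hw).pow 2
    have hRdiff : ∀ t ∈ slitPlane, HasDerivAt R
        ((mono' s β n t * mono s α n t - mono s β n t * mono' s α n t) / mono s α n t ^ 2) t := by
      intro t ht
      exact (hasDerivAt_mono s β n t).div (hasDerivAt_mono s α n t) (hAne t ht)
    have hydiff : ∀ w : ℂ, ‖w‖ < 1 → HasDerivAt y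
        (exp (log (R (τ' w)) / 2) *
          ((((mono' s β n (τ' w) * mono s α n (τ' w) - mono s β n (τ' w) * mono' s α n (τ' w)) /
              mono s α n (τ' w) ^ 2) *
              (((2 : ℕ) : ℂ) * mob w ^ (2 - 1) * (2 / (1 - w) ^ 2))) / R (τ' w) / 2)) w := by
      intro w hw
      have h1 : HasDerivAt (fun w => R (τ' w)) _ w :=
        (hRdiff _ (hτ'mem w hw)).comp w (hτ'diff w hw)
      have h2 := h1.clog (hzmem w hw)
      have h3 := (h2.div_const 2).cexp
      refine h3.congr_deriv ?_
      ring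
    have hHdiff : ∀ w : ℂ, ‖w‖ < 1 → DifferentiableAt ℂ H w := by
      intro w hw
      exact (((hydiff w hw).sub_const _).div ((hydiff w hw).add_const _) (hdenom w hw)).differentiableAt
    have hHmaps : Set.MapsTo H (ball 0 1) (closedBall (H 0) 1) := by
      intro w hw
      have hw' : ‖w‖ < 1 := by simpa using hw
      have hH0 : H 0 = 0 := by simp [H, hy0]
      rw [hH0]
      simp only [mem_closedBall, dist_zero_right]
      simp only [H]
      rw [norm_div]
      refine div_le_one_of_le₀ ?_ (norm_nonneg _)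
      have hre := hyre w hw'
      rw [← sq_le_sq₀ (norm_nonneg _) (norm_nonneg _), ← normSq_eq_norm_sq, ← normSq_eq_norm_sq]
      simp only [normSq_apply, sub_re, ofReal_re, sub_im, ofReal_im, add_re, add_im, sub_zero,
        add_zero]
      nlinarith [mul_pos hre hgpos]
    have hHd : DifferentiableOn ℂ H (ball 0 1) := by
      intro w hw
      exact (hHdiff w (by simpa using hw)).differentiableWithinAt
    have hschwarz := Complex.norm_deriv_le_div_of_mapsTo_ball hHd hHmaps one_pos
    -- compute the derivative at zero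
    have h0lt : ‖(0 : ℂ)‖ < 1 := by simp
    have hHder : HasDerivAt H ((((b' * a - b * a') / a ^ 2 / (b / a) : ℝ)) : ℂ) 0 := by
      have h1 := ((hydiff 0 h0lt).sub_const (g : ℂ)).div ((hydiff 0 h0lt).add_const (g : ℂ))
        (hdenom 0 h0lt)
      refine h1.congr_deriv ?_
      have hgc : (g : ℂ) ≠ 0 := by exact_mod_cast hgpos.ne'
      have hRne : ((b / a : ℝ) : ℂ) ≠ 0 := by exact_mod_cast hρpos.ne'
      simp only [hτ0, hR1, hA1c, hB1c, hA'1c, hB'1c, hmob0, hy0]
      have he : exp (log ((b / a : ℝ) : ℂ) / 2) = (g : ℂ) := by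
        rw [← hy0]; simp only [y, hτ0, hR1]
      rw [he]
      push_cast
      field_simp
      ring
    rw [hHder.deriv, Complex.norm_real, Real.norm_eq_abs] at hschwarz
    have h1 := (le_abs_self _).trans hschwarz
    have h2 : (b' * a - b * a') / a ^ 2 / (b / a) ≤ 1 := by simpa using h1
    have h3 : (b' * a - b * a') / a ^ 2 / (b / a) = (b' * a - b * a') / (a * b) := by
      field_simp
    rw [h3, div_le_one (mul_pos hA1 hB1)] at h2
    linarith

end core

end Crest.Agent.Lib.SRFlow
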