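import Crest.Agent.Lib.SRFlow.Flow

/-!
# Shifts of the standard Gaussian measure on a finite product
-/

set_option autoImplicit false
set_option linter.unusedSectionVars false
set_option linter.unusedSimpArgs false
set_option linter.unusedVariables false

namespace Crest.Agent.Lib.SRFlow

open Finset MeasureTheory Set ProbabilityTheory
open scoped ENNReal

variable {ι : Type*} [Fintype ι] [DecidableEq ι]

/-- The standard Gaussian measure on `ι → ℝ`. -/
noncomputable def gam (ι : Type*) [Fintype ι] : Measure (ι → ℝ) :=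
  Measure.pi fun _ => gaussianReal 0 1

instance gam_isProb : IsProbabilityMeasure (gam ι) := by
  unfold gam; infer_instance

/-- The density of `N(a,1)` with respect to `N(0,1)`. -/
noncomputable def rho (a x : ℝ) : ℝ := Real.exp (a * x - a ^ 2 / 2)

lemma rho_pos (a x : ℝ) : 0 < rho a x := Real.exp_pos _

lemma measurable_rho (a : ℝ) : Measurable (rho a) := by
  unfold rho; fun_prop

lemma gaussianReal_eq_withDensity (a : ℝ) :
    gaussianReal a 1 = (gaussianReal 0 1).withDensity (fun x => ENNReal.ofReal (rho a x)) := by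
  rw [gaussianReal_of_var_ne_zero _ one_ne_zero, gaussianReal_of_var_ne_zero _ one_ne_zero,
    ← withDensity_mul _ (measurable_gaussianPDF _ _) (by exact (measurable_rho a).ennreal_ofReal)]
  congr 1
  funext x
  simp only [Pi.mul_apply, gaussianPDF_def, gaussianPDFReal_def]
  rw [← ENNReal.ofReal_mul (by positivity)]
  congr 1
  rw [rho, mul_assoc (_⁻¹ : ℝ) (Real.exp _) (Real.exp _), ← Real.exp_add]
  congr 2
  simp only [NNReal.coe_one]
  ring

lemma lintegral_rho_indicator (a : ℝ) {s : Set ℝ} (hs : MeasurableSet s) :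
    ∫⁻ x in s, ENNReal.ofReal (rho a x) ∂(gaussianReal 0 1) = gaussianReal a 1 s := by
  rw [gaussianReal_eq_withDensity a, withDensity_apply _ hs]

lemma integrable_rho (a : ℝ) : Integrable (rho a) (gaussianReal 0 1) := by
  refine ⟨(measurable_rho a).aestronglyMeasurable, ?_⟩
  rw [hasFiniteIntegral_iff_ofReal (Filter.Eventually.of_forall fun x => (rho_pos a x).le)]
  have := lintegral_rho_indicator a MeasurableSet.univ
  rw [Measure.restrict_univ] at this
  rw [this]
  simp

lemma integral_indicator_rho (a : ℝ) {s : Set ℝ} (hs : MeasurableSet s) :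
    ENNReal.ofReal (∫ x, s.indicator (rho a) x ∂(gaussianReal 0 1)) = gaussianReal a 1 s := by
  rw [integral_indicator hs,
    ofReal_integral_eq_lintegral_ofReal (integrable_rho a).integrableOn
      (Filter.Eventually.of_forall fun x => (rho_pos a x).le)]
  exact lintegral_rho_indicator a hs

lemma gam_map_shift (a : ι → ℝ) :
    (gam ι).map (fun y i => a i + y i) = Measure.pi fun i => gaussianReal (a i) 1 := by
  unfold gam
  have hm : ∀ i : ι, AEMeasurable (fun x : ℝ => a i + x) (gaussianReal 0 1) := fun i => by fun_prop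
  rw [Measure.pi_map_pi hm]
  congr 1
  funext i
  rw [gaussianReal_map_const_add]
  simp

/-- The Cameron–Martin density. -/
noncomputable def rhoV (a z : ι → ℝ) : ℝ := ∏ i, rho (a i) (z i)

lemma rhoV_pos (a z : ι → ℝ) : 0 < rhoV a z := Finset.prod_pos fun i _ => rho_pos _ _

lemma measurable_rhoV (a : ι → ℝ) : Measurable (rhoV a : (ι → ℝ) → ℝ) := by
  unfold rhoV
  refine Finset.measurable_prod _ fun i _ => ?_
  exact (measurable_rho (a i)).comp (measurable_pi_apply i)

lemma integrable_rhoV (a : ι → ℝ) : Integrable (rhoV a) (gam ι) := by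
  unfold gam rhoV
  exact Integrable.fintype_prod (fun i => integrable_rho (a i))

/-- The Cameron–Martin theorem on a finite product. -/
theorem gam_map_shift_eq (a : ι → ℝ) :
    (gam ι).map (fun y i => a i + y i) =
      (gam ι).withDensity fun z => ENNReal.ofReal (rhoV a z) := by
  rw [gam_map_shift]
  refine Measure.pi_eq fun s hs => ?_
  have hbox : MeasurableSet (Set.pi univ s) := MeasurableSet.univ_pi hs
  rw [withDensity_apply _ hbox]
  have hind : ∀ z : ι → ℝ, (Set.pi univ s).indicator (rhoV a) z
      = ∏ i, (s i).indicator (rho (a i)) (z i) := by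
    intro z
    classical
    by_cases hz : z ∈ Set.pi univ s
    · rw [Set.indicator_of_mem hz]
      refine Finset.prod_congr rfl fun i _ => ?_
      rw [Set.indicator_of_mem (hz i (Set.mem_univ i))]
    · rw [Set.indicator_of_notMem hz]
      simp only [Set.mem_pi, Set.mem_univ, true_implies, not_forall] at hz
      obtain ⟨i, hi⟩ := hz
      symm
      refine Finset.prod_eq_zero (Finset.mem_univ i) ?_
      rw [Set.indicator_of_notMem hi]
  have h1 : ∫⁻ z in Set.pi univ s, ENNReal.ofReal (rhoV a z) ∂(gam ι)
      = ENNReal.ofReal (∫ z, (Set.pi univ s).indicator (rhoV a) z ∂(gam ι)) := by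
    rw [integral_indicator hbox,
      ofReal_integral_eq_lintegral_ofReal (integrable_rhoV a).integrableOn
        (Filter.Eventually.of_forall fun z => (rhoV_pos a z).le)]
  rw [h1]
  simp_rw [hind]
  unfold gam
  rw [integral_fintype_prod_eq_prod (𝕜 := ℝ) (fun i x => (s i).indicator (rho (a i)) x),
    ENNReal.ofReal_prod_of_nonneg]
  · refine Finset.prod_congr rfl fun i _ => ?_
    exact integral_indicator_rho (a i) (hs i)
  · intro i _
    refine integral_nonneg fun x => ?_
    exact Set.indicator_nonneg (fun x _ => (rho_pos _ _).le) x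

/-- The integral form of Cameron–Martin. -/
theorem integral_shift {F : (ι → ℝ) → ℝ} (hF : Measurable F) (a : ι → ℝ) :
    ∫ y, F (fun i => a i + y i) ∂(gam ι) = ∫ z, F z * rhoV a z ∂(gam ι) := by
  have hm : Measurable (fun y : ι → ℝ => fun i => a i + y i) := by fun_prop
  have h1 : ∫ y, F (fun i => a i + y i) ∂(gam ι)
      = ∫ z, F z ∂((gam ι).map (fun y i => a i + y i)) := by
    rw [integral_map hm.aemeasurable hF.aestronglyMeasurable]
  rw [h1, gam_map_shift_eq, integral_withDensity_eq_integral_toReal_smul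
    ((measurable_rhoV a).ennreal_ofReal)
    (Filter.Eventually.of_forall fun z => ENNReal.ofReal_lt_top)]
  refine integral_congr_ae (Filter.Eventually.of_forall fun z => ?_)
  simp only [smul_eq_mul]
  rw [ENNReal.toReal_ofReal (rhoV_pos a z).le, mul_comm]

/-- Integrability transfer in Cameron–Martin. -/
theorem integrable_mul_rhoV {F : (ι → ℝ) → ℝ} (hF : Measurable F) (a : ι → ℝ)
    (hi : Integrable (fun y => F (fun i => a i + y i)) (gam ι)) :
    Integrable (fun z => F z * rhoV a z) (gam ι) := by
  have hm : Measurable (fun y : ι → ℝ => fun i => a i + y i) := by fun_prop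
  have h1 : Integrable F ((gam ι).map (fun y i => a i + y i)) :=
    (integrable_map_measure hF.aestronglyMeasurable hm.aemeasurable).mpr hi
  rw [gam_map_shift_eq] at h1
  have h2 := (integrable_withDensity_iff_integrable_smul₀'
    ((measurable_rhoV a).ennreal_ofReal.aemeasurable)
    (Filter.Eventually.of_forall fun z => ENNReal.ofReal_lt_top)).mp h1
  refine h2.congr (Filter.Eventually.of_forall fun z => ?_)
  simp only [smul_eq_mul]
  rw [ENNReal.toReal_ofReal (rhoV_pos a z).le, mul_comm]

/-! ### The mixture and the posterior identity -/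

/-- The position `τ 1_S + y`. -/
noncomputable def shiftV (τ : ℝ) (S : Finset ι) (y : ι → ℝ) : ι → ℝ :=
  fun i => (if i ∈ S then τ else 0) + y i

lemma measurable_shiftV (τ : ℝ) (S : Finset ι) : Measurable (shiftV τ S) := by
  unfold shiftV; fun_prop

lemma continuous_shiftV_prod (S : Finset ι) :
    Continuous fun p : ℝ × (ι → ℝ) => shiftV p.1 S p.2 := by
  unfold shiftV
  refine continuous_pi fun i => ?_
  by_cases h : i ∈ S <;> simp [h] <;> fun_prop

lemma rhoV_shift (τ : ℝ) (S : Finset ι) (z : ι → ℝ) :
    rhoV (fun i => if i ∈ S then τ else 0) z = Real.exp (∑ i ∈ S, tilt τ z i) := by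
  unfold rhoV
  rw [Real.exp_sum]
  have : ∀ i, rho (if i ∈ S then τ else 0) (z i) = if i ∈ S then Real.exp (tilt τ z i) else 1 := by
    intro i
    by_cases h : i ∈ S <;> simp [h, rho, tilt]
  simp_rw [this]
  rw [Finset.prod_ite_mem]
  simp

/-- Mixture expectation. -/
noncomputable def Mix (c : Finset ι → ℝ) (τ : ℝ) (f : (ι → ℝ) → ℝ) : ℝ :=
  ∑ S : Finset ι, c S * ∫ y, f (shiftV τ S y) ∂(gam ι)

/-- Cameron–Martin for `shiftV`. -/
lemma integral_shiftV {F : (ι → ℝ) → ℝ} (hF : Measurable F) (τ : ℝ) (S : Finset ι) :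
    ∫ y, F (shiftV τ S y) ∂(gam ι) = ∫ z, F z * Real.exp (∑ i ∈ S, tilt τ z i) ∂(gam ι) := by
  have := integral_shift hF (fun i => if i ∈ S then τ else 0)
  simp only [rhoV_shift] at this
  exact this

lemma integrable_shiftV {F : (ι → ℝ) → ℝ} (hF : Measurable F) (τ : ℝ) (S : Finset ι)
    (hi : Integrable (fun y => F (shiftV τ S y)) (gam ι)) :
    Integrable (fun z => F z * Real.exp (∑ i ∈ S, tilt τ z i)) (gam ι) := by
  have := integrable_mul_rhoV hF (fun i => if i ∈ S then τ else 0) hi
  simp only [rhoV_shift] at this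
  exact this

/-- Bounded measurable functions are integrable against the Gaussian measure. -/
lemma integrable_of_bdd {α : Type*} [MeasurableSpace α] {μ : Measure α} [IsFiniteMeasure μ]
    {F : α → ℝ} (hF : Measurable F) {M : ℝ} (hM : ∀ z, |F z| ≤ M) : Integrable F μ :=
  Integrable.of_bound hF.aestronglyMeasurable M (Filter.Eventually.of_forall fun z => by
    simpa using hM z)

/-- The posterior identity: the indicator of `e ∈ S` can be replaced by the drift. -/
theorem posterior {c : Finset ι → ℝ} (hc : Adm c) (τ : ℝ) {f : (ι → ℝ) → ℝ} (hf : Measurable f)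
    {M : ℝ} (hM : ∀ z, |f z| ≤ M) (e : ι) :
    ∑ S : Finset ι, c S * ind e S * ∫ y, f (shiftV τ S y) ∂(gam ι)
      = ∑ S : Finset ι, c S * ∫ y, f (shiftV τ S y) * fld c τ (shiftV τ S y) e ∂(gam ι) := by
  have hmf : Measurable (fun z => fld c τ z e) := by
    have h1 : Measurable fun z : ι → ℝ => (c, z) := measurable_const.prodMk measurable_id
    exact (measurable_pi_apply e).comp ((measurable_fld τ).comp h1)
  have hM0 : 0 ≤ M := (abs_nonneg _).trans (hM 0)
  have hfb : ∀ z, |f z * fld c τ z e| ≤ M := by
    intro z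
    rw [abs_mul, abs_of_nonneg (fld_nonneg hc τ z e)]
    have := fld_le_one hc τ z e
    have h3 := fld_nonneg hc τ z e
    calc |f z| * fld c τ z e ≤ M * 1 :=
          mul_le_mul (hM z) this h3 hM0
      _ = M := mul_one _
  have hF1 : Measurable (fun z => f z * fld c τ z e) := hf.mul hmf
  have hi1 : ∀ S : Finset ι, Integrable (fun z => f z * Real.exp (∑ i ∈ S, tilt τ z i)) (gam ι) := by
    intro S
    refine integrable_shiftV hf τ S ?_
    exact integrable_of_bdd (hf.comp (measurable_shiftV τ S)) (fun y => hM _)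
  have hi2 : ∀ S : Finset ι,
      Integrable (fun z => f z * fld c τ z e * Real.exp (∑ i ∈ S, tilt τ z i)) (gam ι) := by
    intro S
    refine integrable_shiftV hF1 τ S ?_
    exact integrable_of_bdd (hF1.comp (measurable_shiftV τ S)) (fun y => hfb _)
  have hL : ∑ S : Finset ι, c S * ind e S * ∫ y, f (shiftV τ S y) ∂(gam ι)
      = ∫ z, ∑ S : Finset ι, c S * ind e S * (f z * Real.exp (∑ i ∈ S, tilt τ z i)) ∂(gam ι) := by
    rw [integral_finset_sum _ fun S _ => (hi1 S).const_mul _]
    refine Finset.sum_congr rfl fun S _ => ?_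
    rw [integral_const_mul, integral_shiftV hf]
  have hR : ∑ S : Finset ι, c S * ∫ y, f (shiftV τ S y) * fld c τ (shiftV τ S y) e ∂(gam ι)
      = ∫ z, ∑ S : Finset ι, c S * (f z * fld c τ z e * Real.exp (∑ i ∈ S, tilt τ z i)) ∂(gam ι) := by
    rw [integral_finset_sum _ fun S _ => (hi2 S).const_mul _]
    refine Finset.sum_congr rfl fun S _ => ?_
    rw [integral_const_mul, integral_shiftV hF1]
  rw [hL, hR]
  refine integral_congr_ae (Filter.Eventually.of_forall fun z => ?_)
  have hZ := Zt_pos hc (tilt τ z)
  have h1 : fld c τ z e * Zt c (tilt τ z) = ∑ S : Finset ι, wt c (tilt τ z) S * ind e S := by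
    show Et c (tilt τ z) (ind e) * Zt c (tilt τ z) = _
    unfold Et
    field_simp
  have h2 : ∑ S : Finset ι, c S * (f z * fld c τ z e * Real.exp (∑ i ∈ S, tilt τ z i))
      = f z * (fld c τ z e * Zt c (tilt τ z)) := by
    unfold Zt
    rw [Finset.mul_sum, Finset.mul_sum]
    refine Finset.sum_congr rfl fun S _ => ?_
    unfold wt
    ring
  simp only [] at h2 ⊢
  rw [h2, h1, Finset.mul_sum]
  refine Finset.sum_congr rfl fun S _ => ?_
  unfold wt
  ring

end Crest.Agent.Lib.SRFlow
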