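import Crest.Agent.Lib.SRFlow.Basic
import Crest.Agent.Lib.SRFlow.Schwarz

/-!
# From stability of the generating polynomial to the dimension-free covariance bound
-/

set_option autoImplicit false
set_option linter.unusedSectionVars false
set_option linter.unusedSimpArgs false
set_option linter.unusedVariables false

namespace Crest.Agent.Lib.SRFlow

open Finset Complex

variable {ι : Type*} [Fintype ι] [DecidableEq ι]

/-- Stability (real-rootedness in several variables) of the generating polynomial. -/
def Stab (c : Finset ι → ℝ) : Prop :=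
  ∀ z : ι → ℂ, (∀ i, 0 < (z i).im) → ∑ S : Finset ι, (c S : ℂ) * ∏ i ∈ S, z i ≠ 0

/-! ### Splitting sums over subsets -/

lemma sum_split1 {M : Type*} [AddCommMonoid M] (e : ι) (F : Finset ι → M) :
    ∑ S : Finset ι, F S
      = ∑ T ∈ (univ.erase e).powerset, (F T + F (insert e T)) := by
  have h1 : (univ : Finset (Finset ι)) = (insert e (univ.erase e)).powerset := by
    rw [Finset.insert_erase (Finset.mem_univ e), Finset.powerset_univ]
  rw [h1, Finset.sum_powerset_insert (Finset.notMem_erase e _), Finset.sum_add_distrib]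

/-- The two-element split. -/
lemma sum_split2 {M : Type*} [AddCommMonoid M] {e d : ι} (hed : e ≠ d) (F : Finset ι → M) :
    ∑ S : Finset ι, F S
      = ∑ T ∈ ((univ.erase e).erase d).powerset,
          (F T + F (insert e T) + F (insert d T) + F (insert e (insert d T))) := by
  rw [sum_split1 e F]
  have hd : d ∈ univ.erase e := Finset.mem_erase.mpr ⟨hed.symm, Finset.mem_univ _⟩
  have h1 : (univ.erase e).powerset = (insert d ((univ.erase e).erase d)).powerset := by
    rw [Finset.insert_erase hd]
  rw [h1, Finset.sum_powerset_insert (Finset.notMem_erase d _), ← Finset.sum_add_distrib]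
  refine Finset.sum_congr rfl fun T _ => ?_
  abel

lemma prod_insert_of_subset_erase {M : Type*} [CommMonoid M] {e : ι} {T : Finset ι}
    (hT : T ∈ (univ.erase e).powerset) (z : ι → M) :
    ∏ i ∈ insert e T, z i = z e * ∏ i ∈ T, z i := by
  have : e ∉ T := fun h => by
    have := Finset.mem_powerset.mp hT h
    simp at this
  exact Finset.prod_insert this

section rayleigh

variable {c : Finset ι → ℝ} {e d : ι}

/-- The four coefficient sums of the bilinear decomposition in `z e, z d`. -/
noncomputable def co00 (c : Finset ι → ℝ) (e d : ι) (z : ι → ℂ) : ℂ :=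
  ∑ T ∈ ((univ.erase e).erase d).powerset, (c T : ℂ) * ∏ i ∈ T, z i
noncomputable def co10 (c : Finset ι → ℝ) (e d : ι) (z : ι → ℂ) : ℂ :=
  ∑ T ∈ ((univ.erase e).erase d).powerset, (c (insert e T) : ℂ) * ∏ i ∈ T, z i
noncomputable def co01 (c : Finset ι → ℝ) (e d : ι) (z : ι → ℂ) : ℂ :=
  ∑ T ∈ ((univ.erase e).erase d).powerset, (c (insert d T) : ℂ) * ∏ i ∈ T, z i
noncomputable def co11 (c : Finset ι → ℝ) (e d : ι) (z : ι → ℂ) : ℂ :=
  ∑ T ∈ ((univ.erase e).erase d).powerset, (c (insert e (insert d T)) : ℂ) * ∏ i ∈ T, z i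

lemma notMem_of_mem_pow {e d : ι} {T : Finset ι}
    (hT : T ∈ ((univ.erase e).erase d).powerset) : e ∉ T ∧ d ∉ T := by
  have h := Finset.mem_powerset.mp hT
  refine ⟨fun h' => ?_, fun h' => ?_⟩
  · have := h h'
    simp at this
  · have := h h'
    simp at this

lemma genPoly_split (hed : e ≠ d) (c : Finset ι → ℝ) (z : ι → ℂ) :
    ∑ S : Finset ι, (c S : ℂ) * ∏ i ∈ S, z i
      = co00 c e d z + co10 c e d z * z e + co01 c e d z * z d + co11 c e d z * (z e * z d) := by
  rw [sum_split2 hed]
  unfold co00 co10 co01 co11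
  simp only [Finset.sum_mul, ← Finset.sum_add_distrib]
  refine Finset.sum_congr rfl fun T hT => ?_
  obtain ⟨he, hd⟩ := notMem_of_mem_pow hT
  have hed' : e ∉ insert d T := by
    simp [Finset.mem_insert, hed, he]
  rw [Finset.prod_insert he, Finset.prod_insert hd, Finset.prod_insert hed',
    Finset.prod_insert hd]
  ring

/-- Real versions of the coefficient sums. -/
noncomputable def re00 (c : Finset ι → ℝ) (e d : ι) (w : ι → ℝ) : ℝ :=
  ∑ T ∈ ((univ.erase e).erase d).powerset, c T * ∏ i ∈ T, w i
noncomputable def re10 (c : Finset ι → ℝ) (e d : ι) (w : ι → ℝ) : ℝ :=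
  ∑ T ∈ ((univ.erase e).erase d).powerset, c (insert e T) * ∏ i ∈ T, w i
noncomputable def re01 (c : Finset ι → ℝ) (e d : ι) (w : ι → ℝ) : ℝ :=
  ∑ T ∈ ((univ.erase e).erase d).powerset, c (insert d T) * ∏ i ∈ T, w i
noncomputable def re11 (c : Finset ι → ℝ) (e d : ι) (w : ι → ℝ) : ℝ :=
  ∑ T ∈ ((univ.erase e).erase d).powerset, c (insert e (insert d T)) * ∏ i ∈ T, w i

/-- The perturbed point `w + i ε`. -/
noncomputable def pert (w : ι → ℝ) (ε : ℝ) (i : ι) : ℂ := (w i : ℂ) + (ε : ℂ) * I

lemma continuous_co (c' : Finset ι → ℝ) (s : Finset (Finset ι)) (w : ι → ℝ) :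
    Continuous fun ε : ℝ => ∑ T ∈ s, (c' T : ℂ) * ∏ i ∈ T, pert w ε i := by
  unfold pert
  fun_prop

lemma co_pert_zero (c' : Finset ι → ℝ) (s : Finset (Finset ι)) (w : ι → ℝ) :
    ∑ T ∈ s, (c' T : ℂ) * ∏ i ∈ T, pert w 0 i = ((∑ T ∈ s, c' T * ∏ i ∈ T, w i : ℝ) : ℂ) := by
  simp [pert]

lemma re_nonneg_of (hc : ∀ S, 0 ≤ c S) (c' : Finset ι → Finset ι) (s : Finset (Finset ι))
    {w : ι → ℝ} (hw : ∀ i, 0 < w i) : 0 ≤ ∑ T ∈ s, c (c' T) * ∏ i ∈ T, w i :=
  Finset.sum_nonneg fun T _ => mul_nonneg (hc _) (Finset.prod_nonneg fun i _ => (hw i).le)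

/-- **Rayleigh's inequality** at a positive point, by a perturbation argument. -/
theorem rayleigh_core (hst : Stab c) (hc : ∀ S, 0 ≤ c S) (hed : e ≠ d) {w : ι → ℝ}
    (hw : ∀ i, 0 < w i) : re00 c e d w * re11 c e d w ≤ re10 c e d w * re01 c e d w := by
  by_contra hcon
  push Not at hcon
  set A := re00 c e d w with hA
  set B := re10 c e d w with hB
  set C := re01 c e d w with hC
  set G := re11 c e d w with hG
  have hA0 : 0 ≤ A := re_nonneg_of hc id _ hw
  have hB0 : 0 ≤ B := re_nonneg_of hc _ _ hw
  have hC0 : 0 ≤ C := re_nonneg_of hc _ _ hw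
  have hG0 : 0 ≤ G := re_nonneg_of hc _ _ hw
  have hGpos : 0 < G := by
    by_contra h
    have : G = 0 := le_antisymm (not_lt.mp h) hG0
    rw [this, mul_zero] at hcon
    linarith [mul_nonneg hB0 hC0]
  -- the complex-valued curves
  let fa : ℝ → ℂ := fun ε => co00 c e d (pert w ε)
  let fb : ℝ → ℂ := fun ε => co10 c e d (pert w ε)
  let fc : ℝ → ℂ := fun ε => co01 c e d (pert w ε)
  let fg : ℝ → ℂ := fun ε => co11 c e d (pert w ε)
  have hfa : Continuous fa := continuous_co c _ w
  have hfb : Continuous fb := continuous_co (fun T => c (insert e T)) _ w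
  have hfc : Continuous fc := continuous_co (fun T => c (insert d T)) _ w
  have hfg : Continuous fg := continuous_co (fun T => c (insert e (insert d T))) _ w
  have ha0 : fa 0 = (A : ℂ) := co_pert_zero c _ w
  have hb0 : fb 0 = (B : ℂ) := co_pert_zero (fun T => c (insert e T)) _ w
  have hc0 : fc 0 = (C : ℂ) := co_pert_zero (fun T => c (insert d T)) _ w
  have hg0 : fg 0 = (G : ℂ) := co_pert_zero (fun T => c (insert e (insert d T))) _ w
  let den : ℝ → ℂ := fun ε => fc ε + fg ε * I
  let num : ℝ → ℂ := fun ε => fa ε + fb ε * I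
  have hden : Continuous den := hfc.add (hfg.mul continuous_const)
  have hnum : Continuous num := hfa.add (hfb.mul continuous_const)
  have hden0 : den 0 ≠ 0 := by
    simp only [den, hc0, hg0]
    intro h
    have := congrArg Complex.im h
    simp at this
    exact hGpos.ne' this
  have hIm0 : 0 < (-(num 0 / den 0)).im := by
    simp only [num, den, ha0, hb0, hc0, hg0]
    rw [neg_im, div_im]
    simp only [add_re, ofReal_re, mul_re, I_re, mul_zero, ofReal_im, I_im, mul_one, sub_self,
      add_zero, add_im, mul_im, zero_add, normSq_apply]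
    have hD : 0 < C * C + G * G := by positivity
    have : -(B * C / (C * C + G * G) - A * G / (C * C + G * G))
        = (A * G - B * C) / (C * C + G * G) := by
      field_simp
      ring
    rw [this]
    exact div_pos (by linarith) hD
  have hquot : ContinuousAt (fun ε => -(num ε / den ε)) 0 :=
    ((hnum.continuousAt).div (hden.continuousAt) hden0).neg
  have hev1 : ∀ᶠ ε in nhds (0 : ℝ), 0 < (-(num ε / den ε)).im :=
    (Complex.continuous_im.continuousAt.comp hquot).eventually (lt_mem_nhds hIm0)
  have hev2 : ∀ᶠ ε in nhds (0 : ℝ), den ε ≠ 0 := hden.continuousAt.eventually_ne hden0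
  obtain ⟨ε, hε1, hε2, hε3⟩ : ∃ ε : ℝ, 0 < ε ∧ 0 < (-(num ε / den ε)).im ∧ den ε ≠ 0 := by
    have h := ((hev1.and hev2).filter_mono nhdsWithin_le_nhds : ∀ᶠ ε in nhdsWithin (0:ℝ) (Set.Ioi 0), _)
    have h2 : ∀ᶠ ε in nhdsWithin (0:ℝ) (Set.Ioi 0), 0 < ε := eventually_mem_nhdsWithin
    obtain ⟨ε, h3, h4⟩ := (h2.and h).exists
    exact ⟨ε, h3, h4.1, h4.2⟩
  -- the zero
  let z : ι → ℂ := fun i => if i = e then I else if i = d then -(num ε / den ε) else pert w ε i
  have hz : ∀ i, 0 < (z i).im := by
    intro i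
    simp only [z]
    split_ifs with h1 h2
    · simp
    · exact hε2
    · simp [pert, hε1]
  apply hst z hz
  rw [genPoly_split hed]
  have hze : z e = I := by simp [z]
  have hzd : z d = -(num ε / den ε) := by simp [z, hed.symm]
  have hcoeq : ∀ c' : Finset ι → ℝ,
      ∑ T ∈ ((univ.erase e).erase d).powerset, (c' T : ℂ) * ∏ i ∈ T, z i
        = ∑ T ∈ ((univ.erase e).erase d).powerset, (c' T : ℂ) * ∏ i ∈ T, pert w ε i := by
    intro c'
    refine Finset.sum_congr rfl fun T hT => ?_
    congr 1
    refine Finset.prod_congr rfl fun i hi => ?_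
    obtain ⟨he, hd⟩ := notMem_of_mem_pow hT
    have h1 : i ≠ e := fun h => he (h ▸ hi)
    have h2 : i ≠ d := fun h => hd (h ▸ hi)
    simp [z, h1, h2]
  have h00 : co00 c e d z = fa ε := hcoeq c
  have h10 : co10 c e d z = fb ε := hcoeq (fun T => c (insert e T))
  have h01 : co01 c e d z = fc ε := hcoeq (fun T => c (insert d T))
  have h11 : co11 c e d z = fg ε := hcoeq (fun T => c (insert e (insert d T)))
  rw [h00, h10, h01, h11, hze, hzd]
  have hne : den ε ≠ 0 := hε3
  have : fa ε + fb ε * I + fc ε * -(num ε / den ε) + fg ε * (I * -(num ε / den ε))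
      = num ε - den ε * (num ε / den ε) := by
    simp only [num, den]
    ring
  rw [this]
  field_simp
  ring

/-- The tilted weight in product form. -/
lemma wt_eq_prod (c : Finset ι → ℝ) (h : ι → ℝ) (S : Finset ι) :
    wt c h S = c S * ∏ i ∈ S, Real.exp (h i) := by
  unfold wt
  rw [Real.exp_sum]

lemma sum_wt_split (hed : e ≠ d) (c : Finset ι → ℝ) (h : ι → ℝ) (f : Finset ι → ℝ) :
    ∑ S : Finset ι, wt c h S * f S
      = ∑ T ∈ ((univ.erase e).erase d).powerset,
          (c T * (∏ i ∈ T, Real.exp (h i)) * f T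
            + c (insert e T) * (∏ i ∈ T, Real.exp (h i)) * Real.exp (h e) * f (insert e T)
            + c (insert d T) * (∏ i ∈ T, Real.exp (h i)) * Real.exp (h d) * f (insert d T)
            + c (insert e (insert d T)) * (∏ i ∈ T, Real.exp (h i)) *
                (Real.exp (h e) * Real.exp (h d)) * f (insert e (insert d T))) := by
  rw [sum_split2 hed]
  refine Finset.sum_congr rfl fun T hT => ?_
  obtain ⟨he, hd⟩ := notMem_of_mem_pow hT
  have hed' : e ∉ insert d T := by
    simp [Finset.mem_insert, hed, he]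
  simp only [wt_eq_prod]
  rw [Finset.prod_insert he, Finset.prod_insert hd, Finset.prod_insert hed',
    Finset.prod_insert hd]
  ring

/-- Negative correlation at every tilt. -/
theorem Covt_ind_nonpos (hst : Stab c) (hc : Adm c) (hed : e ≠ d) (h : ι → ℝ) :
    Covt c h (ind e) (ind d) ≤ 0 := by
  set w : ι → ℝ := fun i => Real.exp (h i) with hw
  have hwpos : ∀ i, 0 < w i := fun i => Real.exp_pos _
  have hray := rayleigh_core hst hc.nonneg hed hwpos
  set A := re00 c e d w with hA
  set B := re10 c e d w with hB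
  set C := re01 c e d w with hC
  set G := re11 c e d w with hG
  have hZ := Zt_pos hc h
  set we := Real.exp (h e) with hwe
  set wd := Real.exp (h d) with hwd
  have hwepos : 0 < we := Real.exp_pos _
  have hwdpos : 0 < wd := Real.exp_pos _
  have hZeq : Zt c h = A + B * we + C * wd + G * (we * wd) := by
    have := sum_wt_split hed c h (fun _ => 1)
    simp only [mul_one] at this
    show ∑ S, wt c h S = _
    rw [this]
    simp only [Finset.sum_add_distrib, hA, hB, hC, hG, re00, re10, re01, re11, Finset.sum_mul]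
    rfl
  have hind : ∀ T ∈ ((univ.erase e).erase d).powerset,
      ind e T = 0 ∧ ind e (insert e T) = 1 ∧ ind e (insert d T) = 0 ∧
        ind e (insert e (insert d T)) = 1 ∧ ind d T = 0 ∧ ind d (insert e T) = 0 ∧
        ind d (insert d T) = 1 ∧ ind d (insert e (insert d T)) = 1 := by
    intro T hT
    obtain ⟨he, hd⟩ := notMem_of_mem_pow hT
    simp [ind, he, hd, hed, hed.symm]
  have hNe : ∑ S, wt c h S * ind e S = B * we + G * (we * wd) := by
    rw [sum_wt_split hed]
    simp only [hB, hG, re10, re11, Finset.sum_mul]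
    rw [← Finset.sum_add_distrib]
    refine Finset.sum_congr rfl fun T hT => ?_
    obtain ⟨h1, h2, h3, h4, -⟩ := hind T hT
    rw [h1, h2, h3, h4]
    ring
  have hNd : ∑ S, wt c h S * ind d S = C * wd + G * (we * wd) := by
    rw [sum_wt_split hed]
    simp only [hC, hG, re01, re11, Finset.sum_mul]
    rw [← Finset.sum_add_distrib]
    refine Finset.sum_congr rfl fun T hT => ?_
    obtain ⟨-, -, -, -, h1, h2, h3, h4⟩ := hind T hT
    rw [h1, h2, h3, h4]
    ring
  have hNed : ∑ S, wt c h S * (ind e S * ind d S) = G * (we * wd) := by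
    rw [sum_wt_split hed]
    simp only [hG, re11, Finset.sum_mul]
    refine Finset.sum_congr rfl fun T hT => ?_
    obtain ⟨h1, h2, h3, h4, h5, h6, h7, h8⟩ := hind T hT
    rw [h1, h2, h3, h4, h5, h6, h7, h8]
    ring
  unfold Covt Et
  rw [hNe, hNd, hNed]
  have hZne := hZ.ne'
  have key : G * (we * wd) / Zt c h - (B * we + G * (we * wd)) / Zt c h *
      ((C * wd + G * (we * wd)) / Zt c h) = we * wd * (A * G - B * C) / Zt c h ^ 2 := by
    field_simp
    rw [hZeq]
    ring
  rw [key]
  refine div_nonpos_of_nonpos_of_nonneg ?_ (by positivity)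
  exact mul_nonpos_of_nonneg_of_nonpos (by positivity) (by linarith)

end rayleigh

section count

variable {c : Finset ι → ℝ} {e : ι}

/-- Covariance with the number of points is nonnegative. -/
theorem Covt_count_nonneg (hst : Stab c) (hc : Adm c) (e : ι) (h : ι → ℝ) :
    0 ≤ ∑ i, Covt c h (ind e) (ind i) := by
  set w : ι → ℝ := fun i => Real.exp (h i) with hw
  have hwpos : ∀ i, 0 < w i := fun i => Real.exp_pos _
  set s : Finset (Finset ι) := (univ.erase e).powerset with hs
  set α : Finset ι → ℝ := fun T => c (insert e T) * ∏ i ∈ T, w i with hα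
  set β : Finset ι → ℝ := fun T => c T * ∏ i ∈ T, w i with hβ
  set n : Finset ι → ℕ := fun T => T.card with hn
  have hα0 : ∀ k ∈ s, 0 ≤ α k := fun k _ =>
    mul_nonneg (hc.nonneg _) (Finset.prod_nonneg fun i _ => (hwpos i).le)
  have hβ0 : ∀ k ∈ s, 0 ≤ β k := fun k _ =>
    mul_nonneg (hc.nonneg _) (Finset.prod_nonneg fun i _ => (hwpos i).le)
  set a := ∑ k ∈ s, α k with ha
  set b := ∑ k ∈ s, β k with hb
  set a' := ∑ k ∈ s, α k * n k with ha'
  set b' := ∑ k ∈ s, β k * n k with hb'
  have hstab : ∀ u t : ℂ, 0 < u.im → 0 < t.im → u * mono s α n t + mono s β n t ≠ 0 := by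
    intro u t hu ht
    let z : ι → ℂ := fun i => if i = e then u else (w i : ℂ) * t
    have hz : ∀ i, 0 < (z i).im := by
      intro i
      simp only [z]
      split_ifs with h1
      · exact hu
      · simpa using mul_pos (hwpos i) ht
    have h1 := hst z hz
    intro h0
    apply h1
    rw [sum_split1 e]
    rw [← h0]
    simp only [mono, Finset.mul_sum]
    rw [add_comm, ← Finset.sum_add_distrib]
    refine Finset.sum_congr rfl fun T hT => ?_
    have hT' : e ∉ T := fun h' => by
      have := Finset.mem_powerset.mp hT h'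
      simp at this
    have hprod : ∏ i ∈ T, z i = ((∏ i ∈ T, w i : ℝ) : ℂ) * t ^ T.card := by
      have : ∀ i ∈ T, z i = (w i : ℂ) * t := by
        intro i hi
        have : i ≠ e := fun h' => hT' (h' ▸ hi)
        simp [z, this]
      rw [Finset.prod_congr rfl this, Finset.prod_mul_distrib]
      simp
    rw [Finset.prod_insert hT', hprod]
    have hze : z e = u := by simp [z]
    rw [hze]
    simp only [hα, hβ, hn]
    push_cast
    ring
  have hmain : 0 ≤ a' * b + a * b - a * b' := by
    by_cases hA : a = 0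
    · have hall : ∀ k ∈ s, α k = 0 := (Finset.sum_eq_zero_iff_of_nonneg hα0).mp hA
      have : a' = 0 := Finset.sum_eq_zero fun k hk => by rw [hall k hk]; ring
      rw [hA, this]
      simp
    by_cases hB : b = 0
    · have hall : ∀ k ∈ s, β k = 0 := (Finset.sum_eq_zero_iff_of_nonneg hβ0).mp hB
      have : b' = 0 := Finset.sum_eq_zero fun k hk => by rw [hall k hk]; ring
      rw [hB, this]
      simp
    have hApos : 0 < a := lt_of_le_of_ne (Finset.sum_nonneg hα0) (Ne.symm hA)
    have hBpos : 0 < b := lt_of_le_of_ne (Finset.sum_nonneg hβ0) (Ne.symm hB)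
    have := schwarz_core hα0 hβ0 hApos hBpos hstab
    linarith
  -- compute the covariance
  have hZ := Zt_pos hc h
  set we := Real.exp (h e) with hwe
  have hwepos : 0 < we := Real.exp_pos _
  have hsplit : ∀ f : Finset ι → ℝ, ∑ S, wt c h S * f S
      = ∑ T ∈ s, (β T * f T + α T * we * f (insert e T)) := by
    intro f
    rw [sum_split1 e]
    refine Finset.sum_congr rfl fun T hT => ?_
    have hT' : e ∉ T := fun h' => by
      have := Finset.mem_powerset.mp hT h'
      simp at this
    simp only [wt_eq_prod, hα, hβ]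
    rw [Finset.prod_insert hT']
    ring
  have hZeq : Zt c h = b + a * we := by
    have := hsplit (fun _ => 1)
    simp only [mul_one] at this
    show ∑ S, wt c h S = _
    rw [this, Finset.sum_add_distrib, ← Finset.sum_mul]
  have hind : ∀ T ∈ s, ind e T = 0 ∧ ind e (insert e T) = 1 := by
    intro T hT
    have hT' : e ∉ T := fun h' => by
      have := Finset.mem_powerset.mp hT h'
      simp at this
    simp [ind, hT']
  have hcardsum : ∀ S : Finset ι, ∑ i, ind i S = (S.card : ℝ) := by
    intro S
    simp [ind, Finset.sum_ite_mem]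
  have hcard : ∀ T ∈ s, ((insert e T).card : ℝ) = T.card + 1 := by
    intro T hT
    have hT' : e ∉ T := fun h' => by
      have := Finset.mem_powerset.mp hT h'
      simp at this
    rw [Finset.card_insert_of_notMem hT']
    push_cast
    ring
  have hNe : ∑ S, wt c h S * ind e S = a * we := by
    rw [hsplit, Finset.sum_mul]
    refine Finset.sum_congr rfl fun T hT => ?_
    obtain ⟨h1, h2⟩ := hind T hT
    rw [h1, h2]
    ring
  have hNN : ∑ S, wt c h S * (S.card : ℝ) = b' + (a' + a) * we := by
    rw [hsplit, Finset.sum_add_distrib]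
    congr 1
    rw [add_mul, Finset.sum_mul, Finset.sum_mul, ← Finset.sum_add_distrib]
    refine Finset.sum_congr rfl fun T hT => ?_
    rw [hcard T hT]
    simp only [hn]
    ring
  have hNeN : ∑ S, wt c h S * (ind e S * (S.card : ℝ)) = (a' + a) * we := by
    rw [hsplit, add_mul, Finset.sum_mul, Finset.sum_mul, ← Finset.sum_add_distrib]
    refine Finset.sum_congr rfl fun T hT => ?_
    obtain ⟨h1, h2⟩ := hind T hT
    rw [h1, h2, hcard T hT]
    simp only [hn]
    ring
  have hsum : ∑ i, Covt c h (ind e) (ind i)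
      = Et c h (fun S => ind e S * (S.card : ℝ)) - Et c h (ind e) * Et c h (fun S => (S.card : ℝ)) := by
    unfold Covt
    rw [Finset.sum_sub_distrib, ← Finset.mul_sum, ← Et_sum, ← Et_sum]
    simp only [← Finset.mul_sum, hcardsum]
  rw [hsum]
  unfold Et
  rw [hNe, hNN, hNeN]
  have hZne := hZ.ne'
  have key : (a' + a) * we / Zt c h - a * we / Zt c h * ((b' + (a' + a) * we) / Zt c h)
      = we * (a' * b + a * b - a * b') / Zt c h ^ 2 := by
    field_simp
    rw [hZeq]
    ring
  rw [key]
  exact div_nonneg (mul_nonneg hwepos.le hmain) (by positivity)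

end count

/-- **The dimension-free covariance bound for stable coefficient functions.** -/
theorem covBound_of_stable {c : Finset ι → ℝ} (hst : Stab c) (hc : Adm c) (h : ι → ℝ) (e : ι) :
    ∑ i, |Covt c h (ind e) (ind i)| ≤ 1 / 2 := by
  have hself : Covt c h (ind e) (ind e) = Et c h (ind e) * (1 - Et c h (ind e)) := by
    unfold Covt
    have : (fun S => ind e S * ind e S) = ind e := by
      funext S
      unfold ind
      split_ifs <;> simp
    rw [this]
    ring
  set p := Et c h (ind e) with hp
  have hp0 : 0 ≤ p := Et_ind_nonneg hc h e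
  have hp1 : p ≤ 1 := Et_ind_le_one hc h e
  have hsum := Covt_count_nonneg hst hc e h
  have hsplit : ∀ F : ι → ℝ, ∑ i, F i = F e + ∑ i ∈ univ.erase e, F i := by
    intro F
    rw [Finset.add_sum_erase _ _ (Finset.mem_univ e)]
  rw [hsplit] at hsum
  rw [hsplit]
  have hneg : ∀ i ∈ univ.erase e, |Covt c h (ind e) (ind i)| = -Covt c h (ind e) (ind i) := by
    intro i hi
    have : e ≠ i := (Finset.ne_of_mem_erase hi).symm
    exact abs_of_nonpos (Covt_ind_nonpos hst hc this h)
  rw [Finset.sum_congr rfl hneg, Finset.sum_neg_distrib, hself,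
    abs_of_nonneg (mul_nonneg hp0 (by linarith))]
  rw [hself] at hsum
  nlinarith [sq_nonneg (p - 1 / 2)]

end Crest.Agent.Lib.SRFlow
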