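import Crest.Agent.Lib.SRFlow.Window

/-!
# The tower estimate: the flows in large windows form a Cauchy net in `L¹`
-/

set_option autoImplicit false
set_option linter.unusedSectionVars false
set_option linter.unusedSimpArgs false
set_option linter.unusedVariables false

namespace Crest.Agent.Lib.SRFlow

open Finset MeasureTheory Set ProbabilityTheory
open scoped ENNReal

variable {E : Type*} [DecidableEq E]

/-! ### Joint measurability -/

lemma measurable_flowV_joint {ι : Type*} [Fintype ι] [DecidableEq ι] {c : Finset ι → ℝ}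
    (hc : Adm c) {C : ℝ} (hC0 : 0 ≤ C) (hC : CovBd c C) (i : ι) :
    Measurable fun p : ℝ × (ι → ℝ) => flowV c (max p.1 0) p.2 i := by
  let u : ℝ → (ι → ℝ) → ℝ := fun σ w => flowV c (max σ 0) w i
  have h1 : ∀ w, Continuous fun σ => u σ w := by
    intro w
    have h2 : Continuous fun σ : ℝ => max σ 0 := continuous_id.max continuous_const
    have h3 := (flowV_continuousOn hc hC0 hC w).comp_continuous h2 (fun σ => le_max_right σ 0)
    exact (continuous_apply i).comp h3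
  have h4 : ∀ σ, Measurable (u σ) := fun σ =>
    (measurable_pi_apply i).comp (measurable_flowV_right c (max σ 0))
  exact measurable_uncurry_of_continuous_of_measurable h1 h4

lemma measurable_flowE_joint {c : Finset E → Finset E → ℝ} (h : SRSys c) (F : Finset E) (e : E) :
    Measurable fun p : ℝ × (E → ℝ) => flowE (c F) F (max p.1 0) p.2 e := by
  by_cases he : e ∈ F
  · have h1 := measurable_flowV_joint (h.adm F) (by norm_num) (h.covBd F) (⟨e, he⟩ : ↥F)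
    have h2 : Measurable fun p : ℝ × (E → ℝ) => (p.1, F.restrict p.2) :=
      measurable_fst.prodMk ((measurable_restrict' F).comp measurable_snd)
    have h3 := h1.comp h2
    have h4 : (fun p : ℝ × (E → ℝ) => flowE (c F) F (max p.1 0) p.2 e)
        = (fun p : ℝ × (↥F → ℝ) => flowV (wc (c F) F) (max p.1 0) p.2 ⟨e, he⟩) ∘
          (fun p : ℝ × (E → ℝ) => (p.1, F.restrict p.2)) := by
      funext p
      exact dif_pos he
    rw [h4]
    exact h3
  · have h4 : (fun p : ℝ × (E → ℝ) => flowE (c F) F (max p.1 0) p.2 e) = fun p => p.2 e := by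
      funext p
      exact dif_neg he
    rw [h4]
    exact (measurable_pi_apply e).comp measurable_snd

lemma measurable_flowE_right {c : Finset E → Finset E → ℝ} (h : SRSys c) (F : Finset E) {τ : ℝ}
    (hτ : 0 ≤ τ) (e : E) : Measurable fun ζ : E → ℝ => flowE (c F) F τ ζ e := by
  have h1 := measurable_flowE_joint h F e
  have h2 : Measurable fun ζ : E → ℝ => (τ, ζ) := measurable_const.prodMk measurable_id
  have h3 := h1.comp h2
  have h4 : max τ 0 = τ := max_eq_left hτ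
  simp only [Function.comp_def, h4] at h3
  exact h3

/-- The drift of the window `G` along the flow of the window `F`, with the time clamped. -/
noncomputable def Dc (c : Finset E → Finset E → ℝ) (F G : Finset E) (e : E) (σ : ℝ)
    (ζ : E → ℝ) : ℝ :=
  aE (c G) G (max σ 0) e (flowE (c F) F (max σ 0) ζ)

lemma Dc_of_nonneg (c : Finset E → Finset E → ℝ) (F G : Finset E) (e : E) {σ : ℝ} (hσ : 0 ≤ σ)
    (ζ : E → ℝ) : Dc c F G e σ ζ = aE (c G) G σ e (flowE (c F) F σ ζ) := by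
  unfold Dc
  rw [max_eq_left hσ]

lemma measurable_Dc {c : Finset E → Finset E → ℝ} (h : SRSys c) (F G : Finset E) (e : E) :
    Measurable fun p : ℝ × (E → ℝ) => Dc c F G e p.1 p.2 := by
  have h1 : Measurable fun p : ℝ × (E → ℝ) => (max p.1 0, G.restrict (flowE (c F) F (max p.1 0) p.2)) := by
    refine (measurable_fst.max measurable_const).prodMk ?_
    refine measurable_pi_lambda _ fun i => ?_
    exact measurable_flowE_joint h F i
  have h2 := (continuous_aE_window h G e).measurable.comp h1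
  exact h2

lemma abs_Dc_le {c : Finset E → Finset E → ℝ} (h : SRSys c) (F G : Finset E) (e : E) (σ : ℝ)
    (ζ : E → ℝ) : |Dc c F G e σ ζ| ≤ 1 :=
  abs_aE_le h G _ e _

lemma measurable_Dc_time {c : Finset E → Finset E → ℝ} (h : SRSys c) (F G : Finset E) (e : E)
    (ζ : E → ℝ) : Measurable fun σ => Dc c F G e σ ζ := by
  have h1 : Measurable fun σ : ℝ => (σ, ζ) := measurable_id.prodMk measurable_const
  have h2 := (measurable_Dc h F G e).comp h1
  exact h2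

lemma measurable_Dc_space {c : Finset E → Finset E → ℝ} (h : SRSys c) (F G : Finset E) (e : E)
    (σ : ℝ) : Measurable fun ζ => Dc c F G e σ ζ := by
  have h1 : Measurable fun ζ : E → ℝ => (σ, ζ) := measurable_const.prodMk measurable_id
  have h2 := (measurable_Dc h F G e).comp h1
  exact h2

/-- Bounded measurable functions of the time are interval integrable. -/
lemma intervalIntegrable_of_bdd {g : ℝ → ℝ} (hg : Measurable g) {M : ℝ} (hM : ∀ σ, |g σ| ≤ M)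
    (a b : ℝ) : IntervalIntegrable g volume a b :=
  (intervalIntegrable_const (c := M)).mono_fun' hg.aestronglyMeasurable
    (Filter.Eventually.of_forall hM)

lemma flowE_eq_integral_Dc {c : Finset E → Finset E → ℝ} (h : SRSys c) (F : Finset E) {τ : ℝ}
    (hτ : 0 ≤ τ) (ζ : E → ℝ) {e : E} (he : e ∈ F) :
    flowE (c F) F τ ζ e = ζ e + ∫ σ in (0 : ℝ)..τ, Dc c F F e σ ζ := by
  rw [flowE_integral h F hτ ζ he]
  congr 1
  refine intervalIntegral.integral_congr fun σ hσ => ?_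
  rw [uIcc_of_le hτ] at hσ
  rw [Dc_of_nonneg c F F e hσ.1]

/-- Swapping the time integral and the expectation. -/
lemma swap_integral {g : ℝ → (E → ℝ) → ℝ} (hg : Measurable fun p : ℝ × (E → ℝ) => g p.1 p.2)
    {M : ℝ} {τ : ℝ} (hτ : 0 ≤ τ) (hM : ∀ σ ∈ Ioc 0 τ, ∀ ζ, |g σ ζ| ≤ M) :
    ∫ ζ, (∫ σ in (0 : ℝ)..τ, g σ ζ) ∂(gamE E) = ∫ σ in (0 : ℝ)..τ, (∫ ζ, g σ ζ ∂(gamE E)) := by
  simp_rw [intervalIntegral.integral_of_le hτ]
  have hms : Measurable fun p : (E → ℝ) × ℝ => g p.2 p.1 := by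
    have : Measurable fun p : (E → ℝ) × ℝ => (p.2, p.1) := measurable_swap
    exact hg.comp this
  have hint : Integrable (Function.uncurry fun (ζ : E → ℝ) (σ : ℝ) => g σ ζ)
      ((gamE E).prod (volume.restrict (Ioc 0 τ))) := by
    refine Integrable.mono' (g := fun _ => M) (integrable_const M) hms.aestronglyMeasurable ?_
    have hrestr : ((gamE E).prod (volume.restrict (Ioc 0 τ)))
        = ((gamE E).prod volume).restrict (Set.univ ×ˢ Ioc 0 τ) := by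
      rw [← Measure.prod_restrict, Measure.restrict_univ]
    rw [hrestr, ae_restrict_iff' (MeasurableSet.univ.prod measurableSet_Ioc)]
    refine Filter.Eventually.of_forall fun p hp => ?_
    exact hM p.2 hp.2 p.1
  exact integral_integral_swap hint

lemma measurable_time_integral {g : ℝ → (E → ℝ) → ℝ}
    (hg : Measurable fun p : ℝ × (E → ℝ) => g p.1 p.2) {τ : ℝ} (hτ : 0 ≤ τ) :
    Measurable fun ζ => ∫ σ in (0 : ℝ)..τ, g σ ζ := by
  simp_rw [intervalIntegral.integral_of_le hτ]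
  have h1 : StronglyMeasurable fun p : ℝ × (E → ℝ) => g p.1 p.2 := hg.stronglyMeasurable
  exact (h1.integral_prod_left' (μ := volume.restrict (Ioc 0 τ))).measurable

lemma abs_time_integral_le {g : ℝ → ℝ} {M τ : ℝ} (hτ : 0 ≤ τ) (hM : ∀ σ ∈ Ioc 0 τ, |g σ| ≤ M) :
    |∫ σ in (0 : ℝ)..τ, g σ| ≤ M * τ := by
  have := intervalIntegral.norm_integral_le_of_norm_le_const (a := 0) (b := τ) (f := g) (C := M)
    (fun σ hσ => by
      rw [uIoc_of_le hτ] at hσ
      exact hM σ hσ)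
  simpa [abs_of_nonneg hτ] using this

lemma integrable_time_integral {g : ℝ → (E → ℝ) → ℝ}
    (hg : Measurable fun p : ℝ × (E → ℝ) => g p.1 p.2) {M τ : ℝ} (hτ : 0 ≤ τ)
    (hM : ∀ σ ∈ Ioc 0 τ, ∀ ζ, |g σ ζ| ≤ M) :
    Integrable (fun ζ => ∫ σ in (0 : ℝ)..τ, g σ ζ) (gamE E) :=
  integrable_of_bdd (M := M * τ) (measurable_time_integral hg hτ)
    fun ζ => abs_time_integral_le hτ fun σ hσ => hM σ hσ ζ

lemma measurable_expect {g : ℝ → (E → ℝ) → ℝ} (hg : Measurable fun p : ℝ × (E → ℝ) => g p.1 p.2) :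
    Measurable fun σ => ∫ ζ, g σ ζ ∂(gamE E) := by
  have h1 : StronglyMeasurable fun p : ℝ × (E → ℝ) => g p.1 p.2 := hg.stronglyMeasurable
  exact (h1.integral_prod_right' (ν := gamE E)).measurable

lemma abs_expect_le {g : (E → ℝ) → ℝ} {M : ℝ} (hM : ∀ ζ, |g ζ| ≤ M) :
    |∫ ζ, g ζ ∂(gamE E)| ≤ M := by
  have := norm_integral_le_of_norm_le_const (μ := gamE E) (f := g) (C := M)
    (Filter.Eventually.of_forall hM)
  simpa [Measure.real] using this

/-! ### The monotone bounded quantity -/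

/-- The energy of the drift of the window `F` up to the time `T`. -/
noncomputable def Ien (c : Finset E → Finset E → ℝ) (T : ℝ) (F : Finset E) (e : E) : ℝ :=
  ∫ σ in (0 : ℝ)..T, ∫ ζ, (Dc c F F e σ ζ) ^ 2 ∂(gamE E)

lemma abs_Dc_sq_le {c : Finset E → Finset E → ℝ} (h : SRSys c) (F G : Finset E) (e : E) (σ : ℝ)
    (ζ : E → ℝ) : |(Dc c F G e σ ζ) ^ 2| ≤ 1 := by
  rw [abs_pow]
  exact pow_le_one₀ (abs_nonneg _) (abs_Dc_le h F G e σ ζ)

lemma expect_sq_meas {c : Finset E → Finset E → ℝ} (h : SRSys c) (F G : Finset E) (e : E) :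
    Measurable fun σ => ∫ ζ, (Dc c F G e σ ζ) ^ 2 ∂(gamE E) :=
  measurable_expect (g := fun σ ζ => (Dc c F G e σ ζ) ^ 2) ((measurable_Dc h F G e).pow_const 2)

lemma expect_sq_ii {c : Finset E → Finset E → ℝ} (h : SRSys c) (F G : Finset E) (e : E) (a b : ℝ) :
    IntervalIntegrable (fun σ => ∫ ζ, (Dc c F G e σ ζ) ^ 2 ∂(gamE E)) volume a b :=
  intervalIntegrable_of_bdd (M := 1) (expect_sq_meas h F G e)
    (fun σ => abs_expect_le fun ζ => abs_Dc_sq_le h F G e σ ζ) a b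

lemma diff_sq_meas {c : Finset E → Finset E → ℝ} (h : SRSys c) (F G : Finset E) (e : E) :
    Measurable fun p : ℝ × (E → ℝ) => (Dc c F F e p.1 p.2 - Dc c F G e p.1 p.2) ^ 2 :=
  ((measurable_Dc h F F e).sub (measurable_Dc h F G e)).pow_const 2

lemma abs_diff_sq_le {c : Finset E → Finset E → ℝ} (h : SRSys c) (F G : Finset E) (e : E) (σ : ℝ)
    (ζ : E → ℝ) : |(Dc c F F e σ ζ - Dc c F G e σ ζ) ^ 2| ≤ 4 := by
  rw [abs_pow]
  have h1 := abs_sub (Dc c F F e σ ζ) (Dc c F G e σ ζ)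
  have h2 := abs_Dc_le h F F e σ ζ
  have h3 := abs_Dc_le h F G e σ ζ
  have : |Dc c F F e σ ζ - Dc c F G e σ ζ| ≤ 2 := by linarith
  calc _ ≤ (2 : ℝ) ^ 2 := pow_le_pow_left₀ (abs_nonneg _) this 2
    _ = 4 := by norm_num

/-- Orthogonality for the time-integrated quantities. -/
lemma ortho_integrated {c : Finset E → Finset E → ℝ} (h : SRSys c) {F G : Finset E} (hGF : G ⊆ F)
    {T : ℝ} (hT : 0 ≤ T) {e : E} (he : e ∈ G) :
    ∫ σ in (0 : ℝ)..T, ∫ ζ, (Dc c F F e σ ζ - Dc c F G e σ ζ) ^ 2 ∂(gamE E)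
      = Ien c T F e - Ien c T G e := by
  unfold Ien
  rw [← intervalIntegral.integral_sub (expect_sq_ii h F F e 0 T) (expect_sq_ii h G G e 0 T)]
  refine intervalIntegral.integral_congr fun σ hσ => ?_
  rw [uIcc_of_le hT] at hσ
  have hσ0 : (0 : ℝ) ≤ σ := hσ.1
  have := orthogonality h hGF hσ0 he
  simp_rw [Dc_of_nonneg c _ _ e hσ0]
  exact this

lemma Ien_mono {c : Finset E → Finset E → ℝ} (h : SRSys c) {F G : Finset E} (hGF : G ⊆ F)
    {T : ℝ} (hT : 0 ≤ T) {e : E} (he : e ∈ G) : Ien c T G e ≤ Ien c T F e := by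
  have h1 := ortho_integrated h hGF hT he
  have h2 : 0 ≤ ∫ σ in (0 : ℝ)..T, ∫ ζ, (Dc c F F e σ ζ - Dc c F G e σ ζ) ^ 2 ∂(gamE E) :=
    intervalIntegral.integral_nonneg hT fun σ _ => integral_nonneg fun ζ => sq_nonneg _
  linarith

lemma Ien_le {c : Finset E → Finset E → ℝ} (h : SRSys c) (F : Finset E)
    {T : ℝ} (hT : 0 ≤ T) (e : E) : Ien c T F e ≤ T := by
  unfold Ien
  have h1 := intervalIntegral.integral_mono_on hT (expect_sq_ii h F F e 0 T)
    (intervalIntegrable_const (c := (1 : ℝ)))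
    (fun σ _ => (le_abs_self _).trans (abs_expect_le fun ζ => abs_Dc_sq_le h F F e σ ζ))
  simpa using h1

lemma exists_window_Ien {c : Finset E → Finset E → ℝ} (h : SRSys c) {T : ℝ} (hT : 0 ≤ T) (e : E)
    {ε : ℝ} (hε : 0 < ε) : ∃ G₀ : Finset E, e ∈ G₀ ∧ ∀ F, G₀ ⊆ F → Ien c T F e - Ien c T G₀ e ≤ ε := by
  let s : Set ℝ := {x | ∃ F : Finset E, e ∈ F ∧ x = Ien c T F e}
  have hne : s.Nonempty := ⟨_, {e}, Finset.mem_singleton_self e, rfl⟩
  have hbd : BddAbove s := ⟨T, by rintro x ⟨F, _, rfl⟩; exact Ien_le h F hT e⟩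
  obtain ⟨x, ⟨G₀, heG, rfl⟩, hx⟩ := exists_lt_of_lt_csSup hne (sub_lt_self (sSup s) hε)
  refine ⟨G₀, heG, fun F hF => ?_⟩
  have : Ien c T F e ≤ sSup s := le_csSup hbd ⟨F, hF heG, rfl⟩
  linarith

/-! ### The sup distance -/

/-- The sup distance on the window `A`. -/
noncomputable def supD (A : Finset E) (z z' : E → ℝ) : ℝ := ‖fun i : ↥A => z i - z' i‖

lemma supD_nonneg (A : Finset E) (z z' : E → ℝ) : 0 ≤ supD A z z' := norm_nonneg _

lemma abs_le_supD {A : Finset E} {z z' : E → ℝ} {e : E} (he : e ∈ A) :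
    |z e - z' e| ≤ supD A z z' :=
  norm_le_pi_norm (fun i : ↥A => z i - z' i) ⟨e, he⟩

lemma supD_le {A : Finset E} {z z' : E → ℝ} {B : ℝ} (hB : 0 ≤ B)
    (h : ∀ e ∈ A, |z e - z' e| ≤ B) : supD A z z' ≤ B :=
  (pi_norm_le_iff_of_nonneg hB).mpr fun i => h i i.2

lemma measurable_supD_joint {c : Finset E → Finset E → ℝ} (h : SRSys c) (A F F' : Finset E) :
    Measurable fun p : ℝ × (E → ℝ) =>
      supD A (flowE (c F) F (max p.1 0) p.2) (flowE (c F') F' (max p.1 0) p.2) := by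
  unfold supD
  refine Measurable.norm ?_
  refine measurable_pi_lambda _ fun i => ?_
  exact (measurable_flowE_joint h F i).sub (measurable_flowE_joint h F' i)

lemma measurable_supD_right {c : Finset E → Finset E → ℝ} (h : SRSys c) (A F F' : Finset E) {τ : ℝ}
    (hτ : 0 ≤ τ) :
    Measurable fun ζ : E → ℝ => supD A (flowE (c F) F τ ζ) (flowE (c F') F' τ ζ) := by
  unfold supD
  refine Measurable.norm ?_
  refine measurable_pi_lambda _ fun i => ?_
  exact (measurable_flowE_right h F hτ i).sub (measurable_flowE_right h F' hτ i)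

/-- Two flows differ by at most the elapsed time. -/
lemma abs_flowE_sub_le {c : Finset E → Finset E → ℝ} (h : SRSys c) (F F' : Finset E) {τ : ℝ}
    (hτ : 0 ≤ τ) (ζ : E → ℝ) (e : E) :
    |flowE (c F) F τ ζ e - flowE (c F') F' τ ζ e| ≤ τ := by
  have h1 := flowE_increment h F le_rfl hτ ζ e
  have h2 := flowE_increment h F' le_rfl hτ ζ e
  rw [flowE_zero h F] at h1
  rw [flowE_zero h F'] at h2
  rw [abs_le]
  constructor <;> linarith [h1.1, h1.2, h2.1, h2.2]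

lemma supD_flow_le {c : Finset E → Finset E → ℝ} (h : SRSys c) (A F F' : Finset E) {τ : ℝ}
    (hτ : 0 ≤ τ) (ζ : E → ℝ) :
    supD A (flowE (c F) F τ ζ) (flowE (c F') F' τ ζ) ≤ τ :=
  supD_le hτ fun e _ => abs_flowE_sub_le h F F' hτ ζ e

/-! ### The inductive step -/

/-- The comparison term. -/
noncomputable def WW (c : Finset E → Finset E → ℝ) (G F F' : Finset E) (σ : ℝ) (ζ : E → ℝ) : ℝ :=
  1 / 2 * (max σ 0 * supD G (flowE (c F) F (max σ 0) ζ) (flowE (c F') F' (max σ 0) ζ))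

lemma WW_nonneg (c : Finset E → Finset E → ℝ) (G F F' : Finset E) (σ : ℝ) (ζ : E → ℝ) :
    0 ≤ WW c G F F' σ ζ := by
  have : 0 ≤ max σ 0 := le_max_right _ _
  have h2 := supD_nonneg G (flowE (c F) F (max σ 0) ζ) (flowE (c F') F' (max σ 0) ζ)
  unfold WW
  positivity

lemma measurable_WW {c : Finset E → Finset E → ℝ} (h : SRSys c) (G F F' : Finset E) :
    Measurable fun p : ℝ × (E → ℝ) => WW c G F F' p.1 p.2 := by
  unfold WW
  exact ((measurable_fst.max measurable_const).mul (measurable_supD_joint h G F F')).const_mul _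

lemma WW_le {c : Finset E → Finset E → ℝ} (h : SRSys c) (G F F' : Finset E) {τ σ : ℝ} (hτ : 0 ≤ τ)
    (hσ : σ ∈ Ioc 0 τ) (ζ : E → ℝ) : |WW c G F F' σ ζ| ≤ τ ^ 2 := by
  rw [abs_of_nonneg (WW_nonneg c G F F' σ ζ)]
  unfold WW
  have h0 : 0 ≤ max σ 0 := le_max_right _ _
  rw [max_eq_left hσ.1.le]
  have h1 := supD_flow_le h G F F' hσ.1.le ζ
  have h2 := supD_nonneg G (flowE (c F) F σ ζ) (flowE (c F') F' σ ζ)
  have h3 := hσ.1
  have h4 := hσ.2
  nlinarith [mul_le_mul h4 (h1.trans h4) h2 hτ]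

lemma abs_Dc_sub_le {c : Finset E → Finset E → ℝ} (h : SRSys c) (F G F' G' : Finset E) (e e' : E)
    (σ : ℝ) (ζ : E → ℝ) : |Dc c F G e σ ζ - Dc c F' G' e' σ ζ| ≤ 2 := by
  have h1 := abs_sub (Dc c F G e σ ζ) (Dc c F' G' e' σ ζ)
  have h2 := abs_Dc_le h F G e σ ζ
  have h3 := abs_Dc_le h F' G' e' σ ζ
  linarith

lemma measurable_abs_Dc_sub {c : Finset E → Finset E → ℝ} (h : SRSys c) (F G F' G' : Finset E)
    (e e' : E) : Measurable fun p : ℝ × (E → ℝ) => |Dc c F G e p.1 p.2 - Dc c F' G' e' p.1 p.2| :=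
  ((measurable_Dc h F G e).sub (measurable_Dc h F' G' e')).abs

lemma ii_abs_Dc_sub {c : Finset E → Finset E → ℝ} (h : SRSys c) (F G F' G' : Finset E)
    (e e' : E) (ζ : E → ℝ) (a b : ℝ) :
    IntervalIntegrable (fun σ => |Dc c F G e σ ζ - Dc c F' G' e' σ ζ|) volume a b :=
  intervalIntegrable_of_bdd (M := 2)
    ((measurable_Dc_time h F G e ζ).sub (measurable_Dc_time h F' G' e' ζ)).abs
    (fun σ => by
      rw [abs_abs]
      exact abs_Dc_sub_le h F G F' G' e e' σ ζ) a b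

lemma ii_WW {c : Finset E → Finset E → ℝ} (h : SRSys c) (G F F' : Finset E) (ζ : E → ℝ) {τ : ℝ}
    (hτ : 0 ≤ τ) : IntervalIntegrable (fun σ => WW c G F F' σ ζ) volume 0 τ := by
  have hm : Measurable fun σ => WW c G F F' σ ζ := by
    have h1 : Measurable fun σ : ℝ => (σ, ζ) := measurable_id.prodMk measurable_const
    have h2 := (measurable_WW h G F F').comp h1
    exact h2
  refine (intervalIntegrable_const (c := τ ^ 2)).mono_fun' hm.aestronglyMeasurable ?_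
  rw [uIoc_of_le hτ, Filter.EventuallyLE, ae_restrict_iff' measurableSet_Ioc]
  exact Filter.Eventually.of_forall fun σ hσ => WW_le h G F F' hτ hσ ζ

/-- The pointwise comparison of two flows. -/
lemma pointwise_bound {c : Finset E → Finset E → ℝ} (h : SRSys c) {G₁ F F' : Finset E}
    (hF : G₁ ⊆ F) (hF' : G₁ ⊆ F') {e : E} (he : e ∈ G₁) {τ T : ℝ} (hτ : 0 ≤ τ) (hτT : τ ≤ T)
    (ζ : E → ℝ) :
    |flowE (c F) F τ ζ e - flowE (c F') F' τ ζ e|
      ≤ (∫ σ in (0 : ℝ)..T, |Dc c F F e σ ζ - Dc c F G₁ e σ ζ|)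
        + (∫ σ in (0 : ℝ)..T, |Dc c F' F' e σ ζ - Dc c F' G₁ e σ ζ|)
        + ∫ σ in (0 : ℝ)..τ, WW c G₁ F F' σ ζ := by
  have hT : 0 ≤ T := hτ.trans hτT
  have hD : ∀ (F₁ G₂ : Finset E) (a b : ℝ), IntervalIntegrable (fun σ => Dc c F₁ G₂ e σ ζ) volume a b :=
    fun F₁ G₂ a b => intervalIntegrable_of_bdd (M := 1) (measurable_Dc_time h F₁ G₂ e ζ)
      (fun σ => abs_Dc_le h F₁ G₂ e σ ζ) a b
  have h1 : flowE (c F) F τ ζ e - flowE (c F') F' τ ζ e
      = ∫ σ in (0 : ℝ)..τ, (Dc c F F e σ ζ - Dc c F' F' e σ ζ) := by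
    rw [flowE_eq_integral_Dc h F hτ ζ (hF he), flowE_eq_integral_Dc h F' hτ ζ (hF' he),
      intervalIntegral.integral_sub (hD _ _ _ _) (hD _ _ _ _)]
    ring
  rw [h1]
  have h2 : |∫ σ in (0 : ℝ)..τ, (Dc c F F e σ ζ - Dc c F' F' e σ ζ)|
      ≤ ∫ σ in (0 : ℝ)..τ, |Dc c F F e σ ζ - Dc c F' F' e σ ζ| :=
    intervalIntegral.abs_integral_le_integral_abs hτ
  refine h2.trans ?_
  have hmid : ∀ σ ∈ Icc (0 : ℝ) τ, |Dc c F F e σ ζ - Dc c F' F' e σ ζ|
      ≤ |Dc c F F e σ ζ - Dc c F G₁ e σ ζ| + |Dc c F' F' e σ ζ - Dc c F' G₁ e σ ζ|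
        + WW c G₁ F F' σ ζ := by
    intro σ _
    have h3 : |Dc c F G₁ e σ ζ - Dc c F' G₁ e σ ζ| ≤ WW c G₁ F F' σ ζ := by
      unfold Dc WW
      refine aE_lip h G₁ (le_max_right _ _) e (supD_nonneg _ _ _) fun d hd => ?_
      exact abs_le_supD hd
    have h4 : Dc c F F e σ ζ - Dc c F' F' e σ ζ
        = (Dc c F F e σ ζ - Dc c F G₁ e σ ζ) + (Dc c F G₁ e σ ζ - Dc c F' G₁ e σ ζ)
          - (Dc c F' F' e σ ζ - Dc c F' G₁ e σ ζ) := by ring
    rw [h4]
    have h5 := abs_sub ((Dc c F F e σ ζ - Dc c F G₁ e σ ζ) + (Dc c F G₁ e σ ζ - Dc c F' G₁ e σ ζ))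
      (Dc c F' F' e σ ζ - Dc c F' G₁ e σ ζ)
    have h6 := abs_add_le (Dc c F F e σ ζ - Dc c F G₁ e σ ζ) (Dc c F G₁ e σ ζ - Dc c F' G₁ e σ ζ)
    linarith
  have hii1 := ii_abs_Dc_sub h F F F' F' e e ζ 0 τ
  have hii2 := ii_abs_Dc_sub h F F F G₁ e e ζ 0 τ
  have hii3 := ii_abs_Dc_sub h F' F' F' G₁ e e ζ 0 τ
  have hii4 := ii_WW h G₁ F F' ζ hτ
  have h7 := intervalIntegral.integral_mono_on hτ hii1 ((hii2.add hii3).add hii4) hmid
  refine h7.trans ?_
  rw [intervalIntegral.integral_add (hii2.add hii3) hii4, intervalIntegral.integral_add hii2 hii3]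
  have h8 : ∀ (F₁ G₂ : Finset E), ∫ σ in (0 : ℝ)..τ, |Dc c F₁ F₁ e σ ζ - Dc c F₁ G₂ e σ ζ|
      ≤ ∫ σ in (0 : ℝ)..T, |Dc c F₁ F₁ e σ ζ - Dc c F₁ G₂ e σ ζ| := by
    intro F₁ G₂
    have hsplit := intervalIntegral.integral_add_adjacent_intervals
      (ii_abs_Dc_sub h F₁ F₁ F₁ G₂ e e ζ 0 τ) (ii_abs_Dc_sub h F₁ F₁ F₁ G₂ e e ζ τ T)
    have hnn : 0 ≤ ∫ σ in τ..T, |Dc c F₁ F₁ e σ ζ - Dc c F₁ G₂ e σ ζ| :=
      intervalIntegral.integral_nonneg hτT fun σ _ => abs_nonneg _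
    linarith
  linarith [h8 F G₁, h8 F' G₁]

lemma abs_le_young {x κ : ℝ} (hκ : 0 < κ) : |x| ≤ x ^ 2 / (2 * κ) + κ / 2 := by
  have h1 : (|x| - κ) ^ 2 ≥ 0 := sq_nonneg _
  have h2 : |x| ^ 2 = x ^ 2 := sq_abs x
  have h3 : 0 < 2 * κ := by positivity
  have : x ^ 2 / (2 * κ) + κ / 2 - |x| = (|x| - κ) ^ 2 / (2 * κ) := by
    field_simp
    rw [← h2]
    ring
  have h4 : 0 ≤ (|x| - κ) ^ 2 / (2 * κ) := by positivity
  linarith

/-- The expected tail term is controlled by the increment of the energy. -/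
lemma expect_U_le {c : Finset E → Finset E → ℝ} (h : SRSys c) {F G : Finset E} (hGF : G ⊆ F)
    {e : E} (he : e ∈ G) {T : ℝ} (hT : 0 ≤ T) {κ : ℝ} (hκ : 0 < κ) :
    ∫ ζ, (∫ σ in (0 : ℝ)..T, |Dc c F F e σ ζ - Dc c F G e σ ζ|) ∂(gamE E)
      ≤ (Ien c T F e - Ien c T G e) / (2 * κ) + κ * T / 2 := by
  rw [swap_integral (M := 2) (measurable_abs_Dc_sub h F F F G e e) hT (fun σ _ ζ => by
    rw [abs_abs]; exact abs_Dc_sub_le h F F F G e e σ ζ)]
  rw [← ortho_integrated h hGF hT he]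
  have hm1 : Measurable fun σ => ∫ ζ, |Dc c F F e σ ζ - Dc c F G e σ ζ| ∂(gamE E) :=
    measurable_expect (g := fun σ ζ => |Dc c F F e σ ζ - Dc c F G e σ ζ|)
      (measurable_abs_Dc_sub h F F F G e e)
  have hm2 : Measurable fun σ => ∫ ζ, (Dc c F F e σ ζ - Dc c F G e σ ζ) ^ 2 ∂(gamE E) :=
    measurable_expect (g := fun σ ζ => (Dc c F F e σ ζ - Dc c F G e σ ζ) ^ 2) (diff_sq_meas h F G e)
  have hii1 : IntervalIntegrable (fun σ => ∫ ζ, |Dc c F F e σ ζ - Dc c F G e σ ζ| ∂(gamE E))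
      volume 0 T :=
    intervalIntegrable_of_bdd (M := 2) hm1 (fun σ => abs_expect_le fun ζ => by
      rw [abs_abs]; exact abs_Dc_sub_le h F F F G e e σ ζ) 0 T
  have hii2 : IntervalIntegrable (fun σ => ∫ ζ, (Dc c F F e σ ζ - Dc c F G e σ ζ) ^ 2 ∂(gamE E))
      volume 0 T :=
    intervalIntegrable_of_bdd (M := 4) hm2 (fun σ => abs_expect_le fun ζ =>
      abs_diff_sq_le h F G e σ ζ) 0 T
  have hpt : ∀ σ ∈ Icc (0 : ℝ) T, ∫ ζ, |Dc c F F e σ ζ - Dc c F G e σ ζ| ∂(gamE E)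
      ≤ (∫ ζ, (Dc c F F e σ ζ - Dc c F G e σ ζ) ^ 2 ∂(gamE E)) / (2 * κ) + κ / 2 := by
    intro σ _
    have hi1 : Integrable (fun ζ => |Dc c F F e σ ζ - Dc c F G e σ ζ|) (gamE E) :=
      integrable_of_bdd (M := 2) ((measurable_Dc_space h F F e σ).sub
        (measurable_Dc_space h F G e σ)).abs (fun ζ => by
          rw [abs_abs]; exact abs_Dc_sub_le h F F F G e e σ ζ)
    have hi2 : Integrable (fun ζ => (Dc c F F e σ ζ - Dc c F G e σ ζ) ^ 2) (gamE E) :=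
      integrable_of_bdd (M := 4) (((measurable_Dc_space h F F e σ).sub
        (measurable_Dc_space h F G e σ)).pow_const 2) (fun ζ => abs_diff_sq_le h F G e σ ζ)
    have hi3 : Integrable (fun ζ => (Dc c F F e σ ζ - Dc c F G e σ ζ) ^ 2 / (2 * κ) + κ / 2)
        (gamE E) := (hi2.div_const _).add (integrable_const _)
    have := integral_mono hi1 hi3 (fun ζ => abs_le_young (x := Dc c F F e σ ζ - Dc c F G e σ ζ) hκ)
    refine this.trans (le_of_eq ?_)
    have e1 : ∫ ζ, ((Dc c F F e σ ζ - Dc c F G e σ ζ) ^ 2 / (2 * κ) + κ / 2) ∂(gamE E)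
        = ∫ ζ, (Dc c F F e σ ζ - Dc c F G e σ ζ) ^ 2 / (2 * κ) ∂(gamE E)
          + ∫ ζ, κ / 2 ∂(gamE E) := integral_add (hi2.div_const _) (integrable_const _)
    rw [e1, integral_div]
    simp
  have hmono := intervalIntegral.integral_mono_on hT hii1
    ((hii2.div_const (2 * κ)).add (intervalIntegrable_const (c := κ / 2))) hpt
  refine hmono.trans (le_of_eq ?_)
  rw [intervalIntegral.integral_add (hii2.div_const (2 * κ)) intervalIntegrable_const,
    intervalIntegral.integral_div]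
  simp
  ring

/-- The expected comparison term. -/
lemma expect_V_le {c : Finset E → Finset E → ℝ} (h : SRSys c) {G F F' : Finset E} {τ T : ℝ}
    (hτ : 0 ≤ τ) (hτT : τ ≤ T) {b : ℝ → ℝ} (hbc : Continuous b) (hb0 : ∀ σ, 0 ≤ σ → 0 ≤ b σ)
    {δ₁ : ℝ} (hδ₁ : 0 ≤ δ₁)
    (hP : ∀ σ, 0 ≤ σ → σ ≤ T →
      ∫ ζ, supD G (flowE (c F) F σ ζ) (flowE (c F') F' σ ζ) ∂(gamE E) ≤ b σ + δ₁) :
    ∫ ζ, (∫ σ in (0 : ℝ)..τ, WW c G F F' σ ζ) ∂(gamE E)
      ≤ (∫ σ in (0 : ℝ)..τ, T / 2 * b σ) + T / 2 * δ₁ * τ := by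
  have hT : 0 ≤ T := hτ.trans hτT
  rw [swap_integral (M := τ ^ 2) (measurable_WW h G F F') hτ
    (fun σ hσ ζ => WW_le h G F F' hτ hσ ζ)]
  have hpt : ∀ σ ∈ Icc (0 : ℝ) τ, ∫ ζ, WW c G F F' σ ζ ∂(gamE E) ≤ T / 2 * b σ + T / 2 * δ₁ := by
    intro σ hσ
    unfold WW
    rw [max_eq_left hσ.1, integral_const_mul, integral_const_mul]
    have h1 := hP σ hσ.1 (hσ.2.trans hτT)
    have h2 : 0 ≤ b σ + δ₁ := add_nonneg (hb0 σ hσ.1) hδ₁
    have h3 : σ ≤ T := hσ.2.trans hτT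
    have h4 : σ * ∫ ζ, supD G (flowE (c F) F σ ζ) (flowE (c F') F' σ ζ) ∂(gamE E)
        ≤ T * (b σ + δ₁) :=
      mul_le_mul h3 h1 (integral_nonneg fun ζ => supD_nonneg _ _ _) hT
    linarith
  have hmE : Measurable fun σ => ∫ ζ, WW c G F F' σ ζ ∂(gamE E) :=
    measurable_expect (g := fun σ ζ => WW c G F F' σ ζ) (measurable_WW h G F F')
  have hiiL : IntervalIntegrable (fun σ => ∫ ζ, WW c G F F' σ ζ ∂(gamE E)) volume 0 τ := by
    refine (intervalIntegrable_const (c := τ ^ 2)).mono_fun' hmE.aestronglyMeasurable ?_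
    rw [uIoc_of_le hτ, Filter.EventuallyLE, ae_restrict_iff' measurableSet_Ioc]
    exact Filter.Eventually.of_forall fun σ hσ =>
      abs_expect_le fun ζ => WW_le h G F F' hτ hσ ζ
  have hiiR : IntervalIntegrable (fun σ => T / 2 * b σ + T / 2 * δ₁) volume 0 τ :=
    ((continuous_const.mul hbc).add continuous_const).intervalIntegrable _ _
  refine (intervalIntegral.integral_mono_on hτ hiiL hiiR hpt).trans (le_of_eq ?_)
  have hcc : IntervalIntegrable (fun σ => T / 2 * b σ) volume 0 τ :=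
    (continuous_const.mul hbc).intervalIntegrable _ _
  have hadd := intervalIntegral.integral_add hcc (intervalIntegrable_const (c := T / 2 * δ₁))
  rw [hadd]
  simp
  ring

/-- The statement proved by induction. -/
def PTower (c : Finset E → Finset E → ℝ) (T : ℝ) (b : ℝ → ℝ) : Prop :=
  ∀ A : Finset E, ∀ δ : ℝ, 0 < δ → ∃ G : Finset E, A ⊆ G ∧ ∀ F F', G ⊆ F → G ⊆ F' →
    ∀ τ, 0 ≤ τ → τ ≤ T →
      ∫ ζ, supD A (flowE (c F) F τ ζ) (flowE (c F') F' τ ζ) ∂(gamE E) ≤ b τ + δ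

lemma PTower_base {c : Finset E → Finset E → ℝ} (h : SRSys c) (T : ℝ) : PTower c T fun τ => τ := by
  intro A δ hδ
  refine ⟨A, subset_rfl, fun F F' _ _ τ hτ _ => ?_⟩
  have h1 : ∫ ζ, supD A (flowE (c F) F τ ζ) (flowE (c F') F' τ ζ) ∂(gamE E) ≤ ∫ ζ, τ ∂(gamE E) :=
    integral_mono_of_nonneg (Filter.Eventually.of_forall fun ζ => supD_nonneg _ _ _)
      (integrable_const τ) (Filter.Eventually.of_forall fun ζ => supD_flow_le h A F F' hτ ζ)
  simp at h1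
  linarith

/-- **The inductive step.** -/
theorem PTower_step {c : Finset E → Finset E → ℝ} (h : SRSys c) {T : ℝ} (hT : 0 ≤ T) {b : ℝ → ℝ}
    (hbc : Continuous b) (hb0 : ∀ σ, 0 ≤ σ → 0 ≤ b σ) (hP : PTower c T b) :
    PTower c T fun τ => ∫ σ in (0 : ℝ)..τ, T / 2 * b σ := by
  intro A δ hδ
  set N : ℝ := (A.card : ℝ) with hN
  have hN0 : 0 ≤ N := by positivity
  set M : ℝ := N + 1 with hM
  set R : ℝ := T + 1 with hR
  have hMpos : 0 < M := by positivity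
  have hRpos : 0 < R := by positivity
  set κ : ℝ := δ / (8 * M * R) with hκ
  have hκpos : 0 < κ := by positivity
  set ε : ℝ := κ * δ / (4 * M) with hε
  have hεpos : 0 < ε := by positivity
  set δ₁ : ℝ := δ / (2 * R ^ 2) with hδ₁
  have hδ₁pos : 0 < δ₁ := by positivity
  -- the windows of the tail terms
  have hG₀ : ∀ e : E, ∃ G₀ : Finset E, e ∈ G₀ ∧ ∀ F, G₀ ⊆ F → Ien c T F e - Ien c T G₀ e ≤ ε :=
    fun e => exists_window_Ien h hT e hεpos
  choose G₀ hG₀e hG₀b using hG₀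
  set G₁ : Finset E := A ∪ A.biUnion G₀ with hG₁
  have hAG₁ : A ⊆ G₁ := Finset.subset_union_left
  have hG₀G₁ : ∀ e ∈ A, G₀ e ⊆ G₁ := fun e he =>
    (Finset.subset_biUnion_of_mem G₀ he).trans Finset.subset_union_right
  obtain ⟨G, hG₁G, hG⟩ := hP G₁ δ₁ hδ₁pos
  refine ⟨G, hAG₁.trans hG₁G, fun F F' hF hF' τ hτ hτT => ?_⟩
  have hG₁F : G₁ ⊆ F := hG₁G.trans hF
  have hG₁F' : G₁ ⊆ F' := hG₁G.trans hF'
  -- the tail term
  have hU : ∀ (F₁ : Finset E), G₁ ⊆ F₁ → ∀ e ∈ A,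
      ∫ ζ, (∫ σ in (0 : ℝ)..T, |Dc c F₁ F₁ e σ ζ - Dc c F₁ G₁ e σ ζ|) ∂(gamE E)
        ≤ δ / (8 * M) + κ * T / 2 := by
    intro F₁ hF₁ e he
    have heG₁ : e ∈ G₁ := hAG₁ he
    have h1 := expect_U_le h hF₁ heG₁ hT hκpos
    refine h1.trans ?_
    have h2 : Ien c T F₁ e - Ien c T G₁ e ≤ ε := by
      have h3 := hG₀b e F₁ ((hG₀G₁ e he).trans hF₁)
      have h4 := Ien_mono h (hG₀G₁ e he) hT (hG₀e e)
      linarith
    have h5 : (Ien c T F₁ e - Ien c T G₁ e) / (2 * κ) ≤ ε / (2 * κ) :=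
      div_le_div_of_nonneg_right h2 (by positivity)
    have h6 : ε / (2 * κ) = δ / (8 * M) := by
      rw [hε]
      field_simp
      ring
    linarith
  -- integrability of the terms
  have hiU : ∀ (F₁ : Finset E) (e : E), Integrable
      (fun ζ => ∫ σ in (0 : ℝ)..T, |Dc c F₁ F₁ e σ ζ - Dc c F₁ G₁ e σ ζ|) (gamE E) :=
    fun F₁ e => integrable_time_integral (M := 2) (measurable_abs_Dc_sub h F₁ F₁ F₁ G₁ e e) hT
      (fun σ _ ζ => by rw [abs_abs]; exact abs_Dc_sub_le h F₁ F₁ F₁ G₁ e e σ ζ)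
  have hiV : Integrable (fun ζ => ∫ σ in (0 : ℝ)..τ, WW c G₁ F F' σ ζ) (gamE E) :=
    integrable_time_integral (M := τ ^ 2) (measurable_WW h G₁ F F') hτ
      (fun σ hσ ζ => WW_le h G₁ F F' hτ hσ ζ)
  have hU0 : ∀ (F₁ : Finset E) (e : E) (ζ : E → ℝ),
      0 ≤ ∫ σ in (0 : ℝ)..T, |Dc c F₁ F₁ e σ ζ - Dc c F₁ G₁ e σ ζ| :=
    fun F₁ e ζ => intervalIntegral.integral_nonneg hT fun σ _ => abs_nonneg _
  have hV0 : ∀ ζ : E → ℝ, 0 ≤ ∫ σ in (0 : ℝ)..τ, WW c G₁ F F' σ ζ :=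
    fun ζ => intervalIntegral.integral_nonneg hτ fun σ _ => WW_nonneg c G₁ F F' σ ζ
  -- the pointwise bound on the sup distance
  have hpt : ∀ ζ : E → ℝ, supD A (flowE (c F) F τ ζ) (flowE (c F') F' τ ζ)
      ≤ ∑ e ∈ A, ((∫ σ in (0 : ℝ)..T, |Dc c F F e σ ζ - Dc c F G₁ e σ ζ|)
          + (∫ σ in (0 : ℝ)..T, |Dc c F' F' e σ ζ - Dc c F' G₁ e σ ζ|))
        + ∫ σ in (0 : ℝ)..τ, WW c G₁ F F' σ ζ := by
    intro ζ
    have hsum0 : ∀ e ∈ A, 0 ≤ (∫ σ in (0 : ℝ)..T, |Dc c F F e σ ζ - Dc c F G₁ e σ ζ|)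
          + (∫ σ in (0 : ℝ)..T, |Dc c F' F' e σ ζ - Dc c F' G₁ e σ ζ|) :=
      fun e _ => add_nonneg (hU0 F e ζ) (hU0 F' e ζ)
    refine supD_le (add_nonneg (Finset.sum_nonneg hsum0) (hV0 ζ)) fun e he => ?_
    have h1 := pointwise_bound h hG₁F hG₁F' (hAG₁ he) hτ hτT ζ
    have h2 := Finset.single_le_sum hsum0 he
    linarith
  have hiSum : Integrable (fun ζ => ∑ e ∈ A, ((∫ σ in (0 : ℝ)..T, |Dc c F F e σ ζ - Dc c F G₁ e σ ζ|)
          + (∫ σ in (0 : ℝ)..T, |Dc c F' F' e σ ζ - Dc c F' G₁ e σ ζ|))) (gamE E) :=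
    integrable_finset_sum _ fun e _ => (hiU F e).add (hiU F' e)
  have hmain : ∫ ζ, supD A (flowE (c F) F τ ζ) (flowE (c F') F' τ ζ) ∂(gamE E)
      ≤ ∫ ζ, (∑ e ∈ A, ((∫ σ in (0 : ℝ)..T, |Dc c F F e σ ζ - Dc c F G₁ e σ ζ|)
          + (∫ σ in (0 : ℝ)..T, |Dc c F' F' e σ ζ - Dc c F' G₁ e σ ζ|))
        + ∫ σ in (0 : ℝ)..τ, WW c G₁ F F' σ ζ) ∂(gamE E) :=
    integral_mono_of_nonneg (Filter.Eventually.of_forall fun ζ => supD_nonneg _ _ _)
      (hiSum.add hiV) (Filter.Eventually.of_forall hpt)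
  refine hmain.trans ?_
  have hsumeq : ∫ ζ, ∑ e ∈ A, ((∫ σ in (0 : ℝ)..T, |Dc c F F e σ ζ - Dc c F G₁ e σ ζ|)
          + (∫ σ in (0 : ℝ)..T, |Dc c F' F' e σ ζ - Dc c F' G₁ e σ ζ|)) ∂(gamE E)
      = ∑ e ∈ A, ∫ ζ, ((∫ σ in (0 : ℝ)..T, |Dc c F F e σ ζ - Dc c F G₁ e σ ζ|)
          + (∫ σ in (0 : ℝ)..T, |Dc c F' F' e σ ζ - Dc c F' G₁ e σ ζ|)) ∂(gamE E) :=
    integral_finset_sum A fun e _ => (hiU F e).add (hiU F' e)
  rw [integral_add hiSum hiV, hsumeq]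
  have hsum : ∑ e ∈ A, ∫ ζ, ((∫ σ in (0 : ℝ)..T, |Dc c F F e σ ζ - Dc c F G₁ e σ ζ|)
          + (∫ σ in (0 : ℝ)..T, |Dc c F' F' e σ ζ - Dc c F' G₁ e σ ζ|)) ∂(gamE E)
      ≤ N * (2 * (δ / (8 * M) + κ * T / 2)) := by
    have : ∀ e ∈ A, ∫ ζ, ((∫ σ in (0 : ℝ)..T, |Dc c F F e σ ζ - Dc c F G₁ e σ ζ|)
          + (∫ σ in (0 : ℝ)..T, |Dc c F' F' e σ ζ - Dc c F' G₁ e σ ζ|)) ∂(gamE E)
        ≤ 2 * (δ / (8 * M) + κ * T / 2) := by
      intro e he
      rw [integral_add (hiU F e) (hiU F' e)]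
      linarith [hU F hG₁F e he, hU F' hG₁F' e he]
    refine (Finset.sum_le_sum this).trans (le_of_eq ?_)
    rw [Finset.sum_const, nsmul_eq_mul]
  have hV : ∫ ζ, (∫ σ in (0 : ℝ)..τ, WW c G₁ F F' σ ζ) ∂(gamE E)
      ≤ (∫ σ in (0 : ℝ)..τ, T / 2 * b σ) + T / 2 * δ₁ * τ :=
    expect_V_le h hτ hτT hbc hb0 hδ₁pos.le fun σ h1 h2 => hG F F' hF hF' σ h1 h2
  -- arithmetic
  have hTR : T ≤ R := by rw [hR]; linarith
  have hNM : N ≤ M := by rw [hM]; linarith
  have a1 : N * (2 * (δ / (8 * M))) ≤ δ / 4 := by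
    have : N * (2 * (δ / (8 * M))) = (N / M) * (δ / 4) := by
      field_simp
      ring
    rw [this]
    have h2 : N / M ≤ 1 := (div_le_one hMpos).mpr hNM
    nlinarith
  have a2 : N * (2 * (κ * T / 2)) ≤ δ / 8 := by
    have h1 : N * T ≤ M * R := mul_le_mul hNM hTR hT hMpos.le
    have h2 : M * R * κ = δ / 8 := by
      rw [hκ]
      field_simp
    have h3 := mul_le_mul_of_nonneg_right h1 hκpos.le
    nlinarith
  have a3 : T / 2 * δ₁ * τ ≤ δ / 4 := by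
    have h1 : τ ≤ R := hτT.trans hTR
    have h2 : T * τ ≤ R * R := mul_le_mul hTR h1 hτ hRpos.le
    have h3 : R * R * δ₁ = δ / 2 := by
      rw [hδ₁]
      field_simp
    have h4 := mul_le_mul_of_nonneg_right h2 hδ₁pos.le
    nlinarith
  simp only []
  nlinarith [hsum, hV, a1, a2, a3]

/-- The bounds in the induction. -/
noncomputable def bm (T : ℝ) (m : ℕ) (τ : ℝ) : ℝ := (T / 2) ^ m * τ ^ (m + 1) / (m + 1).factorial

lemma bm_integral (T : ℝ) (m : ℕ) (τ : ℝ) :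
    ∫ σ in (0 : ℝ)..τ, T / 2 * bm T m σ = bm T (m + 1) τ := by
  unfold bm
  have h1 : ∀ σ : ℝ, T / 2 * ((T / 2) ^ m * σ ^ (m + 1) / ((m + 1).factorial : ℝ))
      = (T / 2) ^ (m + 1) / ((m + 1).factorial : ℝ) * σ ^ (m + 1) := by
    intro σ
    rw [pow_succ (T / 2) m]
    ring
  simp_rw [h1]
  rw [intervalIntegral.integral_const_mul, integral_pow]
  have h2 : ((m + 1 + 1).factorial : ℝ) = ((m : ℝ) + 2) * ((m + 1).factorial : ℝ) := by
    rw [Nat.factorial_succ (m + 1)]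
    push_cast
    ring
  rw [h2]
  have h3 : ((m + 1).factorial : ℝ) ≠ 0 := by positivity
  have h4 : (m : ℝ) + 2 ≠ 0 := by positivity
  have h5 : ((m + 1 : ℕ) : ℝ) + 1 = (m : ℝ) + 2 := by push_cast; ring
  rw [h5]
  simp only [ne_eq, add_eq_zero, one_ne_zero, and_false, not_false_eq_true, zero_pow, sub_zero]
  field_simp

lemma continuous_bm (T : ℝ) (m : ℕ) : Continuous (bm T m) := by
  unfold bm
  fun_prop

lemma bm_nonneg {T : ℝ} (hT : 0 ≤ T) (m : ℕ) {σ : ℝ} (hσ : 0 ≤ σ) : 0 ≤ bm T m σ := by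
  unfold bm
  positivity

lemma PTower_bm {c : Finset E → Finset E → ℝ} (h : SRSys c) {T : ℝ} (hT : 0 ≤ T) (m : ℕ) :
    PTower c T (bm T m) := by
  induction m with
  | zero =>
    have : bm T 0 = fun τ => τ := by
      funext τ
      simp [bm]
    rw [this]
    exact PTower_base h T
  | succ m ih =>
    have h1 := PTower_step h hT (continuous_bm T m) (fun σ hσ => bm_nonneg hT m hσ) ih
    have h2 : (fun τ => ∫ σ in (0 : ℝ)..τ, T / 2 * bm T m σ) = bm T (m + 1) := by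
      funext τ
      exact bm_integral T m τ
    rw [h2] at h1
    exact h1

/-- **The tower estimate.** The flows of all large enough windows are `L¹`-close. -/
theorem tower {c : Finset E → Finset E → ℝ} (h : SRSys c) {T : ℝ} (hT : 0 ≤ T) (A : Finset E)
    {δ : ℝ} (hδ : 0 < δ) :
    ∃ G : Finset E, A ⊆ G ∧ ∀ F F', G ⊆ F → G ⊆ F' → ∀ τ, 0 ≤ τ → τ ≤ T →
      ∫ ζ, supD A (flowE (c F) F τ ζ) (flowE (c F') F' τ ζ) ∂(gamE E) ≤ δ := by
  have hlim := FloorSemiring.tendsto_pow_div_factorial_atTop (T * (T / 2))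
  have hlim2 := hlim.const_mul T
  rw [mul_zero] at hlim2
  obtain ⟨m, hm⟩ := (hlim2.eventually (gt_mem_nhds (half_pos hδ))).exists
  obtain ⟨G, hAG, hG⟩ := PTower_bm h hT m A (δ / 2) (half_pos hδ)
  refine ⟨G, hAG, fun F F' hF hF' τ hτ hτT => ?_⟩
  have h1 := hG F F' hF hF' τ hτ hτT
  have h2 : bm T m τ ≤ T * ((T * (T / 2)) ^ m / (m.factorial : ℝ)) := by
    unfold bm
    have h3 : τ ^ (m + 1) ≤ T ^ (m + 1) := pow_le_pow_left₀ hτ hτT _
    have h4 : ((m.factorial : ℝ)) ≤ ((m + 1).factorial : ℝ) := by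
      exact_mod_cast Nat.factorial_le (Nat.le_succ m)
    have h5 : (0 : ℝ) < (m.factorial : ℝ) := by positivity
    calc (T / 2) ^ m * τ ^ (m + 1) / ((m + 1).factorial : ℝ)
        ≤ (T / 2) ^ m * T ^ (m + 1) / ((m + 1).factorial : ℝ) := by
          gcongr
      _ ≤ (T / 2) ^ m * T ^ (m + 1) / (m.factorial : ℝ) := by
          gcongr
      _ = T * ((T * (T / 2)) ^ m / (m.factorial : ℝ)) := by
          rw [mul_pow, pow_succ]
          ring
  linarith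

end Crest.Agent.Lib.SRFlow
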