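import Crest.Agent.Lib.SRFlow.Law
import Crest.Agent.Lib.SRFlow.Stable

/-!
# Consistent systems of strongly Rayleigh windows

An `SRSys` on a type `E` is a consistent family of stable laws on the subsets of finite
windows. All objects are transported to functions on `E → ℝ`, so that windows can be compared
without any change of index type.
-/

set_option autoImplicit false
set_option linter.unusedSectionVars false
set_option linter.unusedSimpArgs false
set_option linter.unusedVariables false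

namespace Crest.Agent.Lib.SRFlow

open Finset MeasureTheory Set ProbabilityTheory
open scoped ENNReal

variable {E : Type*} [DecidableEq E]

/-- The indicator of `e ∈ S`, for arbitrary index types. -/
def ind' (e : E) (S : Finset E) : ℝ := if e ∈ S then 1 else 0

/-- The coefficient function on the subsets of the index type `↥F`. -/
noncomputable def wc (cF : Finset E → ℝ) (F : Finset E) : Finset ↥F → ℝ :=
  fun S' => cF (S'.map (Function.Embedding.subtype _))

lemma sum_powerset_eq {M : Type*} [AddCommMonoid M] (F : Finset E) (f : Finset E → M) :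
    ∑ S' : Finset ↥F, f (S'.map (Function.Embedding.subtype _)) = ∑ S ∈ F.powerset, f S := by
  refine Finset.sum_bij (fun S' _ => S'.map (Function.Embedding.subtype _)) ?_ ?_ ?_ ?_
  · intro S' _
    rw [Finset.mem_powerset]
    intro x hx
    obtain ⟨y, _, rfl⟩ := Finset.mem_map.mp hx
    exact y.2
  · intro S₁ _ S₂ _ h
    exact Finset.map_injective _ h
  · intro S hS
    refine ⟨S.subtype (· ∈ F), Finset.mem_univ _, ?_⟩
    rw [Finset.subtype_map]
    exact Finset.filter_true_of_mem fun x hx => (Finset.mem_powerset.mp hS) hx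
  · intro S' _
    rfl

/-- A consistent system of stable laws on finite windows. -/
structure SRSys (c : Finset E → Finset E → ℝ) : Prop where
  nonneg : ∀ F S, 0 ≤ c F S
  sum_one : ∀ F, ∑ S ∈ F.powerset, c F S = 1
  consistent : ∀ F F', F ⊆ F' → ∀ S, S ⊆ F →
    c F S = ∑ S' ∈ F'.powerset with S' ∩ F = S, c F' S'
  cov : ∀ F, CovBd (wc (c F) F) (1 / 2)

lemma SRSys.sum_wc {c : Finset E → Finset E → ℝ} (h : SRSys c) (F : Finset E) :
    ∑ S', wc (c F) F S' = 1 := by
  rw [← h.sum_one F, ← sum_powerset_eq]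
  rfl

lemma SRSys.adm {c : Finset E → Finset E → ℝ} (h : SRSys c) (F : Finset E) :
    Adm (wc (c F) F) :=
  ⟨fun _ => h.nonneg _ _, by rw [h.sum_wc F]; exact zero_lt_one⟩

lemma SRSys.covBd {c : Finset E → Finset E → ℝ} (h : SRSys c) (F : Finset E) :
    CovBd (wc (c F) F) (1 / 2) :=
  h.cov F

/-- A family of stable laws gives an `SRSys`. -/
theorem SRSys.of_stable {c : Finset E → Finset E → ℝ} (hn : ∀ F S, 0 ≤ c F S)
    (hs : ∀ F, ∑ S ∈ F.powerset, c F S = 1)
    (hcons : ∀ F F', F ⊆ F' → ∀ S, S ⊆ F → c F S = ∑ S' ∈ F'.powerset with S' ∩ F = S, c F' S')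
    (hst : ∀ F, Stab (wc (c F) F)) : SRSys c := by
  refine ⟨hn, hs, hcons, fun F k e => ?_⟩
  have hadm : Adm (wc (c F) F) := by
    refine ⟨fun _ => hn _ _, ?_⟩
    have h1 : ∑ S', wc (c F) F S' = 1 := by
      rw [← hs F, ← sum_powerset_eq]
      rfl
    rw [h1]
    exact zero_lt_one
  exact covBound_of_stable (hst F) hadm k e

/-! ### Objects on `E → ℝ` -/

/-- The flow in the window `F`; coordinates outside the window do not move. -/
noncomputable def flowE (cF : Finset E → ℝ) (F : Finset E) (τ : ℝ) (ζ : E → ℝ) : E → ℝ :=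
  fun e => if he : e ∈ F then flowV (wc cF F) τ (F.restrict ζ) ⟨e, he⟩ else ζ e

/-- The drift of the window `F`. -/
noncomputable def aE (cF : Finset E → ℝ) (F : Finset E) (σ : ℝ) (e : E) (z : E → ℝ) : ℝ :=
  if he : e ∈ F then fld (wc cF F) σ (F.restrict z) ⟨e, he⟩ else 0

lemma restrict_flowE (cF : Finset E → ℝ) (F : Finset E) (τ : ℝ) (ζ : E → ℝ) :
    F.restrict (flowE cF F τ ζ) = flowV (wc cF F) τ (F.restrict ζ) := by
  funext ⟨i, hi⟩
  simp [flowE, hi, Finset.restrict]

lemma aE_nonneg {c : Finset E → Finset E → ℝ} (h : SRSys c) (F : Finset E) (σ : ℝ) (e : E)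
    (z : E → ℝ) : 0 ≤ aE (c F) F σ e z := by
  unfold aE
  split_ifs with he
  · exact fld_nonneg (h.adm F) _ _ _
  · exact le_rfl

lemma aE_le_one {c : Finset E → Finset E → ℝ} (h : SRSys c) (F : Finset E) (σ : ℝ) (e : E)
    (z : E → ℝ) : aE (c F) F σ e z ≤ 1 := by
  unfold aE
  split_ifs with he
  · exact fld_le_one (h.adm F) _ _ _
  · exact zero_le_one

lemma abs_aE_le {c : Finset E → Finset E → ℝ} (h : SRSys c) (F : Finset E) (σ : ℝ) (e : E)
    (z : E → ℝ) : |aE (c F) F σ e z| ≤ 1 := by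
  rw [abs_of_nonneg (aE_nonneg h F σ e z)]
  exact aE_le_one h F σ e z

/-- The dimension-free Lipschitz estimate for the drift. -/
lemma aE_lip {c : Finset E → Finset E → ℝ} (h : SRSys c) (F : Finset E) {σ : ℝ} (hσ : 0 ≤ σ)
    (e : E) {z z' : E → ℝ} {B : ℝ} (hB0 : 0 ≤ B) (hB : ∀ d ∈ F, |z d - z' d| ≤ B) :
    |aE (c F) F σ e z - aE (c F) F σ e z'| ≤ 1 / 2 * (σ * B) := by
  unfold aE
  split_ifs with he
  · have h1 := abs_fld_sub_le (h.adm F) (h.covBd F) σ (F.restrict z) (F.restrict z') ⟨e, he⟩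
    refine h1.trans ?_
    rw [abs_of_nonneg hσ]
    have h2 : ‖F.restrict z - F.restrict z'‖ ≤ B := by
      refine (pi_norm_le_iff_of_nonneg hB0).mpr fun i => ?_
      exact hB i i.2
    have h3 := mul_le_mul_of_nonneg_left h2 hσ
    have h4 : (0 : ℝ) ≤ 1 / 2 := by norm_num
    exact mul_le_mul_of_nonneg_left h3 h4
  · simp
    positivity

/-- The integral equation for the flow. -/
lemma flowE_integral {c : Finset E → Finset E → ℝ} (h : SRSys c) (F : Finset E) {τ : ℝ}
    (hτ : 0 ≤ τ) (ζ : E → ℝ) {e : E} (he : e ∈ F) :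
    flowE (c F) F τ ζ e = ζ e + ∫ σ in (0 : ℝ)..τ, aE (c F) F σ e (flowE (c F) F σ ζ) := by
  have h1 := flowV_integral (h.adm F) (by norm_num) (h.covBd F) hτ (F.restrict ζ) ⟨e, he⟩
  have hL : flowE (c F) F τ ζ e = flowV (wc (c F) F) τ (F.restrict ζ) ⟨e, he⟩ := dif_pos he
  have hR : ∀ σ, aE (c F) F σ e (flowE (c F) F σ ζ)
      = fld (wc (c F) F) σ (flowV (wc (c F) F) σ (F.restrict ζ)) ⟨e, he⟩ := by
    intro σ
    unfold aE
    rw [dif_pos he, restrict_flowE]
  rw [hL]
  simp_rw [hR]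
  exact h1

lemma flowE_increment {c : Finset E → Finset E → ℝ} (h : SRSys c) (F : Finset E) {τ τ' : ℝ}
    (hτ : 0 ≤ τ) (hττ' : τ ≤ τ') (ζ : E → ℝ) (e : E) :
    flowE (c F) F τ ζ e ≤ flowE (c F) F τ' ζ e ∧
      flowE (c F) F τ' ζ e ≤ flowE (c F) F τ ζ e + (τ' - τ) := by
  unfold flowE
  split_ifs with he
  · exact flowV_increment (h.adm F) (by norm_num) (h.covBd F) hτ hττ' (F.restrict ζ) ⟨e, he⟩
  · exact ⟨le_rfl, by linarith⟩

lemma flowE_zero {c : Finset E → Finset E → ℝ} (h : SRSys c) (F : Finset E) (ζ : E → ℝ) :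
    flowE (c F) F 0 ζ = ζ := by
  funext e
  unfold flowE
  split_ifs with he
  · rw [flowV_zero (h.adm F) (by norm_num) (h.covBd F)]
    rfl
  · rfl

/-! ### Locality -/

/-- `f` only depends on the coordinates in `F`. -/
def IsLoc (F : Finset E) (f : (E → ℝ) → ℝ) : Prop :=
  ∀ z z', (∀ i ∈ F, z i = z' i) → f z = f z'

lemma IsLoc.mono {F F' : Finset E} (hFF' : F ⊆ F') {f : (E → ℝ) → ℝ} (h : IsLoc F f) :
    IsLoc F' f := fun z z' hz => h z z' fun i hi => hz i (hFF' hi)

/-- Extension by zero. -/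
noncomputable def extZ (F : Finset E) (w : ↥F → ℝ) : E → ℝ :=
  fun i => if h : i ∈ F then w ⟨i, h⟩ else 0

lemma measurable_extZ (F : Finset E) : Measurable (extZ F) := by
  refine measurable_pi_lambda _ fun i => ?_
  unfold extZ
  by_cases h : i ∈ F
  · simp only [h, dif_pos]
    exact measurable_pi_apply _
  · simp only [h, dif_neg, not_false_iff]
    exact measurable_const

lemma restrict_extZ (F : Finset E) (w : ↥F → ℝ) : F.restrict (extZ F w) = w := by
  funext ⟨i, hi⟩
  simp [extZ, hi, Finset.restrict]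

lemma IsLoc.eq_ext {F : Finset E} {f : (E → ℝ) → ℝ} (h : IsLoc F f) (z : E → ℝ) :
    f (extZ F (F.restrict z)) = f z :=
  h _ _ fun i hi => by simp [extZ, hi, Finset.restrict]

lemma isLoc_aE (cF : Finset E → ℝ) (F : Finset E) (σ : ℝ) (e : E) : IsLoc F (aE cF F σ e) := by
  intro z z' hz
  have : F.restrict z = F.restrict z' := by
    funext i
    exact hz i i.2
  unfold aE
  rw [this]

lemma continuous_aE_window {c : Finset E → Finset E → ℝ} (h : SRSys c) (F : Finset E) (e : E) :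
    Continuous fun p : ℝ × (↥F → ℝ) =>
      if he : e ∈ F then fld (wc (c F) F) p.1 p.2 ⟨e, he⟩ else 0 := by
  by_cases he : e ∈ F
  · simp only [he, dif_pos]
    have h1 := (continuous_apply (⟨e, he⟩ : ↥F)).comp (continuous_fld (h.adm F))
    exact h1
  · simp only [he, dif_neg, not_false_iff]
    exact continuous_const

lemma measurable_restrict' (F : Finset E) :
    Measurable (F.restrict : (E → ℝ) → (↥F → ℝ)) :=
  Finset.measurable_restrict F

lemma measurable_aE {c : Finset E → Finset E → ℝ} (h : SRSys c) (F : Finset E) (σ : ℝ) (e : E) :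
    Measurable (aE (c F) F σ e) := by
  have h1 : Measurable fun z : E → ℝ => (σ, F.restrict z) :=
    measurable_const.prodMk (measurable_restrict' F)
  have h2 := (continuous_aE_window h F e).measurable.comp h1
  exact h2

/-! ### The noise -/

/-- The product of standard Gaussians on `E → ℝ`. -/
noncomputable def gamE (E : Type*) : Measure (E → ℝ) :=
  Measure.infinitePi fun _ => gaussianReal 0 1

instance gamE_isProb : IsProbabilityMeasure (gamE E) := by
  unfold gamE; infer_instance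

lemma gamE_map_restrict (F : Finset E) : (gamE E).map F.restrict = gam ↥F :=
  Measure.infinitePi_map_restrict _

lemma integral_restrict (F : Finset E) {g : (↥F → ℝ) → ℝ} (hg : Measurable g) :
    ∫ y, g (F.restrict y) ∂(gamE E) = ∫ w, g w ∂(gam ↥F) := by
  rw [← gamE_map_restrict F, integral_map (measurable_restrict' F).aemeasurable
    hg.aestronglyMeasurable]

/-- The position `τ 1_S + y` on `E`. -/
def shiftE (τ : ℝ) (S : Finset E) (y : E → ℝ) : E → ℝ :=
  fun i => (if i ∈ S then τ else 0) + y i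

lemma measurable_shiftE (τ : ℝ) (S : Finset E) : Measurable (shiftE τ S) := by
  unfold shiftE
  refine measurable_pi_lambda _ fun i => ?_
  exact measurable_const.add (measurable_pi_apply i)

lemma restrict_shiftE (τ : ℝ) (F : Finset E) (S' : Finset ↥F) (y : E → ℝ) :
    F.restrict (shiftE τ (S'.map (Function.Embedding.subtype _)) y)
      = shiftV τ S' (F.restrict y) := by
  funext i
  simp only [Finset.restrict, shiftE, shiftV]
  congr 1
  have : (i : E) ∈ S'.map (Function.Embedding.subtype _) ↔ i ∈ S' := by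
    rw [Finset.mem_map]
    constructor
    · rintro ⟨a, ha, hai⟩
      have : a = i := Subtype.ext hai
      rwa [← this]
    · intro hi
      exact ⟨i, hi, rfl⟩
  simp only [this]

/-- The mixture expectation on the window `F`. -/
noncomputable def MixE (cF : Finset E → ℝ) (F : Finset E) (τ : ℝ) (f : (E → ℝ) → ℝ) : ℝ :=
  ∑ S ∈ F.powerset, cF S * ∫ y, f (shiftE τ S y) ∂(gamE E)

/-- Comparing the integrals on `↥F → ℝ` and on `E → ℝ`. -/
lemma integral_shiftV_eq {F : Finset E} {f : (E → ℝ) → ℝ} (hf : Measurable f) (hloc : IsLoc F f)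
    (τ : ℝ) (S' : Finset ↥F) :
    ∫ w, f (extZ F (shiftV τ S' w)) ∂(gam ↥F)
      = ∫ y, f (shiftE τ (S'.map (Function.Embedding.subtype _)) y) ∂(gamE E) := by
  have hm : Measurable fun w : ↥F → ℝ => f (extZ F (shiftV τ S' w)) :=
    hf.comp ((measurable_extZ F).comp (measurable_shiftV τ S'))
  rw [← integral_restrict F hm]
  refine integral_congr_ae (Filter.Eventually.of_forall fun y => ?_)
  simp only []
  rw [← restrict_shiftE]
  exact hloc.eq_ext _

lemma Mix_eq_MixE (cF : Finset E → ℝ) {F : Finset E} {f : (E → ℝ) → ℝ} (hf : Measurable f)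
    (hloc : IsLoc F f) (τ : ℝ) :
    Mix (wc cF F) τ (fun w => f (extZ F w)) = MixE cF F τ f := by
  unfold Mix MixE
  rw [← sum_powerset_eq]
  refine Finset.sum_congr rfl fun S' _ => ?_
  rw [integral_shiftV_eq hf hloc]
  rfl

/-- **The law of the flow**, on `E → ℝ`. -/
theorem law_flowE {c : Finset E → Finset E → ℝ} (h : SRSys c) (F : Finset E) {τ : ℝ} (hτ : 0 ≤ τ)
    {f : (E → ℝ) → ℝ} (hf : Measurable f) {M : ℝ} (hM : ∀ z, |f z| ≤ M) (hloc : IsLoc F f) :
    ∫ ζ, f (flowE (c F) F τ ζ) ∂(gamE E) = MixE (c F) F τ f := by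
  have hf0 : Measurable fun w : ↥F → ℝ => f (extZ F w) := hf.comp (measurable_extZ F)
  have h1 : ∀ ζ : E → ℝ, f (flowE (c F) F τ ζ)
      = (fun w => f (extZ F (flowV (wc (c F) F) τ w))) (F.restrict ζ) := by
    intro ζ
    simp only []
    rw [← restrict_flowE, hloc.eq_ext]
  simp_rw [h1]
  have hm : Measurable fun w => f (extZ F (flowV (wc (c F) F) τ w)) :=
    hf0.comp (measurable_flowV_right _ τ)
  rw [integral_restrict F hm,
    integral_flowV (h.adm F) (h.sum_wc F) (by norm_num) (h.covBd F) hτ hf0 (fun w => hM _),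
    Mix_eq_MixE _ hf hloc]

/-- The posterior identity on `E → ℝ`. -/
theorem posteriorE {c : Finset E → Finset E → ℝ} (h : SRSys c) {F : Finset E} (τ : ℝ) {e : E}
    (he : e ∈ F) {f : (E → ℝ) → ℝ} (hf : Measurable f) {M : ℝ} (hM : ∀ z, |f z| ≤ M)
    (hloc : IsLoc F f) :
    ∑ S ∈ F.powerset, c F S * ind' e S * ∫ y, f (shiftE τ S y) ∂(gamE E)
      = ∑ S ∈ F.powerset, c F S * ∫ y, f (shiftE τ S y) * aE (c F) F τ e (shiftE τ S y) ∂(gamE E) := by
  have hf0 : Measurable fun w : ↥F → ℝ => f (extZ F w) := hf.comp (measurable_extZ F)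
  have hp := posterior (h.adm F) τ hf0 (M := M) (fun w => hM _) (⟨e, he⟩ : ↥F)
  rw [← sum_powerset_eq, ← sum_powerset_eq F fun S =>
    c F S * ∫ y, f (shiftE τ S y) * aE (c F) F τ e (shiftE τ S y) ∂(gamE E)]
  convert hp using 2 with S' _ S' _
  · rw [integral_shiftV_eq hf hloc]
    have hind : ind' e (S'.map (Function.Embedding.subtype _)) = ind (⟨e, he⟩ : ↥F) S' := by
      unfold ind' ind
      have : e ∈ S'.map (Function.Embedding.subtype _) ↔ (⟨e, he⟩ : ↥F) ∈ S' := by
        rw [Finset.mem_map]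
        constructor
        · rintro ⟨a, ha, hai⟩
          have : a = ⟨e, he⟩ := Subtype.ext hai
          rwa [← this]
        · intro hi
          exact ⟨_, hi, rfl⟩
      simp only [this]
    rw [hind]
    rfl
  · have hF1 : Measurable fun z : E → ℝ => f z * aE (c F) F τ e z := hf.mul (measurable_aE h F τ e)
    have hl1 : IsLoc F fun z : E → ℝ => f z * aE (c F) F τ e z := by
      intro z z' hz
      simp only []
      rw [hloc z z' hz, isLoc_aE _ _ _ _ z z' hz]
    have := integral_shiftV_eq hF1 hl1 τ S'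
    rw [← this]
    show wc (c F) F S' * _ = wc (c F) F S' * _
    congr 1
    refine integral_congr_ae (Filter.Eventually.of_forall fun w => ?_)
    simp only []
    congr 1
    unfold aE
    rw [dif_pos he, restrict_extZ]

/-! ### Marginals -/

lemma shiftE_inter (τ : ℝ) (S G : Finset E) (y : E → ℝ) {i : E} (hi : i ∈ G) :
    shiftE τ S y i = shiftE τ (S ∩ G) y i := by
  unfold shiftE
  simp [Finset.mem_inter, hi]

/-- Marginalising a mixture expectation over a smaller window, with a weight function. -/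
theorem MixE_marginal {c : Finset E → Finset E → ℝ} (h : SRSys c) {F G : Finset E} (hGF : G ⊆ F)
    {f : (E → ℝ) → ℝ} (hloc : IsLoc G f) (σ : ℝ) (w : Finset E → ℝ) :
    ∑ S ∈ F.powerset, c F S * w (S ∩ G) * ∫ y, f (shiftE σ S y) ∂(gamE E)
      = ∑ S' ∈ G.powerset, c G S' * w S' * ∫ y, f (shiftE σ S' y) ∂(gamE E) := by
  have h1 : ∀ S : Finset E, ∫ y, f (shiftE σ S y) ∂(gamE E)
      = ∫ y, f (shiftE σ (S ∩ G) y) ∂(gamE E) := by
    intro S
    refine integral_congr_ae (Filter.Eventually.of_forall fun y => ?_)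
    exact hloc _ _ fun i hi => shiftE_inter σ S G y hi
  have hmaps : ∀ S ∈ F.powerset, S ∩ G ∈ G.powerset := fun S _ =>
    Finset.mem_powerset.mpr Finset.inter_subset_right
  rw [← Finset.sum_fiberwise_of_maps_to hmaps]
  refine Finset.sum_congr rfl fun S' hS' => ?_
  rw [h.consistent G F hGF S' (Finset.mem_powerset.mp hS'), Finset.sum_mul, Finset.sum_mul]
  refine Finset.sum_congr rfl fun S hS => ?_
  have hS2 : S ∩ G = S' := (Finset.mem_filter.mp hS).2
  rw [h1, hS2]

lemma ind'_inter (e : E) (S : Finset E) {G : Finset E} (he : e ∈ G) :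
    ind' e (S ∩ G) = ind' e S := by
  unfold ind'
  simp [Finset.mem_inter, he]

/-- **Orthogonality**: the drifts of nested windows form a martingale. -/
theorem orthogonality {c : Finset E → Finset E → ℝ} (h : SRSys c) {F G : Finset E} (hGF : G ⊆ F)
    {σ : ℝ} (hσ : 0 ≤ σ) {e : E} (he : e ∈ G) :
    ∫ ζ, (aE (c F) F σ e (flowE (c F) F σ ζ) - aE (c G) G σ e (flowE (c F) F σ ζ)) ^ 2 ∂(gamE E)
      = ∫ ζ, (aE (c F) F σ e (flowE (c F) F σ ζ)) ^ 2 ∂(gamE E)
        - ∫ ζ, (aE (c G) G σ e (flowE (c G) G σ ζ)) ^ 2 ∂(gamE E) := by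
  set aF := aE (c F) F σ e with haF
  set aG := aE (c G) G σ e with haG
  have heF : e ∈ F := hGF he
  have hmF : Measurable aF := measurable_aE h F σ e
  have hmG : Measurable aG := measurable_aE h G σ e
  have hlF : IsLoc F aF := isLoc_aE _ _ _ _
  have hlG : IsLoc G aG := isLoc_aE _ _ _ _
  have hlG' : IsLoc F aG := hlG.mono hGF
  have hbF : ∀ z, |aF z| ≤ 1 := abs_aE_le h F σ e
  have hbG : ∀ z, |aG z| ≤ 1 := abs_aE_le h G σ e
  have sqb : ∀ {x : ℝ}, |x| ≤ 1 → |x ^ 2| ≤ 1 := fun {x} hx => by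
    rw [abs_pow]; exact pow_le_one₀ (abs_nonneg _) hx
  -- the three laws
  have hdiffb : ∀ z, |(aF z - aG z) ^ 2| ≤ 4 := by
    intro z
    rw [abs_pow]
    have h1 := abs_sub (aF z) (aG z)
    have h2 := hbF z
    have h3 := hbG z
    have : |aF z - aG z| ≤ 2 := by linarith
    calc |aF z - aG z| ^ 2 ≤ 2 ^ 2 := pow_le_pow_left₀ (abs_nonneg _) this 2
      _ = 4 := by norm_num
  have hL1 := law_flowE h F hσ (f := fun z => (aF z - aG z) ^ 2) ((hmF.sub hmG).pow_const 2) hdiffb
    (fun z z' hz => by simp only []; rw [hlF z z' hz, hlG' z z' hz])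
  have hL2 := law_flowE h F hσ (f := fun z => (aF z) ^ 2) (hmF.pow_const 2) (fun z => sqb (hbF z))
    (fun z z' hz => by simp only []; rw [hlF z z' hz])
  have hL3 := law_flowE h G hσ (f := fun z => (aG z) ^ 2) (hmG.pow_const 2) (fun z => sqb (hbG z))
    (fun z z' hz => by simp only []; rw [hlG z z' hz])
  rw [hL1, hL2, hL3]
  -- the cross term via the posterior identity
  have hcross : ∑ S ∈ F.powerset, c F S * ∫ y, aG (shiftE σ S y) * aF (shiftE σ S y) ∂(gamE E)
      = ∑ S ∈ G.powerset, c G S * ∫ y, (aG (shiftE σ S y)) ^ 2 ∂(gamE E) := by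
    have p1 := posteriorE h σ heF hmG hbG hlG'
    have p2 := posteriorE h σ he hmG hbG hlG
    have m1 := MixE_marginal h hGF hlG σ (ind' e)
    simp_rw [ind'_inter e _ he] at m1
    rw [← p1, m1, p2]
    refine Finset.sum_congr rfl fun S _ => ?_
    congr 1
    refine integral_congr_ae (Filter.Eventually.of_forall fun y => ?_)
    simp only []
    rw [pow_two]
  have hsq : ∑ S ∈ F.powerset, c F S * ∫ y, (aG (shiftE σ S y)) ^ 2 ∂(gamE E)
      = ∑ S ∈ G.powerset, c G S * ∫ y, (aG (shiftE σ S y)) ^ 2 ∂(gamE E) := by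
    have m1 := MixE_marginal h hGF (f := fun z => (aG z) ^ 2)
      (fun z z' hz => by simp only []; rw [hlG z z' hz]) σ (fun _ => 1)
    simpa using m1
  unfold MixE
  have hi1 : ∀ S : Finset E, Integrable (fun y => (aF (shiftE σ S y)) ^ 2) (gamE E) := fun S =>
    integrable_of_bdd ((hmF.pow_const 2).comp (measurable_shiftE σ S)) (fun y => sqb (hbF _))
  have hi2 : ∀ S : Finset E, Integrable (fun y => (aG (shiftE σ S y)) ^ 2) (gamE E) := fun S =>
    integrable_of_bdd ((hmG.pow_const 2).comp (measurable_shiftE σ S)) (fun y => sqb (hbG _))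
  have hi3 : ∀ S : Finset E, Integrable (fun y => aG (shiftE σ S y) * aF (shiftE σ S y)) (gamE E) :=
    fun S => by
      refine integrable_of_bdd (M := 1) ((hmG.mul hmF).comp (measurable_shiftE σ S)) fun y => ?_
      rw [abs_mul]
      exact mul_le_one₀ (hbG _) (abs_nonneg _) (hbF _)
  have hexp : ∀ S : Finset E, ∫ y, (aF (shiftE σ S y) - aG (shiftE σ S y)) ^ 2 ∂(gamE E)
      = ∫ y, (aF (shiftE σ S y)) ^ 2 ∂(gamE E)
        - 2 * ∫ y, aG (shiftE σ S y) * aF (shiftE σ S y) ∂(gamE E)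
        + ∫ y, (aG (shiftE σ S y)) ^ 2 ∂(gamE E) := by
    intro S
    have e0 : ∫ y, 2 * (aG (shiftE σ S y) * aF (shiftE σ S y)) ∂(gamE E)
        = 2 * ∫ y, aG (shiftE σ S y) * aF (shiftE σ S y) ∂(gamE E) := integral_const_mul _ _
    have e1 : ∫ y, ((aF (shiftE σ S y)) ^ 2 - 2 * (aG (shiftE σ S y) * aF (shiftE σ S y))) ∂(gamE E)
        = ∫ y, (aF (shiftE σ S y)) ^ 2 ∂(gamE E)
          - ∫ y, 2 * (aG (shiftE σ S y) * aF (shiftE σ S y)) ∂(gamE E) :=
      integral_sub (hi1 S) ((hi3 S).const_mul 2)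
    have e2 : ∫ y, ((aF (shiftE σ S y)) ^ 2 - 2 * (aG (shiftE σ S y) * aF (shiftE σ S y))
          + (aG (shiftE σ S y)) ^ 2) ∂(gamE E)
        = ∫ y, ((aF (shiftE σ S y)) ^ 2 - 2 * (aG (shiftE σ S y) * aF (shiftE σ S y))) ∂(gamE E)
          + ∫ y, (aG (shiftE σ S y)) ^ 2 ∂(gamE E) :=
      integral_add ((hi1 S).sub ((hi3 S).const_mul 2)) (hi2 S)
    rw [← e0, ← e1, ← e2]
    refine integral_congr_ae (Filter.Eventually.of_forall fun y => ?_)
    simp only []
    ring
  simp_rw [hexp]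
  have hsplit : ∑ S ∈ F.powerset, c F S * (∫ y, (aF (shiftE σ S y)) ^ 2 ∂(gamE E)
        - 2 * ∫ y, aG (shiftE σ S y) * aF (shiftE σ S y) ∂(gamE E)
        + ∫ y, (aG (shiftE σ S y)) ^ 2 ∂(gamE E))
      = ∑ S ∈ F.powerset, c F S * ∫ y, (aF (shiftE σ S y)) ^ 2 ∂(gamE E)
        - 2 * ∑ S ∈ F.powerset, c F S * ∫ y, aG (shiftE σ S y) * aF (shiftE σ S y) ∂(gamE E)
        + ∑ S ∈ F.powerset, c F S * ∫ y, (aG (shiftE σ S y)) ^ 2 ∂(gamE E) := by
    rw [Finset.mul_sum, ← Finset.sum_sub_distrib, ← Finset.sum_add_distrib]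
    refine Finset.sum_congr rfl fun S _ => ?_
    ring
  rw [hsplit, hcross, hsq]
  ring

end Crest.Agent.Lib.SRFlow
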